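import Mathlib

namespace Vale.Agent.Lib.P237

open MeasureTheory Set
open scoped Pointwise

/-- One-dimensional Brunn-Minkowski for a difference of two compact sets. -/
theorem volume_sub_compact {X Y : Set ℝ} (hX : IsCompact X) (hXn : X.Nonempty) (hY : IsCompact Y)
    (hYn : Y.Nonempty) : volume X + volume Y ≤ volume (X - Y) := by
  set x0 := sSup X with hx0
  set y0 := sSup Y with hy0
  have hx0m : x0 ∈ X := hX.sSup_mem hXn
  have hy0m : y0 ∈ Y := hY.sSup_mem hYn
  have hxle : ∀ x ∈ X, x ≤ x0 := fun x hx => le_csSup hX.bddAbove hx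
  have hyle : ∀ y ∈ Y, y ≤ y0 := fun y hy => le_csSup hY.bddAbove hy
  set A : Set ℝ := (fun x => x + (-y0)) '' X with hA
  set B : Set ℝ := (fun z => x0 + z) '' ((-1 : ℝ) • Y) with hB
  have hAm : MeasurableSet A := (hX.image (by fun_prop)).measurableSet
  have hBm : MeasurableSet B := ((hY.smul (-1 : ℝ)).image (by fun_prop)).measurableSet
  have hAsub : A ⊆ X - Y := by
    rintro _ ⟨x, hx, rfl⟩
    exact ⟨x, hx, y0, hy0m, by ring⟩
  have hBsub : B ⊆ X - Y := by
    rintro _ ⟨_, ⟨y, hy, rfl⟩, rfl⟩
    exact ⟨x0, hx0m, y, hy, by simp [sub_eq_add_neg]⟩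
  have hAB : A ∩ B ⊆ {x0 - y0} := by
    rintro a ⟨⟨x, hx, rfl⟩, ⟨_, ⟨y, hy, rfl⟩, h2⟩⟩
    have h3 : x0 + -y = x + -y0 := by simpa using h2
    have h4 := hxle x hx
    have h5 := hyle y hy
    rw [mem_singleton_iff]
    linarith
  have hvA : volume A = volume X := by
    rw [hA, image_add_right, measure_preimage_add_right]
  have hvB : volume B = volume Y := by
    rw [hB, image_add_left, measure_preimage_add, Measure.addHaar_smul]
    simp
  have h0 : volume (A ∩ B) = 0 := measure_mono_null hAB (by simp)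
  calc volume X + volume Y = volume A + volume B := by rw [hvA, hvB]
    _ = volume (A ∪ B) + volume (A ∩ B) := (measure_union_add_inter A hBm).symm
    _ = volume (A ∪ B) := by rw [h0, add_zero]
    _ ≤ volume (X - Y) := measure_mono (union_subset hAsub hBsub)

theorem slice_eq_image (C : Set (ℝ × ℝ)) (a : ℝ) :
    Prod.mk a ⁻¹' C = Prod.snd '' (C ∩ Prod.fst ⁻¹' {a}) := by
  ext y
  constructor
  · intro h
    exact ⟨(a, y), ⟨h, rfl⟩, rfl⟩
  · rintro ⟨⟨a', y'⟩, ⟨h, ha⟩, rfl⟩
    have : a' = a := ha
    subst this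
    exact h

theorem isCompact_slice {C : Set (ℝ × ℝ)} (hC : IsCompact C) (a : ℝ) :
    IsCompact (Prod.mk a ⁻¹' C) := by
  rw [slice_eq_image]
  exact (hC.inter_right (isClosed_singleton.preimage continuous_fst)).image continuous_snd

theorem isCompact_sub_self {X : Type*} [AddGroup X] [TopologicalSpace X] [ContinuousSub X]
    {C : Set X} (hC : IsCompact C) : IsCompact (C - C) := by
  rw [← sub_image_prod]
  exact (hC.prod hC).image (continuous_fst.sub continuous_snd)

/-- Planar Brunn-Minkowski for the difference body of a compact set. -/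
theorem bm_plane {C : Set (ℝ × ℝ)} (hC : IsCompact C) : 4 * volume C ≤ volume (C - C) := by
  have hD : IsCompact (C - C) := isCompact_sub_self hC
  have hCm : MeasurableSet C := hC.measurableSet
  have hDm : MeasurableSet (C - C) := hD.measurableSet
  set f : ℝ → ENNReal := fun a => volume (Prod.mk a ⁻¹' C) with hf
  set F : ℝ → ENNReal := fun x => volume (Prod.mk x ⁻¹' (C - C)) with hF
  have hfm : Measurable f := measurable_measure_prodMk_left hCm
  have hFm : Measurable F := measurable_measure_prodMk_left hDm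
  have hffin : ∀ a, f a ≠ ⊤ := fun a => (isCompact_slice hC a).measure_lt_top.ne
  have hFfin : ∀ x, F x ≠ ⊤ := fun x => (isCompact_slice hD x).measure_lt_top.ne
  have hkey : ∀ a b, (Prod.mk a ⁻¹' C).Nonempty → (Prod.mk b ⁻¹' C).Nonempty →
      f a + f b ≤ F (a - b) := by
    intro a b ha hb
    refine (volume_sub_compact (isCompact_slice hC a) ha (isCompact_slice hC b) hb).trans ?_
    apply measure_mono
    rintro _ ⟨y1, h1, y2, h2, rfl⟩
    exact ⟨(a, y1), h1, (b, y2), h2, rfl⟩
  set fr : ℝ → ℝ := fun a => (f a).toReal with hfr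
  set Fr : ℝ → ℝ := fun x => (F x).toReal / 2 with hFr
  have hfrm : Measurable fr := hfm.ennreal_toReal
  have hFrm : Measurable Fr := hFm.ennreal_toReal.div_const 2
  have e1 : volume C = ∫⁻ a, ENNReal.ofReal (fr a) := by
    rw [Measure.volume_eq_prod, Measure.prod_apply hCm]
    apply lintegral_congr
    intro a
    rw [hfr, ENNReal.ofReal_toReal (hffin a)]
  have e2 : volume (C - C) / 2 = ∫⁻ x, ENNReal.ofReal (Fr x) := by
    rw [Measure.volume_eq_prod, Measure.prod_apply hDm]
    have : ∀ x, ENNReal.ofReal (Fr x) = F x * 2⁻¹ := by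
      intro x
      rw [hFr, ENNReal.ofReal_div_of_pos (by norm_num), ENNReal.ofReal_toReal (hFfin x),
        div_eq_mul_inv]
      simp
    simp_rw [this]
    rw [lintegral_mul_const _ hFm, div_eq_mul_inv]
  have l1 := lintegral_eq_lintegral_meas_lt volume (f := fr)
    (Filter.Eventually.of_forall fun a => ENNReal.toReal_nonneg) hfrm.aemeasurable
  have l2 := lintegral_eq_lintegral_meas_lt volume (f := Fr)
    (Filter.Eventually.of_forall fun x => div_nonneg ENNReal.toReal_nonneg (by norm_num))
    hFrm.aemeasurable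
  have hlevel : ∀ t ∈ Ioi (0 : ℝ), 2 * volume {a | t < fr a} ≤ volume {x | t < Fr x} := by
    intro t ht
    have ht0 : (0 : ℝ) < t := ht
    have hAm : MeasurableSet {a | t < fr a} := measurableSet_lt measurable_const hfrm
    have hne : ∀ a, t < fr a → (Prod.mk a ⁻¹' C).Nonempty := by
      intro a ha
      by_contra hcon
      rw [not_nonempty_iff_eq_empty] at hcon
      have : fr a = 0 := by simp [hfr, hf, hcon]
      rw [this] at ha
      linarith
    have hAfin : volume {a | t < fr a} ≠ ⊤ := by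
      apply ne_top_of_le_ne_top ((hC.image continuous_fst).measure_lt_top (μ := (volume : Measure ℝ))).ne
      apply measure_mono
      intro a ha
      obtain ⟨y, hy⟩ := hne a ha
      exact ⟨(a, y), hy, rfl⟩
    have hsub : ∀ K' : Set ℝ, K' ⊆ {a | t < fr a} → K' - K' ⊆ {x | t < Fr x} := by
      rintro K' hK' _ ⟨a, ha, b, hb, rfl⟩
      have ha' : t < fr a := hK' ha
      have hb' : t < fr b := hK' hb
      have h1 := hkey a b (hne a ha') (hne b hb')
      have h2 := ENNReal.toReal_mono (hFfin _) h1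
      rw [ENNReal.toReal_add (hffin a) (hffin b)] at h2
      show t < (F (a - b)).toReal / 2
      have : fr a + fr b ≤ (F (a - b)).toReal := h2
      linarith
    have hcompact : ∀ K' : Set ℝ, K' ⊆ {a | t < fr a} → IsCompact K' →
        2 * volume K' ≤ volume {x | t < Fr x} := by
      intro K' hK' hK'c
      rcases K'.eq_empty_or_nonempty with h | h
      · simp [h]
      · calc 2 * volume K' = volume K' + volume K' := two_mul _
          _ ≤ volume (K' - K') := volume_sub_compact hK'c h hK'c h
          _ ≤ volume {x | t < Fr x} := measure_mono (hsub K' hK')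
    have hdiv : volume {a | t < fr a} ≤ volume {x | t < Fr x} / 2 := by
      apply le_of_forall_lt_imp_le_of_dense
      intro r hr
      obtain ⟨K', hK', hK'c, hrK⟩ := hAm.exists_lt_isCompact_of_ne_top hAfin hr
      have h3 := hcompact K' hK' hK'c
      rw [ENNReal.le_div_iff_mul_le (Or.inl (by norm_num)) (Or.inl (by norm_num))]
      calc r * 2 ≤ volume K' * 2 := by gcongr
        _ = 2 * volume K' := mul_comm _ _
        _ ≤ _ := h3
    rw [ENNReal.le_div_iff_mul_le (Or.inl (by norm_num)) (Or.inl (by norm_num))] at hdiv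
    rw [mul_comm]; exact hdiv
  have hint : 2 * ∫⁻ t in Ioi (0 : ℝ), volume {a | t < fr a}
      ≤ ∫⁻ t in Ioi (0 : ℝ), volume {x | t < Fr x} := by
    rw [← lintegral_const_mul' _ _ (by norm_num)]
    exact setLIntegral_mono' measurableSet_Ioi hlevel
  rw [← l1, ← l2, ← e1, ← e2] at hint
  rw [ENNReal.le_div_iff_mul_le (Or.inl (by norm_num)) (Or.inl (by norm_num))] at hint
  calc 4 * volume C = 2 * volume C * 2 := by ring
    _ ≤ volume (C - C) := hint

/-- Planar Brunn-Minkowski for the difference body, in coordinates `Fin 2 → ℝ`. -/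
theorem bm_fin2 {L : Set (Fin 2 → ℝ)} (hL : IsCompact L) : 4 * volume L ≤ volume (L - L) := by
  have hmp := volume_preserving_finTwoArrow ℝ
  set e := (MeasurableEquiv.finTwoArrow : (Fin 2 → ℝ) ≃ᵐ ℝ × ℝ) with he
  have hinj : Function.Injective e := e.injective
  have hcont : Continuous e := by
    have : (e : (Fin 2 → ℝ) → ℝ × ℝ) = fun x => (x 0, x 1) := rfl
    rw [this]; fun_prop
  have h1 : volume L = volume (e '' L) := by
    rw [← hmp.measure_preimage_equiv (e '' L), preimage_image_eq _ hinj]
  have h2 : volume (L - L) = volume (e '' (L - L)) := by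
    rw [← hmp.measure_preimage_equiv (e '' (L - L)), preimage_image_eq _ hinj]
  have h3 : e '' (L - L) = e '' L - e '' L := by
    ext z
    constructor
    · rintro ⟨_, ⟨x, hx, y, hy, rfl⟩, rfl⟩
      exact ⟨e x, ⟨x, hx, rfl⟩, e y, ⟨y, hy, rfl⟩, rfl⟩
    · rintro ⟨_, ⟨x, hx, rfl⟩, _, ⟨y, hy, rfl⟩, rfl⟩
      exact ⟨x - y, ⟨x, hx, y, hy, rfl⟩, rfl⟩
  rw [h1, h2, h3]
  exact bm_plane (hL.image hcont)

end Vale.Agent.Lib.P237
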