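import Vale.Agent.Lib.P237.Defs

namespace Vale.Agent.Lib.P237

open MeasureTheory Set
open scoped Pointwise

variable {E : Type*} [NormedAddCommGroup E] [NormedSpace ℝ E]

/-- The set `K + [0, a u]`. -/
def cyl (K : Set E) (u : E) (a : ℝ) : Set E :=
  {x | ∃ k ∈ K, ∃ τ ∈ Set.Icc (0 : ℝ) a, x = k + τ • u}

theorem add_seg_eq_cyl (K : Set E) (u : E) : K + seg u = cyl K u 1 := by
  ext x
  constructor
  · rintro ⟨k, hk, y, ⟨τ, hτ, rfl⟩, rfl⟩
    exact ⟨k, hk, τ, hτ, rfl⟩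
  · rintro ⟨k, hk, τ, hτ, rfl⟩
    exact ⟨k, hk, τ • u, ⟨τ, hτ, rfl⟩, rfl⟩

theorem cyl_zero (K : Set E) (u : E) : cyl K u 0 = K := by
  ext x
  constructor
  · rintro ⟨k, hk, τ, ⟨h0, h1⟩, rfl⟩
    have : τ = 0 := le_antisymm h1 h0
    rw [this, zero_smul, add_zero]; exact hk
  · intro hx
    exact ⟨x, hx, 0, ⟨le_refl _, le_refl _⟩, by rw [zero_smul, add_zero]⟩

theorem cyl_mono (K : Set E) (u : E) {a b : ℝ} (hab : a ≤ b) : cyl K u a ⊆ cyl K u b := by
  rintro x ⟨k, hk, τ, ⟨h0, h1⟩, rfl⟩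
  exact ⟨k, hk, τ, ⟨h0, h1.trans hab⟩, rfl⟩

theorem subset_cyl (K : Set E) (u : E) {a : ℝ} (ha : 0 ≤ a) : K ⊆ cyl K u a := by
  intro x hx
  exact ⟨x, hx, 0, ⟨le_refl _, ha⟩, by rw [zero_smul, add_zero]⟩

theorem cyl_eq_image (K : Set E) (u : E) (a : ℝ) :
    cyl K u a = (fun p : E × ℝ => p.1 + p.2 • u) '' (K ×ˢ Set.Icc (0 : ℝ) a) := by
  ext x
  constructor
  · rintro ⟨k, hk, τ, hτ, rfl⟩
    exact ⟨(k, τ), ⟨hk, hτ⟩, rfl⟩
  · rintro ⟨⟨k, τ⟩, ⟨hk, hτ⟩, rfl⟩
    exact ⟨k, hk, τ, hτ, rfl⟩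

theorem isCompact_cyl {K : Set E} (hK : IsCompact K) (u : E) (a : ℝ) : IsCompact (cyl K u a) := by
  rw [cyl_eq_image]
  apply (hK.prod isCompact_Icc).image
  fun_prop

theorem isCompact_seg (u : E) : IsCompact (seg u) := by
  unfold seg
  apply isCompact_Icc.image
  fun_prop

theorem cyl_diff {K : Set E} (hK : Convex ℝ K) (u : E) {a b : ℝ} (ha : 0 ≤ a) (_hb : 0 ≤ b) :
    cyl K u (a + b) \ cyl K u a = (fun x => a • u + x) '' (cyl K u b \ K) := by
  ext x
  constructor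
  · rintro ⟨⟨k, hk, τ, ⟨hτ0, hτ1⟩, rfl⟩, hx⟩
    have hτa : a < τ := by
      by_contra hcon
      rw [not_lt] at hcon
      exact hx ⟨k, hk, τ, ⟨hτ0, hcon⟩, rfl⟩
    refine ⟨k + (τ - a) • u, ⟨⟨k, hk, τ - a, ⟨by linarith, by linarith⟩, rfl⟩, ?_⟩, ?_⟩
    · intro hy
      apply hx
      refine ⟨k + (τ - a) • u, hy, a, ⟨ha, le_refl a⟩, ?_⟩
      rw [add_assoc, ← add_smul]
      congr 2; ring
    · show a • u + (k + (τ - a) • u) = k + τ • u
      rw [sub_smul]; abel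
  · rintro ⟨y, ⟨⟨k, hk, τ, ⟨hτ0, hτ1⟩, rfl⟩, hy⟩, rfl⟩
    constructor
    · refine ⟨k, hk, a + τ, ⟨by linarith, by linarith⟩, ?_⟩
      show a • u + (k + τ • u) = k + (a + τ) • u
      rw [add_smul]; abel
    · rintro ⟨k', hk', σ, ⟨hσ0, hσ1⟩, hx⟩
      apply hy
      by_cases hz : τ + (a - σ) = 0
      · have hτ : τ = 0 := by linarith
        rw [hτ, zero_smul, add_zero]; exact hk
      · have hpos : 0 < τ + (a - σ) := lt_of_le_of_ne (by linarith) (Ne.symm hz)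
        have hk'eq : k' = k + (τ + (a - σ)) • u := by
          have hx' : a • u + (k + τ • u) = k' + σ • u := hx
          have h1 : k' = a • u + (k + τ • u) - σ • u := by rw [hx']; abel
          rw [h1, add_smul, sub_smul]; abel
        have hc := hK hk hk' (a := (a - σ) / (τ + (a - σ))) (b := τ / (τ + (a - σ)))
          (div_nonneg (by linarith) hpos.le) (div_nonneg hτ0 hpos.le)
          (by field_simp; ring)
        have he : ((a - σ) / (τ + (a - σ))) • k + (τ / (τ + (a - σ))) • k' = k + τ • u := by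
          rw [hk'eq, smul_add, ← add_assoc, ← add_smul, smul_smul]
          have e1 : (a - σ) / (τ + (a - σ)) + τ / (τ + (a - σ)) = 1 := by field_simp; ring
          have e2 : τ / (τ + (a - σ)) * (τ + (a - σ)) = τ := by field_simp
          rw [e1, e2, one_smul]
        rw [← he]; exact hc

variable [MeasurableSpace E] [BorelSpace E]

theorem measure_cyl_add (μ : Measure E) [μ.IsAddLeftInvariant] [IsFiniteMeasureOnCompacts μ]
    {K : Set E} (hK : Convex ℝ K) (hKc : IsCompact K) (u : E) {a b : ℝ} (ha : 0 ≤ a)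
    (hb : 0 ≤ b) :
    μ (cyl K u (a + b)) + μ K = μ (cyl K u a) + μ (cyl K u b) := by
  have hm : ∀ c, MeasurableSet (cyl K u c) := fun c => (isCompact_cyl hKc u c).measurableSet
  have h1 : cyl K u a ⊆ cyl K u (a + b) := cyl_mono K u (by linarith)
  have h2 : K ⊆ cyl K u b := subset_cyl K u hb
  have e1 : μ (cyl K u a) + μ (cyl K u (a + b) \ cyl K u a) = μ (cyl K u (a + b)) := by
    rw [measure_add_sdiff (hm a).nullMeasurableSet, union_eq_self_of_subset_left h1]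
  have e2 : μ K + μ (cyl K u b \ K) = μ (cyl K u b) := by
    rw [measure_add_sdiff hKc.measurableSet.nullMeasurableSet, union_eq_self_of_subset_left h2]
  have e3 : μ (cyl K u (a + b) \ cyl K u a) = μ (cyl K u b \ K) := by
    rw [cyl_diff hK u ha hb, image_add_left, measure_preimage_add]
  rw [← e1, e3, ← e2]
  ring

theorem measure_cyl_nat (μ : Measure E) [μ.IsAddLeftInvariant] [IsFiniteMeasureOnCompacts μ]
    {K : Set E} (hK : Convex ℝ K) (hKc : IsCompact K) (u : E) (N : ℕ) :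
    μ (cyl K u N) + N * μ K = μ K + N * μ (cyl K u 1) := by
  induction N with
  | zero => simp [cyl_zero]
  | succ N ih =>
    have h := measure_cyl_add μ hK hKc u (a := (N : ℝ)) (b := 1) (Nat.cast_nonneg N) zero_le_one
    have hc : ((N + 1 : ℕ) : ℝ) = (N : ℝ) + 1 := by push_cast; ring
    rw [hc]
    have e : μ (cyl K u (↑N + 1)) + ((N + 1 : ℕ) : ENNReal) * μ K
        = (μ (cyl K u (↑N + 1)) + μ K) + N * μ K := by push_cast; ring
    rw [e, h]
    have e' : μ (cyl K u ↑N) + μ (cyl K u 1) + ↑N * μ K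
        = (μ (cyl K u ↑N) + ↑N * μ K) + μ (cyl K u 1) := by ring
    rw [e', ih]; push_cast; ring

theorem measure_cyl_nat_real (μ : Measure E) [μ.IsAddLeftInvariant] [IsFiniteMeasureOnCompacts μ]
    {K : Set E} (hK : Convex ℝ K) (hKc : IsCompact K) (u : E) (N : ℕ) :
    (μ (cyl K u N)).toReal
      = (μ K).toReal + N * ((μ (cyl K u 1)).toReal - (μ K).toReal) := by
  have hfin : ∀ c, μ (cyl K u c) ≠ ⊤ := fun c => (isCompact_cyl hKc u c).measure_lt_top.ne
  have hKfin : μ K ≠ ⊤ := hKc.measure_lt_top.ne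
  have h := congrArg ENNReal.toReal (measure_cyl_nat μ hK hKc u N)
  rw [ENNReal.toReal_add (hfin _) (ENNReal.mul_ne_top (ENNReal.natCast_ne_top N) hKfin),
    ENNReal.toReal_add hKfin (ENNReal.mul_ne_top (ENNReal.natCast_ne_top N) (hfin 1)),
    ENNReal.toReal_mul, ENNReal.toReal_mul, ENNReal.toReal_natCast] at h
  linarith

theorem le_of_forall_nat_mul_le {x y C : ℝ} (h : ∀ N : ℕ, (N : ℝ) * x ≤ N * y + C) : x ≤ y := by
  by_contra hcon
  rw [not_le] at hcon
  have hpos : 0 < x - y := by linarith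
  obtain ⟨N, hN⟩ := exists_nat_gt (C / (x - y))
  rw [div_lt_iff₀ hpos] at hN
  have := h N
  nlinarith

end Vale.Agent.Lib.P237
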