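import Vale.Agent.Lib.P237.Defs2
import Vale.Agent.Lib.P237.Seg

namespace Vale.Agent.Lib.P237

open MeasureTheory Set
open scoped Pointwise

/-- The Euclidean ball of radius `r` about the origin, in coordinates. -/
def eball (n : ℕ) (r : ℝ) : Set (Fin n → ℝ) := {x | ∑ i, x i ^ 2 ≤ r ^ 2}

theorem sum_sq_eq_dot {n : ℕ} (x : Fin n → ℝ) : ∑ i, x i ^ 2 = x ⬝ᵥ x := by
  simp only [dotProduct, sq]

theorem dot_self_nonneg {n : ℕ} (x : Fin n → ℝ) : 0 ≤ x ⬝ᵥ x := by
  rw [← sum_sq_eq_dot]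
  exact Finset.sum_nonneg fun i _ => sq_nonneg _

theorem mem_eball_iff {n : ℕ} {r : ℝ} (hr : 0 ≤ r) (x : Fin n → ℝ) :
    x ∈ eball n r ↔ √(x ⬝ᵥ x) ≤ r := by
  show ∑ i, x i ^ 2 ≤ r ^ 2 ↔ _
  rw [sum_sq_eq_dot, Real.sqrt_le_left hr]

theorem eball_eq_image (n : ℕ) {r : ℝ} (hr : 0 ≤ r) :
    eball n r = (WithLp.ofLp) '' Metric.closedBall (0 : EuclideanSpace ℝ (Fin n)) r := by
  ext x
  constructor
  · intro hx
    refine ⟨WithLp.toLp 2 x, ?_, rfl⟩
    rw [mem_closedBall_zero_iff, EuclideanSpace.norm_eq]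
    simp only [Real.norm_eq_abs, sq_abs]
    rw [Real.sqrt_le_left hr]
    exact hx
  · rintro ⟨y, hy, rfl⟩
    rw [mem_closedBall_zero_iff, EuclideanSpace.norm_eq] at hy
    simp only [Real.norm_eq_abs, sq_abs] at hy
    rw [Real.sqrt_le_left hr] at hy
    exact hy

theorem eball_eq_preimage (n : ℕ) {r : ℝ} (hr : 0 ≤ r) :
    eball n r = (WithLp.toLp 2) ⁻¹' Metric.closedBall (0 : EuclideanSpace ℝ (Fin n)) r := by
  ext x
  rw [mem_preimage, mem_closedBall_zero_iff, EuclideanSpace.norm_eq]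
  simp only [Real.norm_eq_abs, sq_abs]
  rw [Real.sqrt_le_left hr]
  rfl

theorem isCompact_eball (n : ℕ) {r : ℝ} (hr : 0 ≤ r) : IsCompact (eball n r) := by
  rw [eball_eq_image n hr]
  exact (isCompact_closedBall 0 r).image (PiLp.continuous_ofLp 2 _)

theorem convex_eball (n : ℕ) {r : ℝ} (hr : 0 ≤ r) : Convex ℝ (eball n r) := by
  rw [eball_eq_preimage n hr]
  exact (convex_closedBall (0 : EuclideanSpace ℝ (Fin n)) r).is_linear_preimage
    ⟨fun _ _ => rfl, fun _ _ => rfl⟩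

theorem kappa_pos (n : ℕ) : 0 < kappa n := by
  unfold kappa
  exact ENNReal.toReal_pos (Metric.measure_ball_pos volume _ one_pos).ne'
    measure_ball_lt_top.ne

theorem volume_eball (n : ℕ) {r : ℝ} (hr : 0 ≤ r) :
    volume (eball n r) = ENNReal.ofReal (kappa n * r ^ n) := by
  rw [eball_eq_preimage n hr,
    (PiLp.volume_preserving_toLp (Fin n)).measure_preimage
      Metric.isClosed_closedBall.measurableSet.nullMeasurableSet,
    Measure.addHaar_closedBall _ _ hr, finrank_euclideanSpace_fin]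
  unfold kappa
  rw [mul_comm (ENNReal.toReal _), ENNReal.ofReal_mul (pow_nonneg hr n),
    ENNReal.ofReal_toReal measure_ball_lt_top.ne]

theorem volume_eball_toReal (n : ℕ) {r : ℝ} (hr : 0 ≤ r) :
    (volume (eball n r)).toReal = kappa n * r ^ n := by
  rw [volume_eball n hr, ENNReal.toReal_ofReal (mul_nonneg (kappa_pos n).le (pow_nonneg hr n))]

/-- Dropping the last coordinate. -/
def dropLast {k : ℕ} (x : Fin (k + 1) → ℝ) : Fin k → ℝ := fun i => x i.castSucc

/-- The last coordinate vector. -/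
def lastVec (k : ℕ) : Fin (k + 1) → ℝ := Fin.snoc (0 : Fin k → ℝ) (1 : ℝ)

/-- Splitting off the last coordinate. -/
def splitL (k : ℕ) (x : Fin (k + 1) → ℝ) : ℝ × (Fin k → ℝ) := (x (Fin.last k), dropLast x)

theorem volume_preimage_splitL {k : ℕ} (S : Set (ℝ × (Fin k → ℝ))) :
    volume (splitL k ⁻¹' S) = volume S := by
  have hmp := volume_preserving_piFinSuccAbove (fun _ : Fin (k + 1) => ℝ) (Fin.last k)
  have h := hmp.measure_preimage_equiv S
  have heq : (⇑(MeasurableEquiv.piFinSuccAbove (fun _ : Fin (k + 1) => ℝ) (Fin.last k)))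
      = splitL k := by
    funext x
    simp only [MeasurableEquiv.piFinSuccAbove, Fin.insertNthEquiv, splitL]
    refine Prod.ext rfl ?_
    funext i
    simp only [dropLast, Fin.removeNth_last]
    rfl
  rw [heq] at h
  exact h

theorem dot_split {k : ℕ} (x u : Fin (k + 1) → ℝ) :
    x ⬝ᵥ u = dropLast x ⬝ᵥ dropLast u + x (Fin.last k) * u (Fin.last k) := by
  simp only [dotProduct, dropLast]
  exact Fin.sum_univ_castSucc _

theorem isLinearMap_dropLast {k : ℕ} : IsLinearMap ℝ (dropLast (k := k)) :=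
  ⟨fun _ _ => rfl, fun _ _ => rfl⟩

theorem dropLast_snoc {k : ℕ} (y : Fin k → ℝ) (z : ℝ) :
    dropLast (Fin.snoc (α := fun _ => ℝ) y z) = y := by
  funext i
  simp [dropLast]

theorem snoc_dropLast {k : ℕ} (x : Fin (k + 1) → ℝ) :
    Fin.snoc (α := fun _ => ℝ) (dropLast x) (x (Fin.last k)) = x := by
  funext i
  refine Fin.lastCases ?_ (fun j => ?_) i
  · simp
  · simp [dropLast]

theorem lastVec_last (k : ℕ) : lastVec k (Fin.last k) = 1 := by
  simp [lastVec]

theorem dropLast_lastVec (k : ℕ) : dropLast (lastVec k) = 0 := by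
  unfold lastVec
  exact dropLast_snoc _ _

theorem continuous_dropLast {k : ℕ} : Continuous (dropLast (k := k)) := by
  unfold dropLast
  fun_prop

theorem dropLast_image_eball (k : ℕ) (r : ℝ) :
    dropLast '' eball (k + 1) r = eball k r := by
  ext y
  constructor
  · rintro ⟨x, hx, rfl⟩
    have hx' : ∑ i, x i ^ 2 ≤ r ^ 2 := hx
    rw [Fin.sum_univ_castSucc] at hx'
    show ∑ i, (dropLast x) i ^ 2 ≤ r ^ 2
    have : 0 ≤ x (Fin.last k) ^ 2 := sq_nonneg _
    simp only [dropLast]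
    linarith
  · intro hy
    refine ⟨Fin.snoc (α := fun _ => ℝ) y 0, ?_, dropLast_snoc y 0⟩
    show ∑ i, (Fin.snoc (α := fun _ => ℝ) y (0 : ℝ) : Fin (k + 1) → ℝ) i ^ 2 ≤ r ^ 2
    rw [Fin.sum_univ_castSucc]
    simp only [Fin.snoc_castSucc, Fin.snoc_last]
    have hy' : ∑ i, y i ^ 2 ≤ r ^ 2 := hy
    simpa using hy'

end Vale.Agent.Lib.P237
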