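import Vale.Agent.Lib.P237.Reflect

namespace Vale.Agent.Lib.P237

open MeasureTheory Set
open scoped Pointwise

variable {k : ℕ}

theorem lastVec_castSucc (k : ℕ) (j : Fin k) : lastVec k j.castSucc = 0 := by
  simp [lastVec]

theorem lastVec_dot (x : Fin (k + 1) → ℝ) : x ⬝ᵥ lastVec k = x (Fin.last k) := by
  rw [dot_split, dropLast_lastVec, dotProduct_zero, zero_add, lastVec_last, mul_one]

theorem smul_lastVec_dot_self (τ : ℝ) : (τ • lastVec k) ⬝ᵥ (τ • lastVec k) = τ * τ := by
  rw [smul_dotProduct, dotProduct_smul, lastVec_dot, lastVec_last, smul_eq_mul, smul_eq_mul,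
    mul_one]

theorem projPerp_lastVec {τ : ℝ} (hτ : τ ≠ 0) (x : Fin (k + 1) → ℝ) :
    projPerp (τ • lastVec k) x = Fin.snoc (α := fun _ => ℝ) (dropLast x) 0 := by
  unfold projPerp
  rw [smul_lastVec_dot_self, dotProduct_smul, lastVec_dot, smul_eq_mul]
  funext i
  refine Fin.lastCases ?_ (fun j => ?_) i
  · simp only [Pi.sub_apply, Pi.smul_apply, lastVec_last, smul_eq_mul, mul_one, Fin.snoc_last]
    field_simp
    ring
  · simp only [Pi.sub_apply, Pi.smul_apply, lastVec_castSucc, smul_eq_mul, mul_zero, sub_zero,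
      Fin.snoc_castSucc]
    rfl

theorem prism_lastVec {τ : ℝ} (hτ : 0 < τ) (C : Set (Fin (k + 1) → ℝ)) :
    projPerp (τ • lastVec k) '' C + seg (τ • lastVec k)
      = splitL k ⁻¹' (Icc (0 : ℝ) τ ×ˢ (dropLast '' C)) := by
  ext x
  constructor
  · rintro ⟨_, ⟨c, hc, rfl⟩, _, ⟨s, hs, rfl⟩, rfl⟩
    rw [projPerp_lastVec hτ.ne']
    refine ⟨?_, c, hc, ?_⟩
    · show (Fin.snoc (α := fun _ => ℝ) (dropLast c) (0 : ℝ) + s • τ • lastVec k) (Fin.last k)
        ∈ Icc (0 : ℝ) τ
      simp only [Pi.add_apply, Fin.snoc_last, Pi.smul_apply, lastVec_last, smul_eq_mul, mul_one,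
        zero_add]
      exact ⟨mul_nonneg hs.1 hτ.le, by nlinarith [hs.1, hs.2]⟩
    · funext j
      show c j.castSucc
        = (Fin.snoc (α := fun _ => ℝ) (dropLast c) (0 : ℝ) + s • τ • lastVec k) j.castSucc
      simp only [Pi.add_apply, Fin.snoc_castSucc, Pi.smul_apply, lastVec_castSucc, smul_eq_mul,
        mul_zero, add_zero]
      rfl
  · rintro ⟨hz, c, hc, hcx⟩
    have hz' : x (Fin.last k) ∈ Icc (0 : ℝ) τ := hz
    have hcx' : dropLast c = dropLast x := hcx
    refine ⟨projPerp (τ • lastVec k) c, ⟨c, hc, rfl⟩, (x (Fin.last k) / τ) • (τ • lastVec k),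
      ⟨x (Fin.last k) / τ, ⟨div_nonneg hz'.1 hτ.le, (div_le_one hτ).2 hz'.2⟩, rfl⟩, ?_⟩
    rw [projPerp_lastVec hτ.ne', hcx']
    funext i
    refine Fin.lastCases ?_ (fun j => ?_) i
    · simp only [Pi.add_apply, Fin.snoc_last, Pi.smul_apply, lastVec_last, smul_eq_mul, mul_one,
        zero_add]
      field_simp
    · simp only [Pi.add_apply, Fin.snoc_castSucc, Pi.smul_apply, lastVec_castSucc, smul_eq_mul,
        mul_zero, add_zero]
      rfl

/-- The support function of the projection body in the last coordinate direction is the volume of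
the coordinate projection. -/
theorem gfun_lastVec {C : Set (Fin (k + 1) → ℝ)} (hC : Convex ℝ C) (hCc : IsCompact C) {τ : ℝ}
    (hτ : 0 ≤ τ) :
    gfun C (τ • lastVec k) = τ * (volume (dropLast '' C)).toReal := by
  rcases hτ.eq_or_lt with h0 | hpos
  · rw [← h0, zero_smul, gfun_zero, zero_mul]
  · have hu : (τ • lastVec k) ⬝ᵥ (τ • lastVec k) ≠ 0 := by
      rw [smul_lastVec_dot_self]; positivity
    rw [← projFun_eq_gfun hC hCc hu]
    unfold projFun
    rw [prism_lastVec hpos, volume_preimage_splitL, Measure.volume_eq_prod, Measure.prod_prod,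
      Real.volume_Icc, sub_zero, ENNReal.toReal_mul, ENNReal.toReal_ofReal hτ]

/-- The projection function of the Euclidean unit ball. -/
theorem gfun_eball (u : Fin (k + 1) → ℝ) :
    gfun (eball (k + 1) 1) u = kappa k * √(u ⬝ᵥ u) := by
  set τ := √(u ⬝ᵥ u) with hτdef
  have hτ : 0 ≤ τ := Real.sqrt_nonneg _
  have hnorm : u ⬝ᵥ u = (τ • lastVec k) ⬝ᵥ (τ • lastVec k) := by
    rw [smul_lastVec_dot_self, Real.mul_self_sqrt (dot_self_nonneg u)]
  have hH : hh (u - τ • lastVec k) u = τ • lastVec k := hh_sub_apply hnorm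
  have h1 := gfun_image (hh (u - τ • lastVec k)) (eball (k + 1) 1) u
  rw [hh_image_eball, abs_det_hh, one_mul, hH] at h1
  rw [← h1, gfun_lastVec (convex_eball _ zero_le_one) (isCompact_eball _ zero_le_one) hτ,
    dropLast_image_eball, volume_eball_toReal k zero_le_one, one_pow, mul_one, mul_comm]

/-- The unit ball plus the segment from `0` to `τ` times the last coordinate vector. -/
def capsule (k : ℕ) (τ : ℝ) : Set (Fin (k + 1) → ℝ) := cyl (eball (k + 1) 1) (τ • lastVec k) 1

theorem convex_capsule (k : ℕ) (τ : ℝ) : Convex ℝ (capsule k τ) :=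
  convex_cyl (convex_eball _ zero_le_one) _ _

theorem isCompact_capsule (k : ℕ) (τ : ℝ) : IsCompact (capsule k τ) :=
  isCompact_cyl (isCompact_eball _ zero_le_one) _ _

theorem volume_capsule (k : ℕ) {τ : ℝ} (hτ : 0 ≤ τ) :
    (volume (capsule k τ)).toReal = kappa (k + 1) + τ * kappa k := by
  have h := gfun_lastVec (convex_eball (k + 1) zero_le_one) (isCompact_eball _ zero_le_one) hτ
  unfold gfun at h
  rw [dropLast_image_eball, volume_eball_toReal _ zero_le_one,
    volume_eball_toReal _ zero_le_one, one_pow, one_pow, mul_one, mul_one] at h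
  unfold capsule
  linarith

theorem gfun_capsule (k : ℕ) {τ : ℝ} (hτ : 0 ≤ τ) (u : Fin (k + 2) → ℝ) :
    gfun (capsule (k + 1) τ) u
      = kappa (k + 1) * √(u ⬝ᵥ u) + τ * kappa k * √(dropLast u ⬝ᵥ dropLast u) := by
  have hB : Convex ℝ (eball (k + 2) 1) := convex_eball _ zero_le_one
  have hBc : IsCompact (eball (k + 2) 1) := isCompact_eball _ zero_le_one
  have hcu : Convex ℝ (cyl (eball (k + 2) 1) u 1) := convex_cyl hB u 1
  have hcuc : IsCompact (cyl (eball (k + 2) 1) u 1) := isCompact_cyl hBc u 1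
  have e1 : cyl (capsule (k + 1) τ) u 1
      = cyl (cyl (eball (k + 2) 1) u 1) (τ • lastVec (k + 1)) 1 := cyl_comm _ _ _ _ _
  have h2 := gfun_lastVec hcu hcuc hτ
  have e3 : dropLast '' cyl (eball (k + 2) 1) u 1 = cyl (eball (k + 1) 1) (dropLast u) 1 := by
    rw [image_cyl isLinearMap_dropLast, dropLast_image_eball]
  have h4 := gfun_eball (k := k) (dropLast u)
  have h5 := gfun_eball (k := k + 1) u
  have h6 := volume_capsule (k + 1) hτ
  unfold gfun at h2 h4 h5 ⊢
  rw [e3] at h2
  rw [volume_eball_toReal _ zero_le_one, one_pow, mul_one] at h4 h5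
  rw [e1]
  linear_combination h2 + τ * h4 + h5 - h6

end Vale.Agent.Lib.P237
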