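import Vale.Agent.Lib.P237.CapMain

namespace Vale.Agent.Lib.P237

open MeasureTheory Set
open scoped Pointwise

/-- Petty's inequality, with its equality case, for invertible affine images of the capsule. -/
theorem petty_affine_capsule (k : ℕ) {τ : ℝ} (hτ : 0 ≤ τ)
    (N : Matrix (Fin (k + 2)) (Fin (k + 2)) ℝ) (hN : N.det ≠ 0) (c : Fin (k + 2) → ℝ)
    (K : Set (Fin (k + 2) → ℝ))
    (hKdef : K = (fun x => c + x) '' (N.mulVecLin '' capsule (k + 1) τ)) :
    Convex ℝ K ∧ IsCompact K ∧ 0 < volume K ∧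
      ENNReal.ofReal (kappa (k + 1) ^ (k + 2) / kappa (k + 2) ^ k) * volume K ^ (k + 1)
        ≤ volume (projBody K) ∧
      (1 ≤ k →
        (ENNReal.ofReal (kappa (k + 1) ^ (k + 2) / kappa (k + 2) ^ k) * volume K ^ (k + 1)
          = volume (projBody K) ↔ τ = 0)) := by
  have hC : Convex ℝ (capsule (k + 1) τ) := convex_capsule _ _
  have hCc : IsCompact (capsule (k + 1) τ) := isCompact_capsule _ _
  have hL : Convex ℝ (N.mulVecLin '' capsule (k + 1) τ) :=
    hC.is_linear_image N.mulVecLin.isLinear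
  have hLc : IsCompact (N.mulVecLin '' capsule (k + 1) τ) := hCc.image (continuous_mulVecLin N)
  have hK : Convex ℝ K := by
    rw [hKdef]
    have : (fun x => c + x) '' (N.mulVecLin '' capsule (k + 1) τ)
        = c +ᵥ (N.mulVecLin '' capsule (k + 1) τ) := by
      rw [← Set.image_vadd]; rfl
    rw [this]; exact hL.vadd c
  have hKc : IsCompact K := by
    rw [hKdef]; exact hLc.image (by fun_prop)
  have hdpos : 0 < |N.det| := abs_pos.2 hN
  have hvolK : volume K = ENNReal.ofReal |N.det| * volume (capsule (k + 1) τ) := by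
    rw [hKdef, volume_translate, Measure.addHaar_image_linearMap, det_mulVecLin]
  have hvolP : volume (projBody K)
      = ENNReal.ofReal (|N.det| ^ (k + 1)) * volume (projBody (capsule (k + 1) τ)) := by
    rw [hKdef, projBody_translate c hL hLc, volume_projBody_image N hN hC hCc]
    rfl
  have hD0 : ENNReal.ofReal (|N.det| ^ (k + 1)) ≠ 0 := by
    rw [Ne, ENNReal.ofReal_eq_zero, not_le]
    exact pow_pos hdpos _
  have hDtop : ENNReal.ofReal (|N.det| ^ (k + 1)) ≠ ⊤ := ENNReal.ofReal_ne_top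
  have hlhs : ENNReal.ofReal (kappa (k + 1) ^ (k + 2) / kappa (k + 2) ^ k) * volume K ^ (k + 1)
      = ENNReal.ofReal (|N.det| ^ (k + 1))
        * (ENNReal.ofReal (kappa (k + 1) ^ (k + 2) / kappa (k + 2) ^ k)
          * volume (capsule (k + 1) τ) ^ (k + 1)) := by
    rw [hvolK, mul_pow, ENNReal.ofReal_pow hdpos.le]
    ring
  refine ⟨hK, hKc, ?_, ?_, ?_⟩
  · rw [hvolK, volume_capsule_ofReal (k + 1) hτ]
    apply ENNReal.mul_pos
    · rw [Ne, ENNReal.ofReal_eq_zero, not_le]; exact hdpos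
    · rw [Ne, ENNReal.ofReal_eq_zero, not_le]
      have := kappa_pos (k + 2)
      have := kappa_pos (k + 1)
      positivity
  · rw [hlhs, hvolP]
    gcongr
    exact petty_capsule k hτ
  · intro hk
    rw [hlhs, hvolP, ENNReal.mul_right_inj hD0 hDtop]
    exact petty_capsule_eq_iff k hk hτ

/-- Every Minkowski sum of an ellipsoid `c + T B` and a segment `[0, v]` is an invertible affine
image of a capsule. -/
theorem ellSeg_eq (k : ℕ) (T : Matrix (Fin (k + 2)) (Fin (k + 2)) ℝ) (hT : T.det ≠ 0)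
    (c v : Fin (k + 2) → ℝ) :
    ∃ (N : Matrix (Fin (k + 2)) (Fin (k + 2)) ℝ) (τ : ℝ), N.det ≠ 0 ∧ 0 ≤ τ ∧ (τ = 0 ↔ v = 0) ∧
      {x | ∃ b : Fin (k + 2) → ℝ, ∃ s : ℝ,
          ∑ i, b i ^ 2 ≤ 1 ∧ 0 ≤ s ∧ s ≤ 1 ∧ x = c + T.mulVec b + s • v}
        = (fun x => c + x) '' (N.mulVecLin '' capsule (k + 1) τ) := by
  set v' := T⁻¹.mulVec v with hv'
  have hTv : T.mulVec v' = v := by
    rw [hv', Matrix.mulVec_mulVec, Matrix.mul_nonsing_inv _ (isUnit_iff_ne_zero.2 hT),
      Matrix.one_mulVec]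
  set τ := √(v' ⬝ᵥ v') with hτ
  have hτ0 : 0 ≤ τ := Real.sqrt_nonneg _
  set e := lastVec (k + 1) with he
  have hnorm : v' ⬝ᵥ v' = (τ • e) ⬝ᵥ (τ • e) := by
    rw [smul_lastVec_dot_self, Real.mul_self_sqrt (dot_self_nonneg v')]
  set H := hh (v' - τ • e) with hH
  have hH1 : H v' = τ • e := hh_sub_apply hnorm
  have hH2 : H (τ • e) = v' := by rw [← hH1, hh_hh]
  have hHball : ∀ b : Fin (k + 2) → ℝ, ∑ i, b i ^ 2 ≤ 1 → H b ∈ eball (k + 2) 1 := by
    intro b hb
    have hb' : b ∈ eball (k + 2) 1 := by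
      show ∑ i, b i ^ 2 ≤ 1 ^ 2
      rw [one_pow]; exact hb
    have := mem_image_of_mem H hb'
    rw [hh_image_eball] at this
    exact this
  have hNapply : ∀ y, (T * LinearMap.toMatrix' H).mulVecLin y = T.mulVec (H y) := by
    intro y
    rw [Matrix.mulVecLin_apply, ← Matrix.mulVec_mulVec, LinearMap.toMatrix'_mulVec]
  refine ⟨T * LinearMap.toMatrix' H, τ, ?_, hτ0, ?_, ?_⟩
  · rw [Matrix.det_mul, LinearMap.det_toMatrix']
    apply mul_ne_zero hT
    intro h0
    have := abs_det_hh (v' - τ • e)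
    rw [← hH, h0, abs_zero] at this
    exact zero_ne_one this
  · rw [hτ, Real.sqrt_eq_zero (dot_self_nonneg v'), dotProduct_self_eq_zero]
    constructor
    · intro h0
      rw [← hTv, h0, Matrix.mulVec_zero]
    · intro h0
      rw [hv', h0, Matrix.mulVec_zero]
  · ext x
    constructor
    · rintro ⟨b, s, hb, hs0, hs1, rfl⟩
      refine ⟨(T * LinearMap.toMatrix' H).mulVecLin (H b + s • (τ • e)),
        ⟨H b + s • (τ • e), ⟨H b, hHball b hb, s, ⟨hs0, hs1⟩, rfl⟩, rfl⟩, ?_⟩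
      show c + (T * LinearMap.toMatrix' H).mulVecLin (H b + s • (τ • e))
        = c + T.mulVec b + s • v
      rw [hNapply, map_add, hh_hh, map_smul, hH2, Matrix.mulVec_add, Matrix.mulVec_smul, hTv,
        add_assoc]
    · rintro ⟨_, ⟨_, ⟨b', hb', s, hs, rfl⟩, rfl⟩, rfl⟩
      have hb'' : ∑ i, b' i ^ 2 ≤ 1 := by
        have : ∑ i, b' i ^ 2 ≤ 1 ^ 2 := hb'
        rwa [one_pow] at this
      have hHb := hHball b' hb''
      refine ⟨H b', s, ?_, hs.1, hs.2, ?_⟩
      · have : ∑ i, (H b') i ^ 2 ≤ 1 ^ 2 := hHb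
        rwa [one_pow] at this
      · show c + (T * LinearMap.toMatrix' H).mulVecLin (b' + s • (τ • e))
          = c + T.mulVec (H b') + s • v
        rw [hNapply, map_add, map_smul, hH2, Matrix.mulVec_add, Matrix.mulVec_smul, hTv,
          add_assoc]

/-- Petty's conjectured inequality, with equality exactly for ellipsoids, in the class of
Minkowski sums of an ellipsoid and a segment in `ℝⁿ`, `n ≥ 3`. -/
theorem petty_ellipsoid_segment (n : ℕ) (hn : 3 ≤ n) (T : Matrix (Fin n) (Fin n) ℝ)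
    (hT : T.det ≠ 0) (c v : Fin n → ℝ) (K : Set (Fin n → ℝ))
    (hK : K = {x | ∃ b : Fin n → ℝ, ∃ s : ℝ,
      ∑ i, b i ^ 2 ≤ 1 ∧ 0 ≤ s ∧ s ≤ 1 ∧ x = c + T.mulVec b + s • v}) :
    Convex ℝ K ∧ IsCompact K ∧ 0 < volume K ∧
      ENNReal.ofReal (kappa (n - 1) ^ n / kappa n ^ (n - 2)) * volume K ^ (n - 1)
        ≤ volume (projBody K) ∧
      (ENNReal.ofReal (kappa (n - 1) ^ n / kappa n ^ (n - 2)) * volume K ^ (n - 1)
        = volume (projBody K) ↔ v = 0) := by
  obtain ⟨k, rfl⟩ : ∃ k, n = k + 2 := ⟨n - 2, by omega⟩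
  obtain ⟨N, τ, hN, hτ, hτv, hset⟩ := ellSeg_eq k T hT c v
  have h := petty_affine_capsule k hτ N hN c K (hK.trans hset)
  have e1 : k + 2 - 1 = k + 1 := rfl
  have e2 : k + 2 - 2 = k := rfl
  rw [e1, e2]
  obtain ⟨h1, h2, h3, h4, h5⟩ := h
  exact ⟨h1, h2, h3, h4, (h5 (by omega)).trans hτv⟩

end Vale.Agent.Lib.P237
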