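import Vale.Agent.Lib.P237.Chain

namespace Vale.Agent.Lib.P237

open MeasureTheory Set
open scoped Pointwise

theorem Jint_zero_left (a b : ℝ) (l : ℕ) : Jint a b 0 l = Jint a 0 0 l := by
  simp [Jint]

theorem Jint_one_left (a b : ℝ) (l : ℕ) :
    Jint a b 1 l = b * Jint a 0 0 l + Jint a 0 0 (l + 1) := by
  unfold Jint
  have hw := continuous_wfun a
  have i1 : IntervalIntegrable (fun z => (0 + wfun a z) ^ 0 * wfun a z ^ l) volume (-a) a :=
    Continuous.intervalIntegrable (by fun_prop) _ _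
  have i2 : IntervalIntegrable (fun z => (0 + wfun a z) ^ 0 * wfun a z ^ (l + 1)) volume (-a) a :=
    Continuous.intervalIntegrable (by fun_prop) _ _
  rw [← intervalIntegral.integral_const_mul, ← intervalIntegral.integral_add (i1.const_mul _) i2]
  congr 1
  funext z
  ring

theorem kappa_mul_Jint (m : ℕ) {a : ℝ} (ha : 0 ≤ a) :
    kappa m * Jint a 0 0 m = kappa (m + 1) * a ^ (m + 1) := by
  have h := volume_lens m ha (le_refl (0 : ℝ))
  rw [lens_zero, volume_eball (m + 1) ha] at h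
  have hnn1 : 0 ≤ kappa (m + 1) * a ^ (m + 1) :=
    mul_nonneg (kappa_pos _).le (pow_nonneg ha _)
  have hint : ∫ z in (-a)..a, (0 + √(a ^ 2 - z ^ 2)) ^ m = Jint a 0 0 m := by
    simp [Jint, wfun]
  rw [hint] at h
  have hJ : 0 ≤ Jint a 0 0 m := by
    unfold Jint
    apply intervalIntegral.integral_nonneg (by linarith)
    intro z _
    have := wfun_nonneg a z
    positivity
  have hnn2 : 0 ≤ kappa m * Jint a 0 0 m := mul_nonneg (kappa_pos _).le hJ
  exact ((ENNReal.ofReal_eq_ofReal_iff hnn1 hnn2).1 h).symm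

/-- Values of the integrals entering the chain inequality for the capsule. -/
theorem capsule_J0 (k : ℕ) (b : ℝ) :
    Jint (kappa (k + 1)) b 0 (k + 1) = kappa (k + 2) * kappa (k + 1) ^ (k + 1) := by
  have h := kappa_mul_Jint (k + 1) (kappa_pos (k + 1)).le
  rw [Jint_zero_left]
  have hp := kappa_pos (k + 1)
  have : kappa (k + 1) * Jint (kappa (k + 1)) 0 0 (k + 1)
      = kappa (k + 1) * (kappa (k + 2) * kappa (k + 1) ^ (k + 1)) := by
    rw [h]; ring
  exact mul_left_cancel₀ hp.ne' this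

theorem capsule_J1 (k : ℕ) (τ : ℝ) :
    Jint (kappa (k + 1)) (τ * kappa k) 1 k
      = kappa (k + 1) ^ (k + 1) * (kappa (k + 2) + τ * kappa (k + 1)) := by
  have h0 := kappa_mul_Jint k (kappa_pos (k + 1)).le
  have h1 := capsule_J0 k 0
  rw [Jint_one_left, h1]
  have : τ * kappa k * Jint (kappa (k + 1)) 0 0 k = τ * (kappa k * Jint (kappa (k + 1)) 0 0 k) := by
    ring
  rw [this, h0]
  ring

theorem capsule_real (k : ℕ) {τ : ℝ} (hτ : 0 ≤ τ) :
    kappa (k + 1) ^ (k + 2) / kappa (k + 2) ^ k * (kappa (k + 2) + τ * kappa (k + 1)) ^ (k + 1)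
      ≤ kappa (k + 1) * Jint (kappa (k + 1)) (τ * kappa k) (k + 1) 0 := by
  have p0 := kappa_pos k
  have p1 := kappa_pos (k + 1)
  have p2 := kappa_pos (k + 2)
  have hch := Jint_chain p1 (mul_nonneg hτ p0.le) (k + 1)
  simp only [Nat.add_sub_cancel] at hch
  rw [capsule_J1, capsule_J0] at hch
  set V := kappa (k + 2) + τ * kappa (k + 1) with hV
  set A := kappa (k + 1) ^ (k + 1) with hA
  set I := Jint (kappa (k + 1)) (τ * kappa k) (k + 1) 0 with hI
  have hApos : 0 < A := pow_pos p1 _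
  clear_value V A I
  have key : V ^ (k + 1) * A ≤ kappa (k + 2) ^ k * I := by
    apply le_of_mul_le_mul_left _ (mul_pos (pow_pos hApos (k + 1)) p2)
    calc A ^ (k + 1) * kappa (k + 2) * (V ^ (k + 1) * A)
        = (A * V) ^ (k + 1) * (kappa (k + 2) * A) := by ring
      _ ≤ (kappa (k + 2) * A) ^ (k + 1) * I := hch
      _ = A ^ (k + 1) * kappa (k + 2) * (kappa (k + 2) ^ k * I) := by ring
  rw [div_mul_eq_mul_div, div_le_iff₀ (pow_pos p2 k)]
  have hx : kappa (k + 1) ^ (k + 2) = kappa (k + 1) * A := by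
    rw [hA, pow_succ (kappa (k + 1)) (k + 1), mul_comm]
  calc kappa (k + 1) ^ (k + 2) * V ^ (k + 1) = kappa (k + 1) * (V ^ (k + 1) * A) := by
        rw [hx]; ring
    _ ≤ kappa (k + 1) * (kappa (k + 2) ^ k * I) := mul_le_mul_of_nonneg_left key p1.le
    _ = kappa (k + 1) * I * kappa (k + 2) ^ k := by ring

theorem capsule_real_strict (k : ℕ) (hk : 1 ≤ k) {τ : ℝ} (hτ : 0 < τ) :
    kappa (k + 1) ^ (k + 2) / kappa (k + 2) ^ k * (kappa (k + 2) + τ * kappa (k + 1)) ^ (k + 1)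
      < kappa (k + 1) * Jint (kappa (k + 1)) (τ * kappa k) (k + 1) 0 := by
  have p0 := kappa_pos k
  have p1 := kappa_pos (k + 1)
  have p2 := kappa_pos (k + 2)
  have hch := Jint_chain_strict p1 (mul_pos hτ p0) (m := k + 1) (by omega)
  simp only [Nat.add_sub_cancel] at hch
  rw [capsule_J1, capsule_J0] at hch
  set V := kappa (k + 2) + τ * kappa (k + 1) with hV
  set A := kappa (k + 1) ^ (k + 1) with hA
  set I := Jint (kappa (k + 1)) (τ * kappa k) (k + 1) 0 with hI
  have hApos : 0 < A := pow_pos p1 _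
  clear_value V A I
  have key : V ^ (k + 1) * A < kappa (k + 2) ^ k * I := by
    apply lt_of_mul_lt_mul_left _ (mul_pos (pow_pos hApos (k + 1)) p2).le
    calc A ^ (k + 1) * kappa (k + 2) * (V ^ (k + 1) * A)
        = (A * V) ^ (k + 1) * (kappa (k + 2) * A) := by ring
      _ < (kappa (k + 2) * A) ^ (k + 1) * I := hch
      _ = A ^ (k + 1) * kappa (k + 2) * (kappa (k + 2) ^ k * I) := by ring
  rw [div_mul_eq_mul_div, div_lt_iff₀ (pow_pos p2 k)]
  have hx : kappa (k + 1) ^ (k + 2) = kappa (k + 1) * A := by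
    rw [hA, pow_succ (kappa (k + 1)) (k + 1), mul_comm]
  calc kappa (k + 1) ^ (k + 2) * V ^ (k + 1) = kappa (k + 1) * (V ^ (k + 1) * A) := by
        rw [hx]; ring
    _ < kappa (k + 1) * (kappa (k + 2) ^ k * I) := mul_lt_mul_of_pos_left key p1
    _ = kappa (k + 1) * I * kappa (k + 2) ^ k := by ring

theorem capsule_real_zero (k : ℕ) :
    kappa (k + 1) ^ (k + 2) / kappa (k + 2) ^ k * (kappa (k + 2) + 0 * kappa (k + 1)) ^ (k + 1)
      = kappa (k + 1) * Jint (kappa (k + 1)) (0 * kappa k) (k + 1) 0 := by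
  have p2 := kappa_pos (k + 2)
  have hJ : Jint (kappa (k + 1)) (0 * kappa k) (k + 1) 0 = Jint (kappa (k + 1)) 0 0 (k + 1) := by
    simp [Jint]
  rw [hJ, ← Jint_zero_left _ 0, capsule_J0]
  field_simp
  ring

theorem volume_projBody_capsule (k : ℕ) {τ : ℝ} (hτ : 0 ≤ τ) :
    volume (projBody (capsule (k + 1) τ))
      = ENNReal.ofReal (kappa (k + 1) * Jint (kappa (k + 1)) (τ * kappa k) (k + 1) 0) := by
  rw [projBody_capsule k hτ, volume_lens _ (kappa_pos _).le (mul_nonneg hτ (kappa_pos _).le)]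
  congr 2
  simp [Jint, wfun]

theorem volume_capsule_ofReal (k : ℕ) {τ : ℝ} (hτ : 0 ≤ τ) :
    volume (capsule k τ) = ENNReal.ofReal (kappa (k + 1) + τ * kappa k) := by
  rw [← volume_capsule k hτ, ENNReal.ofReal_toReal (isCompact_capsule k τ).measure_lt_top.ne]

theorem Jint_nonneg {a b : ℝ} (ha : 0 ≤ a) (hb : 0 ≤ b) (j l : ℕ) : 0 ≤ Jint a b j l := by
  unfold Jint
  apply intervalIntegral.integral_nonneg (by linarith)
  intro z _
  have := wfun_nonneg a z
  positivity

/-- The constant of Petty's conjecture in dimension `k + 2`. -/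
theorem pettyConst_pos (k : ℕ) : 0 < kappa (k + 1) ^ (k + 2) / kappa (k + 2) ^ k :=
  div_pos (pow_pos (kappa_pos _) _) (pow_pos (kappa_pos _) _)

theorem petty_capsule_lhs (k : ℕ) {τ : ℝ} (hτ : 0 ≤ τ) :
    ENNReal.ofReal (kappa (k + 1) ^ (k + 2) / kappa (k + 2) ^ k) * volume (capsule (k + 1) τ) ^ (k + 1)
      = ENNReal.ofReal (kappa (k + 1) ^ (k + 2) / kappa (k + 2) ^ k
          * (kappa (k + 2) + τ * kappa (k + 1)) ^ (k + 1)) := by
  have hV : 0 ≤ kappa (k + 2) + τ * kappa (k + 1) :=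
    add_nonneg (kappa_pos _).le (mul_nonneg hτ (kappa_pos _).le)
  rw [volume_capsule_ofReal (k + 1) hτ, ← ENNReal.ofReal_pow hV,
    ← ENNReal.ofReal_mul (pettyConst_pos k).le]

theorem petty_capsule (k : ℕ) {τ : ℝ} (hτ : 0 ≤ τ) :
    ENNReal.ofReal (kappa (k + 1) ^ (k + 2) / kappa (k + 2) ^ k) * volume (capsule (k + 1) τ) ^ (k + 1)
      ≤ volume (projBody (capsule (k + 1) τ)) := by
  rw [petty_capsule_lhs k hτ, volume_projBody_capsule k hτ]
  exact ENNReal.ofReal_le_ofReal (capsule_real k hτ)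

theorem petty_capsule_eq_iff (k : ℕ) (hk : 1 ≤ k) {τ : ℝ} (hτ : 0 ≤ τ) :
    ENNReal.ofReal (kappa (k + 1) ^ (k + 2) / kappa (k + 2) ^ k) * volume (capsule (k + 1) τ) ^ (k + 1)
      = volume (projBody (capsule (k + 1) τ)) ↔ τ = 0 := by
  rw [petty_capsule_lhs k hτ, volume_projBody_capsule k hτ]
  constructor
  · intro h
    by_contra hne
    have hpos : 0 < τ := lt_of_le_of_ne hτ (Ne.symm hne)
    have hlt := capsule_real_strict k hk hpos
    have hnn : 0 ≤ kappa (k + 1) ^ (k + 2) / kappa (k + 2) ^ k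
        * (kappa (k + 2) + τ * kappa (k + 1)) ^ (k + 1) :=
      mul_nonneg (pettyConst_pos k).le
        (pow_nonneg (add_nonneg (kappa_pos _).le (mul_nonneg hτ (kappa_pos _).le)) _)
    have hnn2 : 0 ≤ kappa (k + 1) * Jint (kappa (k + 1)) (τ * kappa k) (k + 1) 0 :=
      mul_nonneg (kappa_pos _).le (Jint_nonneg (kappa_pos _).le (mul_nonneg hτ (kappa_pos _).le) _ _)
    have := (ENNReal.ofReal_eq_ofReal_iff hnn hnn2).1 h
    linarith
  · intro h
    subst h
    rw [capsule_real_zero]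

end Vale.Agent.Lib.P237
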