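import Vale.Agent.Lib.P237.Lens

namespace Vale.Agent.Lib.P237

open MeasureTheory Set

/-! ### A log-convexity chain -/

theorem chain_step {J : ℕ → ℝ} {m : ℕ} (hpos : ∀ j, j ≤ m → 0 < J j)
    (hcs : ∀ j, j + 2 ≤ m → J (j + 1) ^ 2 ≤ J j * J (j + 2)) :
    ∀ j, j + 1 ≤ m → J 1 * J j ≤ J 0 * J (j + 1) := by
  intro j
  induction j with
  | zero => intro _; exact le_of_eq (mul_comm _ _)
  | succ j ih =>
    intro hj
    have h1 := ih (by omega)
    have h2 := hcs j (by omega)
    have p0 := hpos 0 (by omega)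
    have pj := hpos j (by omega)
    have pj1 := hpos (j + 1) (by omega)
    apply le_of_mul_le_mul_left _ pj
    calc J j * (J 1 * J (j + 1)) = (J 1 * J j) * J (j + 1) := by ring
      _ ≤ (J 0 * J (j + 1)) * J (j + 1) := mul_le_mul_of_nonneg_right h1 pj1.le
      _ = J 0 * J (j + 1) ^ 2 := by ring
      _ ≤ J 0 * (J j * J (j + 2)) := mul_le_mul_of_nonneg_left h2 p0.le
      _ = J j * (J 0 * J (j + 1 + 1)) := by ring

theorem chain_le {J : ℕ → ℝ} {m : ℕ} (hpos : ∀ j, j ≤ m → 0 < J j)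
    (hcs : ∀ j, j + 2 ≤ m → J (j + 1) ^ 2 ≤ J j * J (j + 2)) :
    ∀ j, j ≤ m → J 1 ^ j * J 0 ≤ J 0 ^ j * J j := by
  intro j
  induction j with
  | zero => intro _; simp
  | succ j ih =>
    intro hj
    have h1 := ih (by omega)
    have h2 := chain_step hpos hcs j hj
    have p0 := hpos 0 (by omega)
    have p1 := hpos 1 (by omega)
    calc J 1 ^ (j + 1) * J 0 = J 1 * (J 1 ^ j * J 0) := by ring
      _ ≤ J 1 * (J 0 ^ j * J j) := mul_le_mul_of_nonneg_left h1 p1.le
      _ = J 0 ^ j * (J 1 * J j) := by ring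
      _ ≤ J 0 ^ j * (J 0 * J (j + 1)) := mul_le_mul_of_nonneg_left h2 (pow_nonneg p0.le j)
      _ = J 0 ^ (j + 1) * J (j + 1) := by ring

theorem chain_lt {J : ℕ → ℝ} {m : ℕ} (hpos : ∀ j, j ≤ m → 0 < J j)
    (hcs : ∀ j, j + 2 ≤ m → J (j + 1) ^ 2 ≤ J j * J (j + 2))
    (hstrict : J 1 ^ 2 < J 0 * J 2) :
    ∀ j, 2 ≤ j → j ≤ m → J 1 ^ j * J 0 < J 0 ^ j * J j := by
  intro j hj2
  induction j, hj2 using Nat.le_induction with
  | base =>
    intro h2m
    have p0 := hpos 0 (by omega)
    calc J 1 ^ 2 * J 0 < (J 0 * J 2) * J 0 := mul_lt_mul_of_pos_right hstrict p0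
      _ = J 0 ^ 2 * J 2 := by ring
  | succ j hj ih =>
    intro hjm
    have h1 := ih (by omega)
    have h2 := chain_step hpos hcs j hjm
    have p0 := hpos 0 (by omega)
    have p1 := hpos 1 (by omega)
    calc J 1 ^ (j + 1) * J 0 = J 1 * (J 1 ^ j * J 0) := by ring
      _ < J 1 * (J 0 ^ j * J j) := mul_lt_mul_of_pos_left h1 p1
      _ = J 0 ^ j * (J 1 * J j) := by ring
      _ ≤ J 0 ^ j * (J 0 * J (j + 1)) := mul_le_mul_of_nonneg_left h2 (pow_nonneg p0.le j)
      _ = J 0 ^ (j + 1) * J (j + 1) := by ring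

/-! ### Positivity of integrals -/

theorem integral_pos_of_pos_at {h : ℝ → ℝ} (hc : Continuous h) (h0 : ∀ z, 0 ≤ h z) {a b z₀ : ℝ}
    (hz : z₀ ∈ Ioo a b) (hpos : 0 < h z₀) : 0 < ∫ z in a..b, h z := by
  have hev : ∀ᶠ z in nhds z₀, 0 < h z := hc.continuousAt.eventually (lt_mem_nhds hpos)
  obtain ⟨ε, hε, hball⟩ := Metric.eventually_nhds_iff.1 hev
  set c := max a (z₀ - ε) with hcdef
  set d := min b (z₀ + ε) with hddef
  have hc1 : a ≤ c := le_max_left _ _
  have hd1 : d ≤ b := min_le_left _ _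
  have hcz : c < z₀ := max_lt hz.1 (by linarith)
  have hzd : z₀ < d := lt_min hz.2 (by linarith)
  have hposcd : 0 < ∫ z in c..d, h z := by
    apply intervalIntegral.intervalIntegral_pos_of_pos_on (hc.intervalIntegrable _ _) _
      (hcz.trans hzd)
    intro z hzI
    apply hball
    rw [Real.dist_eq, abs_lt]
    constructor
    · have := (le_max_right a (z₀ - ε)).trans_lt hzI.1
      linarith
    · have := hzI.2.trans_le (min_le_right b (z₀ + ε))
      linarith
  have hmono : ∫ z in c..d, h z ≤ ∫ z in a..b, h z :=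
    intervalIntegral.integral_mono_interval hc1 (hcz.trans hzd).le hd1
      (Filter.Eventually.of_forall h0) (hc.intervalIntegrable _ _)
  exact hposcd.trans_le hmono

/-! ### The integrals -/

/-- The half-chord function of the disc of radius `a`. -/
noncomputable def wfun (a z : ℝ) : ℝ := √(a ^ 2 - z ^ 2)

/-- The integrals `∫_{-a}^{a} (b + w)^j w^l`. -/
noncomputable def Jint (a b : ℝ) (j l : ℕ) : ℝ :=
  ∫ z in (-a)..a, (b + wfun a z) ^ j * wfun a z ^ l

theorem wfun_nonneg (a z : ℝ) : 0 ≤ wfun a z := Real.sqrt_nonneg _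

theorem continuous_wfun (a : ℝ) : Continuous (wfun a) := by
  unfold wfun
  fun_prop

theorem wfun_pos {a z : ℝ} (hz : z ∈ Ioo (-a) a) : 0 < wfun a z := by
  unfold wfun
  apply Real.sqrt_pos.2
  nlinarith [hz.1, hz.2]

theorem Jint_pos {a b : ℝ} (ha : 0 < a) (hb : 0 ≤ b) (j l : ℕ) : 0 < Jint a b j l := by
  unfold Jint
  apply intervalIntegral.intervalIntegral_pos_of_pos_on _ _ (by linarith)
  · apply Continuous.intervalIntegrable
    have := continuous_wfun a
    fun_prop
  · intro z hz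
    have hw := wfun_pos hz
    positivity

theorem Jint_quad {a b : ℝ} (j l : ℕ) (t : ℝ) :
    ∫ z in (-a)..a, (t * (b + wfun a z) - wfun a z) ^ 2 * ((b + wfun a z) ^ j * wfun a z ^ l)
      = Jint a b (j + 2) l * (t * t) + (-2 * Jint a b (j + 1) (l + 1)) * t + Jint a b j (l + 2) := by
  unfold Jint
  have hw := continuous_wfun a
  have i1 : IntervalIntegrable (fun z => (b + wfun a z) ^ (j + 2) * wfun a z ^ l) volume (-a) a :=
    Continuous.intervalIntegrable (by fun_prop) _ _
  have i2 : IntervalIntegrable (fun z => (b + wfun a z) ^ (j + 1) * wfun a z ^ (l + 1)) volume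
      (-a) a := Continuous.intervalIntegrable (by fun_prop) _ _
  have i3 : IntervalIntegrable (fun z => (b + wfun a z) ^ j * wfun a z ^ (l + 2)) volume (-a) a :=
    Continuous.intervalIntegrable (by fun_prop) _ _
  have e : ∀ z, (t * (b + wfun a z) - wfun a z) ^ 2 * ((b + wfun a z) ^ j * wfun a z ^ l)
      = (t * t) * ((b + wfun a z) ^ (j + 2) * wfun a z ^ l)
        + (-2 * t) * ((b + wfun a z) ^ (j + 1) * wfun a z ^ (l + 1))
        + (b + wfun a z) ^ j * wfun a z ^ (l + 2) := by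
    intro z; ring
  simp_rw [e]
  rw [intervalIntegral.integral_add ((i1.const_mul _).add (i2.const_mul _)) i3,
    intervalIntegral.integral_add (i1.const_mul _) (i2.const_mul _),
    intervalIntegral.integral_const_mul, intervalIntegral.integral_const_mul]
  ring

theorem Jint_cs {a b : ℝ} (ha : 0 < a) (hb : 0 ≤ b) (j l : ℕ) :
    Jint a b (j + 1) (l + 1) ^ 2 ≤ Jint a b j (l + 2) * Jint a b (j + 2) l := by
  have h : ∀ t : ℝ, 0 ≤ Jint a b (j + 2) l * (t * t) + (-2 * Jint a b (j + 1) (l + 1)) * t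
      + Jint a b j (l + 2) := by
    intro t
    rw [← Jint_quad]
    apply intervalIntegral.integral_nonneg (by linarith)
    intro z _
    have hw := wfun_nonneg a z
    positivity
  have hd := discrim_le_zero h
  unfold discrim at hd
  nlinarith

theorem Jint_cs_strict {a b : ℝ} (ha : 0 < a) (hb : 0 < b) (l : ℕ) :
    Jint a b 1 (l + 1) ^ 2 < Jint a b 0 (l + 2) * Jint a b 2 l := by
  have h : ∀ t : ℝ, 0 < Jint a b (0 + 2) l * (t * t) + (-2 * Jint a b (0 + 1) (l + 1)) * t
      + Jint a b 0 (l + 2) := by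
    intro t
    rw [← Jint_quad]
    have hw := continuous_wfun a
    have hcont : Continuous fun z => (t * (b + wfun a z) - wfun a z) ^ 2
        * ((b + wfun a z) ^ 0 * wfun a z ^ l) := by fun_prop
    have hnn : ∀ z, 0 ≤ (t * (b + wfun a z) - wfun a z) ^ 2
        * ((b + wfun a z) ^ 0 * wfun a z ^ l) := by
      intro z
      have hw := wfun_nonneg a z
      positivity
    have hz0 : (0 : ℝ) ∈ Ioo (-a) a := ⟨by linarith, ha⟩
    have hz1 : a / 2 ∈ Ioo (-a) a := ⟨by linarith, by linarith⟩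
    have hw0 := wfun_pos hz0
    have hw1 := wfun_pos hz1
    have hne : wfun a 0 ≠ wfun a (a / 2) := by
      unfold wfun
      intro heq
      have h1 : (0 : ℝ) ≤ a ^ 2 - 0 ^ 2 := by nlinarith
      have h2 : (0 : ℝ) ≤ a ^ 2 - (a / 2) ^ 2 := by nlinarith
      have := (Real.sqrt_inj h1 h2).1 heq
      nlinarith
    by_cases hv : t * (b + wfun a 0) - wfun a 0 = 0
    · -- then the value at a/2 is nonzero
      have hv1 : t * (b + wfun a (a / 2)) - wfun a (a / 2) ≠ 0 := by
        intro hv1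
        have hdiff : (t - 1) * (wfun a 0 - wfun a (a / 2)) = 0 := by linarith
        rcases mul_eq_zero.1 hdiff with h1 | h1
        · have : t = 1 := by linarith
          rw [this] at hv
          linarith
        · exact hne (by linarith)
      apply integral_pos_of_pos_at hcont hnn hz1
      have := sq_pos_of_ne_zero hv1
      positivity
    · apply integral_pos_of_pos_at hcont hnn hz0
      have := sq_pos_of_ne_zero hv
      positivity
  have hd := discrim_lt_zero (Jint_pos ha hb.le 2 l).ne' h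
  unfold discrim at hd
  nlinarith

/-- The main one-dimensional inequality. -/
theorem Jint_chain {a b : ℝ} (ha : 0 < a) (hb : 0 ≤ b) (m : ℕ) :
    Jint a b 1 (m - 1) ^ m * Jint a b 0 m ≤ Jint a b 0 m ^ m * Jint a b m 0 := by
  have hpos : ∀ j, j ≤ m → 0 < Jint a b j (m - j) := fun j _ => Jint_pos ha hb _ _
  have hcs : ∀ j, j + 2 ≤ m → Jint a b (j + 1) (m - (j + 1)) ^ 2
      ≤ Jint a b j (m - j) * Jint a b (j + 2) (m - (j + 2)) := by
    intro j hj
    have e1 : m - (j + 1) = (m - (j + 2)) + 1 := by omega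
    have e2 : m - j = (m - (j + 2)) + 2 := by omega
    rw [e1, e2]
    exact Jint_cs ha hb j _
  have h := chain_le (J := fun j => Jint a b j (m - j)) hpos hcs m le_rfl
  simpa using h

theorem Jint_chain_strict {a b : ℝ} (ha : 0 < a) (hb : 0 < b) {m : ℕ} (hm : 2 ≤ m) :
    Jint a b 1 (m - 1) ^ m * Jint a b 0 m < Jint a b 0 m ^ m * Jint a b m 0 := by
  have hpos : ∀ j, j ≤ m → 0 < Jint a b j (m - j) := fun j _ => Jint_pos ha hb.le _ _
  have hcs : ∀ j, j + 2 ≤ m → Jint a b (j + 1) (m - (j + 1)) ^ 2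
      ≤ Jint a b j (m - j) * Jint a b (j + 2) (m - (j + 2)) := by
    intro j hj
    have e1 : m - (j + 1) = (m - (j + 2)) + 1 := by omega
    have e2 : m - j = (m - (j + 2)) + 2 := by omega
    rw [e1, e2]
    exact Jint_cs ha hb.le j _
  have hstrict : Jint a b 1 (m - 1) ^ 2 < Jint a b 0 (m - 0) * Jint a b 2 (m - 2) := by
    have e1 : m - 1 = (m - 2) + 1 := by omega
    have e2 : m - 0 = (m - 2) + 2 := by omega
    rw [e1, e2]
    exact Jint_cs_strict ha hb _
  have h := chain_lt (J := fun j => Jint a b j (m - j)) hpos hcs hstrict m hm le_rfl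
  simpa using h

end Vale.Agent.Lib.P237
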