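import Vale.Agent.Lib.P237.Seg

namespace Vale.Agent.Lib.P237

open MeasureTheory Set
open scoped Pointwise

theorem Icc_add_Icc_eq {a1 a2 b1 b2 : ℝ} (ha : a1 ≤ a2) (hb : b1 ≤ b2) :
    Icc a1 a2 + Icc b1 b2 = Icc (a1 + b1) (a2 + b2) := by
  apply Subset.antisymm (Icc_add_Icc_subset _ _ _ _)
  intro z hz
  refine ⟨max a1 (z - b2), ⟨le_max_left _ _, max_le ha (by linarith [hz.2])⟩,
    z - max a1 (z - b2), ⟨?_, ?_⟩, by ring⟩
  · rcases max_cases a1 (z - b2) with ⟨h, _⟩ | ⟨h, _⟩ <;> rw [h] <;> linarith [hz.1]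
  · have := le_max_right a1 (z - b2); linarith

theorem volume_add_compact_convex {A B : Set ℝ} (hA : IsCompact A) (hAc : Convex ℝ A)
    (hAn : A.Nonempty) (hB : IsCompact B) (hBc : Convex ℝ B) (hBn : B.Nonempty) :
    volume (A + B) = volume A + volume B := by
  have eA := eq_Icc_of_connected_compact (hAc.isConnected hAn) hA
  have eB := eq_Icc_of_connected_compact (hBc.isConnected hBn) hB
  have ha : sInf A ≤ sSup A := by
    obtain ⟨x, hx⟩ := hAn
    rw [eA] at hx
    exact hx.1.trans hx.2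
  have hb : sInf B ≤ sSup B := by
    obtain ⟨x, hx⟩ := hBn
    rw [eB] at hx
    exact hx.1.trans hx.2
  rw [eA, eB, Icc_add_Icc_eq ha hb, Real.volume_Icc, Real.volume_Icc, Real.volume_Icc,
    ← ENNReal.ofReal_add (sub_nonneg.2 ha) (sub_nonneg.2 hb)]
  congr 1; ring

variable {E : Type*} [NormedAddCommGroup E] [NormedSpace ℝ E] [MeasurableSpace E] [BorelSpace E]
  [SecondCountableTopology E]

theorem cylinder_volume (μ : Measure E) [μ.IsAddLeftInvariant] [IsFiniteMeasureOnCompacts μ]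
    [SFinite μ] {L : Set E} (hL : Convex ℝ L) (hLc : IsCompact L) {h : ℝ} (hh : 0 ≤ h) (c : ℝ)
    (u' : E) :
    ((volume : Measure ℝ).prod μ) (cyl (Icc (0 : ℝ) h ×ˢ L) (c, u') 1)
      = ENNReal.ofReal h * μ (cyl L u' 1) + ENNReal.ofReal |c| * μ L := by
  have hKc : IsCompact (Icc (0 : ℝ) h ×ˢ L) := isCompact_Icc.prod hLc
  have hS : MeasurableSet (cyl (Icc (0 : ℝ) h ×ˢ L) (c, u') 1) :=
    (isCompact_cyl hKc _ _).measurableSet
  rw [Measure.prod_apply_symm hS]
  set T : E → Set ℝ := fun x' => {t : ℝ | t ∈ Icc (0 : ℝ) 1 ∧ x' - t • u' ∈ L} with hTdef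
  have hslice : ∀ x', (fun z => (z, x')) ⁻¹' (cyl (Icc (0 : ℝ) h ×ˢ L) (c, u') 1)
      = Icc (0 : ℝ) h + c • T x' := by
    intro x'
    ext z
    simp only [mem_preimage]
    constructor
    · rintro ⟨⟨k0, k1⟩, ⟨hk0, hk1⟩, τ, hτ, heq⟩
      rw [Prod.ext_iff] at heq
      obtain ⟨h1, h2⟩ := heq
      simp only [Prod.fst_add, Prod.smul_fst, Prod.snd_add, Prod.smul_snd, smul_eq_mul] at h1 h2
      refine ⟨k0, hk0, c • τ, ⟨τ, ⟨hτ, ?_⟩, rfl⟩, ?_⟩
      · have : x' - τ • u' = k1 := by rw [h2]; abel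
        rw [this]; exact hk1
      · show k0 + c * τ = z
        rw [h1]; ring
    · rintro ⟨y, hy, _, ⟨τ, ⟨hτ, hτL⟩, rfl⟩, rfl⟩
      refine ⟨(y, x' - τ • u'), ⟨hy, hτL⟩, τ, hτ, ?_⟩
      rw [Prod.ext_iff]
      simp only [Prod.fst_add, Prod.smul_fst, Prod.snd_add, Prod.smul_snd, smul_eq_mul]
      constructor
      · ring
      · abel
  have hTc : ∀ x', IsCompact (T x') := by
    intro x'
    have : T x' = Icc (0 : ℝ) 1 ∩ (fun t : ℝ => x' - t • u') ⁻¹' L := rfl
    rw [this]
    exact isCompact_Icc.inter_right (hLc.isClosed.preimage (by fun_prop))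
  have hTconv : ∀ x', Convex ℝ (T x') := by
    intro x' t1 ⟨h1, h1L⟩ t2 ⟨h2, h2L⟩ a b ha hb hab
    refine ⟨convex_Icc (0 : ℝ) 1 h1 h2 ha hb hab, ?_⟩
    have : x' - (a • t1 + b • t2) • u' = a • (x' - t1 • u') + b • (x' - t2 • u') := by
      rw [smul_sub, smul_sub, add_smul, smul_smul, smul_smul]
      have hx : x' = a • x' + b • x' := by rw [← add_smul, hab, one_smul]
      nth_rewrite 1 [hx]
      abel
    rw [this]
    exact hL h1L h2L ha hb hab
  have hTne : ∀ x', (T x').Nonempty ↔ x' ∈ cyl L u' 1 := by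
    intro x'
    constructor
    · rintro ⟨t, ht, htL⟩
      exact ⟨x' - t • u', htL, t, ht, by abel⟩
    · rintro ⟨k, hk, τ, hτ, rfl⟩
      refine ⟨τ, hτ, ?_⟩
      have : k + τ • u' - τ • u' = k := by abel
      rw [this]; exact hk
  have hmeas : ∀ x', volume (Icc (0 : ℝ) h + c • T x')
      = (cyl L u' 1).indicator (fun _ => ENNReal.ofReal h) x'
        + ENNReal.ofReal |c| * volume (T x') := by
    intro x'
    by_cases hx : x' ∈ cyl L u' 1
    · have hne := (hTne x').2 hx
      rw [volume_add_compact_convex isCompact_Icc (convex_Icc 0 h) (nonempty_Icc.2 hh)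
        ((hTc x').smul c) ((hTconv x').smul c) hne.smul_set, Measure.addHaar_smul,
        Real.volume_Icc, indicator_of_mem hx]
      simp
    · have hemp : T x' = ∅ := not_nonempty_iff_eq_empty.1 (mt (hTne x').1 hx)
      rw [hemp, indicator_of_notMem hx]
      simp
  set W : Set (ℝ × E) := {p | p.1 ∈ Icc (0 : ℝ) 1 ∧ p.2 - p.1 • u' ∈ L} with hWdef
  have hWm : MeasurableSet W := by
    apply IsClosed.measurableSet
    have : W = (Prod.fst ⁻¹' Icc (0 : ℝ) 1) ∩ ((fun p : ℝ × E => p.2 - p.1 • u') ⁻¹' L) := rfl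
    rw [this]
    exact (isClosed_Icc.preimage continuous_fst).inter (hLc.isClosed.preimage (by fun_prop))
  have hTW : ∀ x', T x' = (fun t => (t, x')) ⁻¹' W := fun x' => rfl
  have hTm : Measurable fun x' => volume (T x') := by
    simp_rw [hTW]
    exact measurable_measure_prodMk_right hWm
  have hcm : MeasurableSet (cyl L u' 1) := (isCompact_cyl hLc u' 1).measurableSet
  simp_rw [hslice, hmeas]
  rw [lintegral_add_left (measurable_const.indicator hcm), lintegral_const_mul _ hTm,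
    lintegral_indicator_const hcm]
  congr 2
  simp_rw [hTW]
  rw [← Measure.prod_apply_symm hWm, Measure.prod_apply hWm]
  have hsl : ∀ t : ℝ, μ (Prod.mk t ⁻¹' W) = (Icc (0 : ℝ) 1).indicator (fun _ => μ L) t := by
    intro t
    by_cases ht : t ∈ Icc (0 : ℝ) 1
    · rw [indicator_of_mem ht]
      have : Prod.mk t ⁻¹' W = (fun x' => -(t • u') + x') ⁻¹' L := by
        ext x'
        simp only [mem_preimage, hWdef, mem_ofPred_eq]
        constructor
        · rintro ⟨_, h2⟩
          have : -(t • u') + x' = x' - t • u' := by abel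
          rw [this]; exact h2
        · intro h2
          refine ⟨ht, ?_⟩
          have : -(t • u') + x' = x' - t • u' := by abel
          rw [← this]; exact h2
      rw [this, measure_preimage_add]
    · rw [indicator_of_notMem ht]
      have : Prod.mk t ⁻¹' W = ∅ := by
        ext x'
        simp only [mem_preimage, hWdef, mem_ofPred_eq, mem_empty_iff_false, iff_false]
        rintro ⟨h1, _⟩
        exact ht h1
      rw [this, measure_empty]
  simp_rw [hsl]
  rw [lintegral_indicator_const measurableSet_Icc, Real.volume_Icc]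
  simp

end Vale.Agent.Lib.P237
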