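import Mathlib

namespace Vale.Agent.Lib.P237

open MeasureTheory
open scoped Pointwise

/-- The segment from `0` to `u`. -/
def seg {E : Type*} [AddCommGroup E] [Module ℝ E] (u : E) : Set E :=
  (fun t : ℝ => t • u) '' Set.Icc (0 : ℝ) 1

/-- Orthogonal projection of `x` onto the hyperplane orthogonal to `u` (for `u ≠ 0`). -/
noncomputable def projPerp {n : ℕ} (u x : Fin n → ℝ) : Fin n → ℝ :=
  x - (dotProduct x u / dotProduct u u) • u

/-- The support function of the projection body of `K` at `u`: the `n`-dimensional volume of the
right prism whose base is the orthogonal projection of `K` onto the hyperplane orthogonal to `u`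
and whose edge is the segment from `0` to `u`. This is the length of `u` times the
`(n-1)`-dimensional volume of the projection. -/
noncomputable def projFun {n : ℕ} (K : Set (Fin n → ℝ)) (u : Fin n → ℝ) : ℝ :=
  (volume (projPerp u '' K + seg u)).toReal

/-- The projection body of `K`: the convex set with support function `projFun K`. -/
def projBody {n : ℕ} (K : Set (Fin n → ℝ)) : Set (Fin n → ℝ) :=
  {x | ∀ u : Fin n → ℝ, dotProduct x u ≤ projFun K u}

/-- The right cylinder in `ℝ³` with base `L` (in the plane of the first two coordinates) and
height `h` (along the third coordinate). -/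
def rightCylinder (L : Set (Fin 2 → ℝ)) (h : ℝ) : Set (Fin 3 → ℝ) :=
  {x | (fun j : Fin 2 => x j.castSucc) ∈ L ∧ 0 ≤ x 2 ∧ x 2 ≤ h}

end Vale.Agent.Lib.P237
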