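import Vale.Agent.Lib.P237.Defs

namespace Vale.Agent.Lib.P237

open MeasureTheory

/-- The Cartesian product of `K₁ ⊆ ℝⁿ` and `K₂ ⊆ ℝᵐ`, as a subset of `ℝⁿ⁺ᵐ`: the first `n`
coordinates of a point form a point of `K₁`, the last `m` coordinates a point of `K₂`. -/
def prodBody {n m : ℕ} (K₁ : Set (Fin n → ℝ)) (K₂ : Set (Fin m → ℝ)) : Set (Fin (n + m) → ℝ) :=
  {x | (fun i : Fin n => x (Fin.castAdd m i)) ∈ K₁ ∧ (fun j : Fin m => x (Fin.natAdd n j)) ∈ K₂}

/-- Finite Cartesian products of convex bodies of dimension one or two. -/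
inductive LowProduct : (n : ℕ) → Set (Fin n → ℝ) → Prop
  | line (K : Set (Fin 1 → ℝ)) :
      Convex ℝ K → IsCompact K → (interior K).Nonempty → LowProduct 1 K
  | plane (K : Set (Fin 2 → ℝ)) :
      Convex ℝ K → IsCompact K → (interior K).Nonempty → LowProduct 2 K
  | prod {n m : ℕ} (K₁ : Set (Fin n → ℝ)) (K₂ : Set (Fin m → ℝ)) :
      LowProduct n K₁ → LowProduct m K₂ → LowProduct (n + m) (prodBody K₁ K₂)

/-- The volume of the Euclidean unit ball of `ℝⁿ`. -/
noncomputable def kappa (n : ℕ) : ℝ :=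
  (volume (Metric.ball (0 : EuclideanSpace ℝ (Fin n)) 1)).toReal

end Vale.Agent.Lib.P237
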