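import Vale.Agent.Lib.P237.Defs2

namespace Vale.Agent.Lib.P237

open MeasureTheory

/-- The class of convex bodies generated by all convex bodies of dimension one or two and all
Minkowski sums `c + T B + [0, v]` of an ellipsoid and a segment in dimension at least three
(`B` the Euclidean unit ball, `T` an invertible matrix; `v = 0` gives the ellipsoids), and closed
under Cartesian products and under invertible affine maps `x ↦ c + T x`. -/
inductive PettyClass : (n : ℕ) → Set (Fin n → ℝ) → Prop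
  | line (K : Set (Fin 1 → ℝ)) :
      Convex ℝ K → IsCompact K → (interior K).Nonempty → PettyClass 1 K
  | plane (K : Set (Fin 2 → ℝ)) :
      Convex ℝ K → IsCompact K → (interior K).Nonempty → PettyClass 2 K
  | ellSeg {n : ℕ} (T : Matrix (Fin n) (Fin n) ℝ) (c v : Fin n → ℝ) :
      3 ≤ n → T.det ≠ 0 →
      PettyClass n {x | ∃ b : Fin n → ℝ, ∃ s : ℝ,
        ∑ i, b i ^ 2 ≤ 1 ∧ 0 ≤ s ∧ s ≤ 1 ∧ x = c + T.mulVec b + s • v}
  | prod {n m : ℕ} (K₁ : Set (Fin n → ℝ)) (K₂ : Set (Fin m → ℝ)) :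
      PettyClass n K₁ → PettyClass m K₂ → PettyClass (n + m) (prodBody K₁ K₂)
  | affine {n : ℕ} (T : Matrix (Fin n) (Fin n) ℝ) (c : Fin n → ℝ) (K : Set (Fin n → ℝ)) :
      T.det ≠ 0 → PettyClass n K → PettyClass n ((fun x => c + T.mulVec x) '' K)

/-- `K` is an ellipsoid: the image `c + T B` of the Euclidean unit ball `B` under an invertible
affine map. -/
def IsEllipsoid {n : ℕ} (K : Set (Fin n → ℝ)) : Prop :=
  ∃ (T : Matrix (Fin n) (Fin n) ℝ) (c : Fin n → ℝ), T.det ≠ 0 ∧
    K = {x | ∃ b : Fin n → ℝ, ∑ i, b i ^ 2 ≤ 1 ∧ x = c + T.mulVec b}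

end Vale.Agent.Lib.P237
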