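import Vale.Agent.Lib.P237.Seg

namespace Vale.Agent.Lib.P237

open MeasureTheory Set
open scoped Pointwise

variable {E : Type*} [NormedAddCommGroup E] [NormedSpace ℝ E] [MeasurableSpace E] [BorelSpace E]

/-- Real homogeneity: the volume of `K + [0, c u]` is affine in `c ≥ 0`. -/
theorem measure_cyl_real (μ : Measure E) [μ.IsAddLeftInvariant] [IsFiniteMeasureOnCompacts μ]
    {K : Set E} (hK : Convex ℝ K) (hKc : IsCompact K) (u : E) {c : ℝ} (hc : 0 ≤ c) :
    (μ (cyl K u c)).toReal
      = (μ K).toReal + c * ((μ (cyl K u 1)).toReal - (μ K).toReal) := by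
  have hfin : ∀ a, μ (cyl K u a) ≠ ⊤ := fun a => (isCompact_cyl hKc u a).measure_lt_top.ne
  have hKfin : μ K ≠ ⊤ := hKc.measure_lt_top.ne
  set b0 := (μ K).toReal with hb0
  set g : ℝ → ℝ := fun a => (μ (cyl K u a)).toReal - b0 with hg
  have hadd : ∀ a b : ℝ, 0 ≤ a → 0 ≤ b → g (a + b) = g a + g b := by
    intro a b ha hb
    have h := congrArg ENNReal.toReal (measure_cyl_add μ hK hKc u ha hb)
    rw [ENNReal.toReal_add (hfin _) hKfin, ENNReal.toReal_add (hfin _) (hfin _)] at h
    simp only [hg]
    linarith
  have hmono : ∀ a b : ℝ, a ≤ b → g a ≤ g b := by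
    intro a b hab
    simp only [hg]
    have := ENNReal.toReal_mono (hfin b) (measure_mono (μ := μ) (cyl_mono K u hab))
    linarith
  have hg0 : g 0 = 0 := by
    simp only [hg, cyl_zero]
    rw [hb0]; ring
  have hnat : ∀ (k : ℕ) (a : ℝ), 0 ≤ a → g (k * a) = k * g a := by
    intro k a ha
    induction k with
    | zero => simp [hg0]
    | succ k ih =>
      have : ((k + 1 : ℕ) : ℝ) * a = k * a + a := by push_cast; ring
      rw [this, hadd _ _ (by positivity) ha, ih]
      push_cast; ring
  have hg1 : 0 ≤ g 1 := by
    have := hmono 0 1 zero_le_one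
    rw [hg0] at this; exact this
  have key : g c = c * g 1 := by
    apply le_antisymm
    · -- g c - c g1 ≤ 0
      have : g c - c * g 1 ≤ 0 := by
        apply le_of_forall_nat_mul_le (C := g 1)
        intro N
        rcases Nat.eq_zero_or_pos N with h0 | hN
        · subst h0; simp [hg1]
        · have hNpos : (0 : ℝ) < N := by exact_mod_cast hN
          set p := ⌊c * N⌋₊ with hp
          have hp1 : c * N < p + 1 := Nat.lt_floor_add_one _
          have hcle : c ≤ ((p + 1 : ℕ) : ℝ) / N := by
            rw [le_div_iff₀ hNpos]; push_cast; linarith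
          have h1 := hmono _ _ hcle
          have h2 : (N : ℝ) * g (((p + 1 : ℕ) : ℝ) / N) = ((p + 1 : ℕ) : ℝ) * g 1 := by
            rw [← hnat N _ (by positivity), mul_div_cancel₀ _ hNpos.ne']
            have := hnat (p + 1) 1 zero_le_one
            rw [mul_one] at this; exact this
          have h3 : (N : ℝ) * g c ≤ ((p + 1 : ℕ) : ℝ) * g 1 := by
            rw [← h2]; exact mul_le_mul_of_nonneg_left h1 hNpos.le
          have h4 : ((p + 1 : ℕ) : ℝ) ≤ c * N + 1 := by
            push_cast
            have := Nat.floor_le (mul_nonneg hc hNpos.le)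
            linarith
          nlinarith
      linarith
    · have : c * g 1 - g c ≤ 0 := by
        apply le_of_forall_nat_mul_le (C := g 1)
        intro N
        rcases Nat.eq_zero_or_pos N with h0 | hN
        · subst h0; simp [hg1]
        · have hNpos : (0 : ℝ) < N := by exact_mod_cast hN
          set p := ⌊c * N⌋₊ with hp
          have hp0 : (p : ℝ) ≤ c * N := Nat.floor_le (mul_nonneg hc hNpos.le)
          have hp1 : c * N < p + 1 := Nat.lt_floor_add_one _
          have hcle : (p : ℝ) / N ≤ c := by
            rw [div_le_iff₀ hNpos]; exact hp0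
          have h1 := hmono _ _ hcle
          have h2 : (N : ℝ) * g ((p : ℝ) / N) = (p : ℝ) * g 1 := by
            rw [← hnat N _ (by positivity), mul_div_cancel₀ _ hNpos.ne']
            have := hnat p 1 zero_le_one
            rw [mul_one] at this; exact this
          have h3 : (p : ℝ) * g 1 ≤ (N : ℝ) * g c := by
            rw [← h2]; exact mul_le_mul_of_nonneg_left h1 hNpos.le
          nlinarith
      linarith
  simp only [hg] at key
  linarith

end Vale.Agent.Lib.P237
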