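import Vale.Agent.Lib.P237.Seg

namespace Vale.Agent.Lib.P237

open MeasureTheory Set
open scoped Pointwise

variable {n : ℕ}

theorem projPerp_dot {u : Fin n → ℝ} (hu : u ⬝ᵥ u ≠ 0) (x : Fin n → ℝ) :
    projPerp u x ⬝ᵥ u = 0 := by
  unfold projPerp
  rw [sub_dotProduct, smul_dotProduct, smul_eq_mul, div_mul_cancel₀ _ hu, sub_self]

theorem isLinearMap_projPerp (u : Fin n → ℝ) : IsLinearMap ℝ (projPerp u) := by
  constructor
  · intro x y
    unfold projPerp
    rw [add_dotProduct, add_div, add_smul]; abel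
  · intro c x
    unfold projPerp
    rw [smul_dotProduct, smul_eq_mul, mul_div_assoc, smul_sub, smul_smul]

theorem continuous_projPerp (u : Fin n → ℝ) : Continuous (projPerp u) := by
  unfold projPerp
  simp only [dotProduct]
  fun_prop

theorem volume_projPerp_image {u : Fin n → ℝ} (hu : u ⬝ᵥ u ≠ 0) (K : Set (Fin n → ℝ)) :
    volume (projPerp u '' K) = 0 := by
  let ℓ : (Fin n → ℝ) →ₗ[ℝ] ℝ :=
    { toFun := fun x => x ⬝ᵥ u
      map_add' := fun x y => add_dotProduct x y u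
      map_smul' := fun c x => by simp [smul_dotProduct] }
  have hne : LinearMap.ker ℓ ≠ ⊤ := by
    intro h
    have : u ∈ LinearMap.ker ℓ := by rw [h]; trivial
    exact hu (LinearMap.mem_ker.1 this)
  have h0 := Measure.addHaar_submodule (volume : Measure (Fin n → ℝ)) (LinearMap.ker ℓ) hne
  apply measure_mono_null _ h0
  rintro _ ⟨x, _, rfl⟩
  exact LinearMap.mem_ker.2 (projPerp_dot hu x)

theorem prism_eq {K : Set (Fin n → ℝ)} (hK : Convex ℝ K) (hKc : IsCompact K) {u : Fin n → ℝ}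
    (hu : u ⬝ᵥ u ≠ 0) :
    volume (cyl (projPerp u '' K) u 1) + volume K = volume (cyl K u 1) := by
  set A := projPerp u '' K with hAdef
  have hA : Convex ℝ A := hK.is_linear_image (isLinearMap_projPerp u)
  have hAc : IsCompact A := hKc.image (continuous_projPerp u)
  have hA0 : volume A = 0 := volume_projPerp_image hu K
  have hfinA : ∀ c, volume (cyl A u c) ≠ ⊤ := fun c => (isCompact_cyl hAc u c).measure_lt_top.ne
  have hfinK : ∀ c, volume (cyl K u c) ≠ ⊤ := fun c => (isCompact_cyl hKc u c).measure_lt_top.ne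
  have hKfin : volume K ≠ ⊤ := hKc.measure_lt_top.ne
  -- bound on the coefficient
  obtain ⟨C, hC⟩ := hKc.exists_bound_of_continuousOn
    (f := fun k : Fin n → ℝ => k ⬝ᵥ u / u ⬝ᵥ u) (by
      apply Continuous.continuousOn
      simp only [dotProduct]
      fun_prop)
  obtain ⟨m, hm⟩ := exists_nat_ge C
  have hs : ∀ k ∈ K, |k ⬝ᵥ u / u ⬝ᵥ u| ≤ m := fun k hk => (hC k hk).trans hm
  have incl1 : ∀ N : ℕ, cyl K u N ⊆ (fun x => (-(m : ℝ)) • u + x) '' cyl A u ((N + 2 * m : ℕ)) := by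
    rintro N _ ⟨k, hk, τ, ⟨hτ0, hτ1⟩, rfl⟩
    have h1 := abs_le.1 (hs k hk)
    refine ⟨projPerp u k + (k ⬝ᵥ u / u ⬝ᵥ u + τ + m) • u,
      ⟨projPerp u k, ⟨k, hk, rfl⟩, _, ⟨by linarith [h1.1], ?_⟩, rfl⟩, ?_⟩
    · push_cast; linarith [h1.2]
    · show (-(m : ℝ)) • u + (projPerp u k + (k ⬝ᵥ u / u ⬝ᵥ u + τ + m) • u) = k + τ • u
      have hp : projPerp u k = k - (k ⬝ᵥ u / u ⬝ᵥ u) • u := rfl
      rw [hp]
      module
  have incl2 : ∀ N : ℕ, (fun x => (m : ℝ) • u + x) '' cyl A u N ⊆ cyl K u ((N + 2 * m : ℕ)) := by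
    rintro N _ ⟨_, ⟨_, ⟨k, hk, rfl⟩, τ, ⟨hτ0, hτ1⟩, rfl⟩, rfl⟩
    have h1 := abs_le.1 (hs k hk)
    refine ⟨k, hk, m + τ - k ⬝ᵥ u / u ⬝ᵥ u, ⟨by linarith [h1.2], ?_⟩, ?_⟩
    · push_cast; linarith [h1.1]
    · show (m : ℝ) • u + (projPerp u k + τ • u) = k + (m + τ - k ⬝ᵥ u / u ⬝ᵥ u) • u
      have hp : projPerp u k = k - (k ⬝ᵥ u / u ⬝ᵥ u) • u := rfl
      rw [hp]
      module
  -- real numbers
  set V := (volume (cyl A u 1)).toReal with hV
  set a := (volume (cyl K u 1)).toReal with ha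
  set b := (volume K).toReal with hb
  have hAN : ∀ N : ℕ, (volume (cyl A u N)).toReal = N * V := by
    intro N
    have := measure_cyl_nat_real volume hA hAc u N
    rw [hA0] at this
    simpa using this
  have hKN : ∀ N : ℕ, (volume (cyl K u N)).toReal = b + N * (a - b) :=
    fun N => measure_cyl_nat_real volume hK hKc u N
  have hb0 : 0 ≤ b := ENNReal.toReal_nonneg
  have hV0 : 0 ≤ V := ENNReal.toReal_nonneg
  have hab : b ≤ a := ENNReal.toReal_mono (hfinK 1) (measure_mono (subset_cyl K u zero_le_one))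
  have e1 : ∀ N : ℕ, b + N * (a - b) ≤ (N + 2 * m : ℕ) * V := by
    intro N
    have h := measure_mono (μ := volume) (incl1 N)
    rw [image_add_left, measure_preimage_add] at h
    have h' := ENNReal.toReal_mono (hfinA _) h
    rw [hKN, hAN] at h'
    exact h'
  have e2 : ∀ N : ℕ, (N : ℝ) * V ≤ b + (N + 2 * m : ℕ) * (a - b) := by
    intro N
    have h := measure_mono (μ := volume) (incl2 N)
    rw [image_add_left, measure_preimage_add] at h
    have h' := ENNReal.toReal_mono (hfinK _) h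
    rw [hKN, hAN] at h'
    exact h'
  have hle1 : a - b ≤ V := by
    apply le_of_forall_nat_mul_le (C := 2 * m * V)
    intro N
    have := e1 N
    push_cast at this
    nlinarith
  have hle2 : V ≤ a - b := by
    apply le_of_forall_nat_mul_le (C := b + 2 * m * (a - b))
    intro N
    have := e2 N
    push_cast at this
    nlinarith
  have hVab : V + b = a := by linarith
  have := congrArg ENNReal.ofReal hVab
  rw [ENNReal.ofReal_add hV0 hb0, hV, ha, hb, ENNReal.ofReal_toReal (hfinA 1),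
    ENNReal.ofReal_toReal hKfin, ENNReal.ofReal_toReal (hfinK 1)] at this
  exact this

end Vale.Agent.Lib.P237
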