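import Vale.Agent.Lib.P237.Defs2

namespace Vale.Agent.Lib.P237

open Real MeasureTheory

/-- Explicit formula for the volume of the unit ball. -/
noncomputable def kf (n : ℕ) : ℝ := √π ^ n / Gamma (n / 2 + 1)

theorem kf_pos (n : ℕ) : 0 < kf n := by
  unfold kf
  exact div_pos (pow_pos (sqrt_pos.2 pi_pos) n) (Gamma_pos_of_pos (by positivity))

theorem kappa_eq (n : ℕ) : kappa (n + 1) = kf (n + 1) := by
  unfold kappa kf
  rw [EuclideanSpace.volume_ball]
  simp only [ENNReal.ofReal_one, one_pow, one_mul, Fintype.card_fin]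
  rw [ENNReal.toReal_ofReal]
  exact (div_pos (pow_pos (sqrt_pos.2 pi_pos) _) (Gamma_pos_of_pos (by positivity))).le

theorem kf_succ_succ (n : ℕ) : kf (n + 2) = 2 * π / (n + 2) * kf n := by
  unfold kf
  have h1 : ((n + 2 : ℕ) : ℝ) / 2 + 1 = ((n : ℝ) / 2 + 1) + 1 := by push_cast; ring
  have h2 : (n : ℝ) / 2 + 1 ≠ 0 := by positivity
  have h3 : Gamma ((n : ℝ) / 2 + 1) ≠ 0 := (Gamma_pos_of_pos (by positivity)).ne'
  rw [h1, Gamma_add_one h2, pow_add, sq_sqrt pi_pos.le]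
  field_simp

theorem kf_zero : kf 0 = 1 := by
  unfold kf
  simp

theorem kf_one : kf 1 = 2 := by
  unfold kf
  have h1 : ((1 : ℕ) : ℝ) / 2 + 1 = 1 / 2 + 1 := by norm_num
  rw [h1, Gamma_add_one (by norm_num), Gamma_one_half_eq, pow_one]
  have : √π ≠ 0 := (sqrt_pos.2 pi_pos).ne'
  field_simp

theorem kf_two : kf 2 = π := by
  have := kf_succ_succ 0
  rw [kf_zero] at this
  simpa using this

theorem kf_three : kf 3 = 4 * π / 3 := by
  have := kf_succ_succ 1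
  rw [kf_one] at this
  rw [this]; push_cast; ring

theorem kf_four : kf 4 = π ^ 2 / 2 := by
  have := kf_succ_succ 2
  rw [kf_two] at this
  rw [this]; push_cast; ring

theorem gamma_half {s : ℝ} (hs : 0 < s) : Gamma (s + 1 / 2) ^ 2 ≤ s * Gamma s ^ 2 := by
  have h := Gamma_mul_add_mul_le_rpow_Gamma_mul_rpow_Gamma hs (by linarith : 0 < s + 1)
    (a := 1 / 2) (b := 1 / 2) (by norm_num) (by norm_num) (by norm_num)
  have e : 1 / 2 * s + 1 / 2 * (s + 1) = s + 1 / 2 := by ring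
  rw [e] at h
  have g0 : 0 < Gamma s := Gamma_pos_of_pos hs
  have g1 : 0 < Gamma (s + 1) := Gamma_pos_of_pos (by linarith)
  have g2 : 0 < Gamma (s + 1 / 2) := Gamma_pos_of_pos (by linarith)
  have h2 : Gamma (s + 1 / 2) ^ 2 ≤ (Gamma s ^ (1 / 2 : ℝ) * Gamma (s + 1) ^ (1 / 2 : ℝ)) ^ 2 :=
    pow_le_pow_left₀ g2.le h 2
  have e2 : (Gamma s ^ (1 / 2 : ℝ) * Gamma (s + 1) ^ (1 / 2 : ℝ)) ^ 2 = Gamma s * Gamma (s + 1) := by
    rw [mul_pow, ← Real.sqrt_eq_rpow, ← Real.sqrt_eq_rpow, sq_sqrt g0.le, sq_sqrt g1.le]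
  rw [e2, Gamma_add_one hs.ne'] at h2
  calc Gamma (s + 1 / 2) ^ 2 ≤ Gamma s * (s * Gamma s) := h2
    _ = s * Gamma s ^ 2 := by ring

theorem kf_logconvex (n : ℕ) : π * kf n ^ 2 ≤ (n + 2) / 2 * kf (n + 1) ^ 2 := by
  unfold kf
  have hs : (0 : ℝ) < (n : ℝ) / 2 + 1 := by positivity
  have hg := gamma_half hs
  have e : ((n + 1 : ℕ) : ℝ) / 2 + 1 = (n : ℝ) / 2 + 1 + 1 / 2 := by push_cast; ring
  rw [e, pow_succ √π n]
  set Γ1 := Gamma ((n : ℝ) / 2 + 1) with hΓ1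
  set Γ2 := Gamma ((n : ℝ) / 2 + 1 + 1 / 2) with hΓ2
  set P := √π ^ n with hP
  have g0 : 0 < Γ1 := Gamma_pos_of_pos hs
  have g2 : 0 < Γ2 := Gamma_pos_of_pos (by linarith)
  have hp : 0 < P := pow_pos (sqrt_pos.2 pi_pos) n
  have hd : 1 / Γ1 ^ 2 ≤ (((n : ℝ) + 2) / 2) / Γ2 ^ 2 := by
    rw [div_le_div_iff₀ (by positivity) (by positivity)]
    have e3 : ((n : ℝ) + 2) / 2 = (n : ℝ) / 2 + 1 := by ring
    rw [e3]
    linarith
  have e1 : π * (P / Γ1) ^ 2 = (π * P ^ 2) * (1 / Γ1 ^ 2) := by ring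
  have e2 : ((n : ℝ) + 2) / 2 * (P * √π / Γ2) ^ 2 = (π * P ^ 2) * ((((n : ℝ) + 2) / 2) / Γ2 ^ 2) := by
    rw [div_pow, mul_pow, sq_sqrt pi_pos.le]; ring
  rw [e1, e2]
  exact mul_le_mul_of_nonneg_left hd (by positivity)

theorem ratio_pow_le (k : ℕ) : (((k : ℝ) + 5) / (k + 4)) ^ (k + 3) ≤ 2 * (k + 4) / π := by
  have hpi1 : π < 3.15 := pi_lt_d2
  have hpi0 : 0 < π := pi_pos
  rcases Nat.eq_zero_or_pos k with h0 | hk
  · subst h0
    norm_num
    rw [le_div_iff₀ hpi0]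
    nlinarith
  · have hk1 : (1 : ℝ) ≤ k := by exact_mod_cast hk
    have hr1 : (1 : ℝ) ≤ ((k : ℝ) + 5) / (k + 4) := by
      rw [le_div_iff₀ (by positivity)]; linarith
    have h1 : (((k : ℝ) + 5) / (k + 4)) ^ (k + 3) ≤ (((k : ℝ) + 5) / (k + 4)) ^ (k + 4) :=
      pow_le_pow_right₀ hr1 (by omega)
    have h2 : ((k : ℝ) + 5) / (k + 4) ≤ exp (1 / ((k : ℝ) + 4)) := by
      have := add_one_le_exp (1 / ((k : ℝ) + 4))
      have e : 1 / ((k : ℝ) + 4) + 1 = ((k : ℝ) + 5) / (k + 4) := by field_simp; ring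
      rw [e] at this; exact this
    have h3 : (((k : ℝ) + 5) / (k + 4)) ^ (k + 4) ≤ exp 1 := by
      calc (((k : ℝ) + 5) / (k + 4)) ^ (k + 4) ≤ exp (1 / ((k : ℝ) + 4)) ^ (k + 4) :=
            pow_le_pow_left₀ (by positivity) h2 _
        _ = exp 1 := by
            rw [← exp_nat_mul]
            congr 1
            push_cast
            field_simp
    have h4 : exp 1 < 2.7182818286 := exp_one_lt_d9
    have h5 : (2.7182818286 : ℝ) ≤ 2 * (k + 4) / π := by
      rw [le_div_iff₀ hpi0]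
      nlinarith
    linarith

theorem kf_main (k : ℕ) : kf (k + 2) ^ (k + 3) < 2 ^ (k + 3) * kf (k + 3) ^ (k + 1) := by
  induction k using Nat.strong_induction_on with
  | _ k ih =>
    match k with
    | 0 =>
      have hpi1 : π < 3.15 := pi_lt_d2
      have hpi0 : 0 < π := pi_pos
      simp only [zero_add]
      rw [kf_two, kf_three]
      nlinarith [mul_pos hpi0 hpi0]
    | 1 =>
      have hpi0 : 0 < π := pi_pos
      show kf 3 ^ 4 < 2 ^ 4 * kf 4 ^ 2
      rw [kf_three, kf_four]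
      have h4 : 0 < π ^ 4 := by positivity
      have e1 : (4 * π / 3) ^ 4 = 256 / 81 * π ^ 4 := by ring
      have e2 : (2 : ℝ) ^ 4 * (π ^ 2 / 2) ^ 2 = 4 * π ^ 4 := by ring
      rw [e1, e2]
      nlinarith
    | k + 2 =>
      have hQ := ih k (by omega)
      have hpi0 : 0 < π := pi_pos
      set a := kf (k + 2) with ha
      set b := kf (k + 3) with hb
      have ha0 : 0 < a := kf_pos _
      have hb0 : 0 < b := kf_pos _
      have e4 : kf (k + 2 + 2) = 2 * π / (k + 4) * a := by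
        have := kf_succ_succ (k + 2)
        rw [this]; push_cast; ring
      have e5 : kf (k + 2 + 3) = 2 * π / (k + 5) * b := by
        have := kf_succ_succ (k + 3)
        rw [show k + 2 + 3 = k + 3 + 2 by ring, this]; push_cast; ring
      have hlc : π * a ^ 2 ≤ (k + 4) / 2 * b ^ 2 := by
        have := kf_logconvex (k + 2)
        have e : (((k + 2 : ℕ) : ℝ) + 2) / 2 = ((k : ℝ) + 4) / 2 := by push_cast; ring
        rw [e] at this; exact this
      rw [e4, e5]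
      set c1 : ℝ := 2 * π / (k + 4) with hc1
      set c2 : ℝ := 2 * π / (k + 5) with hc2
      set r : ℝ := ((k : ℝ) + 5) / (k + 4) with hr
      have hc10 : 0 < c1 := by positivity
      have hc20 : 0 < c2 := by positivity
      have hr0 : 0 < r := by positivity
      have hc12 : c1 = r * c2 := by
        rw [hc1, hc2, hr]; field_simp
      have hrp := ratio_pow_le k
      rw [← hr] at hrp
      have hX : 0 < c2 ^ (k + 3) * 2 ^ (k + 3) * b ^ (k + 1) * b ^ 2 := by positivity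
      -- a^2 ≤ (k+4)/(2π) b^2
      have F1 : a ^ 2 ≤ (k + 4) / (2 * π) * b ^ 2 := by
        rw [div_mul_eq_mul_div, le_div_iff₀ (by positivity)]
        nlinarith
      have hc1p : c1 ^ (k + 3) = r ^ (k + 3) * c2 ^ (k + 3) := by rw [hc12, mul_pow]
      have step1 : (c1 * a) ^ (k + 2 + 3)
          = r ^ (k + 3) * c2 ^ (k + 3) * c1 ^ 2 * (a ^ (k + 3) * a ^ 2) := by
        rw [← hc1p]; ring
      have step2 : (2 : ℝ) ^ (k + 2 + 3) * (c2 * b) ^ (k + 2 + 1)
          = 4 * (c2 ^ (k + 3) * 2 ^ (k + 3) * b ^ (k + 1) * b ^ 2) := by ring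
      rw [step1, step2]
      have hA : a ^ (k + 3) * a ^ 2 < 2 ^ (k + 3) * b ^ (k + 1) * ((k + 4) / (2 * π) * b ^ 2) := by
        have hB0 : 0 < (2 : ℝ) ^ (k + 3) * b ^ (k + 1) := by positivity
        calc a ^ (k + 3) * a ^ 2 < 2 ^ (k + 3) * b ^ (k + 1) * a ^ 2 :=
              mul_lt_mul_of_pos_right hQ (by positivity)
          _ ≤ 2 ^ (k + 3) * b ^ (k + 1) * ((k + 4) / (2 * π) * b ^ 2) :=
              mul_le_mul_of_nonneg_left F1 hB0.le
      have hcoef : 0 < r ^ (k + 3) * c2 ^ (k + 3) * c1 ^ 2 := by positivity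
      calc r ^ (k + 3) * c2 ^ (k + 3) * c1 ^ 2 * (a ^ (k + 3) * a ^ 2)
          < r ^ (k + 3) * c2 ^ (k + 3) * c1 ^ 2
              * (2 ^ (k + 3) * b ^ (k + 1) * ((k + 4) / (2 * π) * b ^ 2)) :=
            mul_lt_mul_of_pos_left hA hcoef
        _ = (r ^ (k + 3) * (2 * π / (k + 4))) * (c2 ^ (k + 3) * 2 ^ (k + 3) * b ^ (k + 1) * b ^ 2) := by
            rw [hc1]; field_simp
        _ ≤ (2 * (k + 4) / π * (2 * π / (k + 4)))
              * (c2 ^ (k + 3) * 2 ^ (k + 3) * b ^ (k + 1) * b ^ 2) := by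
            apply mul_le_mul_of_nonneg_right _ hX.le
            exact mul_le_mul_of_nonneg_right hrp (by positivity)
        _ = 4 * (c2 ^ (k + 3) * 2 ^ (k + 3) * b ^ (k + 1) * b ^ 2) := by
            congr 1
            field_simp
            ring

/-- Petty's constant `κ_{n-1}^n κ_n^{2-n}` is smaller than `2^n` for every `n ≥ 3`. -/
theorem petty_const_lt (n : ℕ) (hn : 3 ≤ n) :
    kappa (n - 1) ^ n / kappa n ^ (n - 2) < 2 ^ n := by
  obtain ⟨k, rfl⟩ : ∃ k, n = k + 3 := ⟨n - 3, by omega⟩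
  have e1 : k + 3 - 1 = (k + 1) + 1 := by omega
  have e2 : k + 3 - 2 = k + 1 := by omega
  rw [e1, e2, kappa_eq (k + 1), show k + 3 = (k + 2) + 1 by ring, kappa_eq (k + 2)]
  rw [div_lt_iff₀ (pow_pos (kf_pos _) _)]
  exact kf_main k

end Vale.Agent.Lib.P237
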