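import Vale.Agent.Lib.P237.BallProj

namespace Vale.Agent.Lib.P237

open MeasureTheory Set
open scoped Pointwise

/-- The body `a Bᵐ⁺¹ + b Bᵐ` (`Bᵐ` the unit ball of the hyperplane of the first `m` coordinates):
the points whose distance from the flat ball `b Bᵐ` is at most `a`. -/
def lens (m : ℕ) (a b : ℝ) : Set (Fin (m + 1) → ℝ) :=
  {x | (max (√(dropLast x ⬝ᵥ dropLast x) - b) 0) ^ 2 + x (Fin.last m) ^ 2 ≤ a ^ 2}

theorem dot_le_sqrt_mul_sqrt {n : ℕ} (x u : Fin n → ℝ) :
    x ⬝ᵥ u ≤ √(x ⬝ᵥ x) * √(u ⬝ᵥ u) := by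
  have h := Finset.sum_mul_sq_le_sq_mul_sq Finset.univ x u
  rw [sum_sq_eq_dot, sum_sq_eq_dot] at h
  have h2 : |x ⬝ᵥ u| ≤ √(x ⬝ᵥ x * (u ⬝ᵥ u)) := Real.abs_le_sqrt h
  rw [Real.sqrt_mul (dot_self_nonneg x)] at h2
  exact (le_abs_self _).trans h2

theorem dot_self_split {k : ℕ} (u : Fin (k + 1) → ℝ) :
    u ⬝ᵥ u = dropLast u ⬝ᵥ dropLast u + u (Fin.last k) ^ 2 := by
  rw [dot_split, sq]

theorem lens_iff {m : ℕ} {a b : ℝ} (ha : 0 ≤ a) (hb : 0 ≤ b) (x : Fin (m + 1) → ℝ) :
    (∀ u : Fin (m + 1) → ℝ,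
        x ⬝ᵥ u ≤ a * √(u ⬝ᵥ u) + b * √(dropLast u ⬝ᵥ dropLast u)) ↔ x ∈ lens m a b := by
  set r := √(dropLast x ⬝ᵥ dropLast x) with hr
  set ρ := max (r - b) 0 with hρ
  set z := x (Fin.last m) with hz
  have hr0 : 0 ≤ r := Real.sqrt_nonneg _
  have hrr : r * r = dropLast x ⬝ᵥ dropLast x := Real.mul_self_sqrt (dot_self_nonneg _)
  have hρ0 : 0 ≤ ρ := le_max_right _ _
  have hρr : r ≤ ρ + b := by
    have := le_max_left (r - b) 0
    linarith
  constructor
  · intro h
    show ρ ^ 2 + z ^ 2 ≤ a ^ 2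
    rcases hρ0.eq_or_lt with h0 | hpos
    · -- ρ = 0
      rw [← h0]
      have hu := h (z • lastVec m)
      rw [dotProduct_smul, lastVec_dot, smul_eq_mul, smul_lastVec_dot_self] at hu
      have hd : dropLast (z • lastVec m) = 0 := by
        rw [isLinearMap_dropLast.map_smul, dropLast_lastVec, smul_zero]
      rw [hd, dotProduct_zero, Real.sqrt_zero, mul_zero, add_zero, Real.sqrt_mul_self_eq_abs] at hu
      have habs : |z| * |z| = z * z := abs_mul_abs_self z
      have hz0 : 0 ≤ |z| := abs_nonneg z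
      have : |z| ≤ a := by
        by_contra hcon
        rw [not_le] at hcon
        nlinarith
      nlinarith
    · -- ρ > 0, so r > b ≥ 0
      have hρeq : ρ = r - b := by
        rw [hρ]
        apply max_eq_left
        by_contra hcon
        rw [not_le] at hcon
        have : ρ = 0 := by rw [hρ]; exact max_eq_right hcon.le
        linarith
      have hrpos : 0 < r := by linarith
      set u : Fin (m + 1) → ℝ := Fin.snoc (α := fun _ => ℝ) ((ρ / r) • dropLast x) z with hu
      have hud : dropLast u = (ρ / r) • dropLast x := dropLast_snoc _ _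
      have hul : u (Fin.last m) = z := by simp [hu]
      have h1 := h u
      rw [dot_split, dot_self_split u, hud, hul, dotProduct_smul, smul_dotProduct, dotProduct_smul,
        smul_eq_mul, ← hrr, ← hz] at h1
      simp only [smul_eq_mul] at h1
      have e1 : ρ / r * (ρ / r * (r * r)) = ρ * ρ := by field_simp
      have e2 : ρ / r * (r * r) = ρ * r := by field_simp
      rw [e1, e2, Real.sqrt_mul_self hρ0] at h1
      set T := √(ρ * ρ + z ^ 2) with hT
      have hT0 : 0 ≤ T := Real.sqrt_nonneg _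
      have hTT : T * T = ρ * ρ + z ^ 2 := Real.mul_self_sqrt (by positivity)
      have hTa : T ≤ a := by
        by_contra hcon
        rw [not_le] at hcon
        have hTpos : 0 < T := lt_of_le_of_lt ha hcon
        nlinarith
      nlinarith
  · intro hx u
    have hx' : ρ ^ 2 + z ^ 2 ≤ a ^ 2 := hx
    set s' := √(dropLast u ⬝ᵥ dropLast u) with hs'
    set S := √(u ⬝ᵥ u) with hS
    have hs0 : 0 ≤ s' := Real.sqrt_nonneg _
    have hS0 : 0 ≤ S := Real.sqrt_nonneg _
    have hss : s' * s' = dropLast u ⬝ᵥ dropLast u := Real.mul_self_sqrt (dot_self_nonneg _)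
    have hSS : S * S = s' * s' + u (Fin.last m) ^ 2 := by
      rw [hss, ← dot_self_split]
      exact Real.mul_self_sqrt (dot_self_nonneg _)
    have h1 : dropLast x ⬝ᵥ dropLast u ≤ r * s' := dot_le_sqrt_mul_sqrt _ _
    have h2 : ρ * s' + z * u (Fin.last m) ≤ a * S := by
      have hsq : (ρ * s' + z * u (Fin.last m)) ^ 2 ≤ (a * S) ^ 2 := by
        nlinarith [sq_nonneg (ρ * u (Fin.last m) - z * s'), mul_nonneg (sq_nonneg S)
          (sub_nonneg.2 hx'), sq_nonneg S]
      exact (abs_le_of_sq_le_sq' hsq (mul_nonneg ha hS0)).2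
    rw [dot_split]
    nlinarith [mul_le_mul_of_nonneg_right hρr hs0]

theorem lens_zero (m : ℕ) (a : ℝ) : lens m a 0 = eball (m + 1) a := by
  ext x
  show (max (√(dropLast x ⬝ᵥ dropLast x) - 0) 0) ^ 2 + x (Fin.last m) ^ 2 ≤ a ^ 2
    ↔ ∑ i, x i ^ 2 ≤ a ^ 2
  rw [sub_zero, max_eq_left (Real.sqrt_nonneg _), Real.sq_sqrt (dot_self_nonneg _), sum_sq_eq_dot,
    dot_self_split]

/-- The slab description of the lens body in the coordinates `(last, first m)`. -/
def lensProd (m : ℕ) (a b : ℝ) : Set (ℝ × (Fin m → ℝ)) :=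
  {p | (max (√(p.2 ⬝ᵥ p.2) - b) 0) ^ 2 + p.1 ^ 2 ≤ a ^ 2}

theorem lens_eq_preimage (m : ℕ) (a b : ℝ) : lens m a b = splitL m ⁻¹' lensProd m a b := rfl

theorem isClosed_lensProd (m : ℕ) (a b : ℝ) : IsClosed (lensProd m a b) := by
  unfold lensProd
  apply isClosed_le _ continuous_const
  simp only [dotProduct]
  fun_prop

theorem lensProd_section {m : ℕ} {a b : ℝ} (ha : 0 ≤ a) (hb : 0 ≤ b) (z : ℝ) :
    volume (Prod.mk z ⁻¹' lensProd m a b)
      = (Icc (-a) a).indicator
          (fun z => ENNReal.ofReal (kappa m * (b + √(a ^ 2 - z ^ 2)) ^ m)) z := by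
  by_cases hz : z ∈ Icc (-a) a
  · rw [indicator_of_mem hz]
    have hza : z ^ 2 ≤ a ^ 2 := by
      nlinarith [mul_nonneg (sub_nonneg.2 hz.2) (by linarith [hz.1] : 0 ≤ a + z)]
    set w := √(a ^ 2 - z ^ 2) with hw
    have hw0 : 0 ≤ w := Real.sqrt_nonneg _
    have hww : w ^ 2 = a ^ 2 - z ^ 2 := Real.sq_sqrt (by linarith)
    have hset : Prod.mk z ⁻¹' lensProd m a b = eball m (b + w) := by
      ext y
      rw [mem_eball_iff (by linarith)]
      show (max (√(y ⬝ᵥ y) - b) 0) ^ 2 + z ^ 2 ≤ a ^ 2 ↔ _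
      have hm0 : 0 ≤ max (√(y ⬝ᵥ y) - b) 0 := le_max_right _ _
      constructor
      · intro h
        have h1 : (max (√(y ⬝ᵥ y) - b) 0) ^ 2 ≤ w ^ 2 := by rw [hww]; linarith
        have h2 := (sq_le_sq₀ hm0 hw0).1 h1
        have := (max_le_iff.1 h2).1
        linarith
      · intro h
        have h2 : max (√(y ⬝ᵥ y) - b) 0 ≤ w := max_le (by linarith) hw0
        have h1 := (sq_le_sq₀ hm0 hw0).2 h2
        rw [hww] at h1
        linarith
    rw [hset, volume_eball m (by linarith)]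
  · rw [indicator_of_notMem hz]
    have hza : a ^ 2 < z ^ 2 := by
      rw [mem_Icc, not_and_or, not_le, not_le] at hz
      rcases hz with h | h
      · nlinarith
      · nlinarith
    have : Prod.mk z ⁻¹' lensProd m a b = ∅ := by
      ext y
      simp only [mem_preimage, mem_empty_iff_false, iff_false]
      intro h
      have h' : (max (√(y ⬝ᵥ y) - b) 0) ^ 2 + z ^ 2 ≤ a ^ 2 := h
      nlinarith [sq_nonneg (max (√(y ⬝ᵥ y) - b) 0)]
    rw [this, measure_empty]

theorem volume_lens (m : ℕ) {a b : ℝ} (ha : 0 ≤ a) (hb : 0 ≤ b) :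
    volume (lens m a b)
      = ENNReal.ofReal (kappa m * ∫ z in (-a)..a, (b + √(a ^ 2 - z ^ 2)) ^ m) := by
  rw [lens_eq_preimage, volume_preimage_splitL, Measure.volume_eq_prod,
    Measure.prod_apply (isClosed_lensProd m a b).measurableSet]
  simp_rw [lensProd_section ha hb]
  rw [lintegral_indicator measurableSet_Icc]
  have hcont : Continuous fun z : ℝ => kappa m * (b + √(a ^ 2 - z ^ 2)) ^ m := by fun_prop
  have hnn : 0 ≤ᵐ[volume.restrict (Icc (-a) a)]
      fun z : ℝ => kappa m * (b + √(a ^ 2 - z ^ 2)) ^ m :=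
    Filter.Eventually.of_forall fun z =>
      mul_nonneg (kappa_pos m).le (pow_nonneg (add_nonneg hb (Real.sqrt_nonneg _)) m)
  rw [← ofReal_integral_eq_lintegral_ofReal hcont.integrableOn_Icc hnn,
    integral_Icc_eq_integral_Ioc, ← intervalIntegral.integral_of_le (by linarith),
    intervalIntegral.integral_const_mul]

/-- The projection body of the capsule `B + [0, τ e]` in `ℝᵏ⁺²`. -/
theorem projBody_capsule (k : ℕ) {τ : ℝ} (hτ : 0 ≤ τ) :
    projBody (capsule (k + 1) τ) = lens (k + 1) (kappa (k + 1)) (τ * kappa k) := by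
  ext x
  rw [mem_projBody_iff (convex_capsule _ _) (isCompact_capsule _ _),
    ← lens_iff (kappa_pos _).le (mul_nonneg hτ (kappa_pos _).le)]
  simp only [gfun_capsule k hτ]

end Vale.Agent.Lib.P237
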