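import Vale.Agent.Lib.P237.Planar
import Vale.Agent.Lib.P237.Ident
import Vale.Agent.Lib.P237.Cylinder
import Vale.Agent.Lib.P237.BM

namespace Vale.Agent.Lib.P237

open MeasureTheory Set
open scoped Pointwise

/-- Splitting off the last coordinate. -/
def splitLast (x : Fin 3 → ℝ) : ℝ × (Fin 2 → ℝ) := (x 2, fun j : Fin 2 => x j.castSucc)

theorem isLinearMap_splitLast : IsLinearMap ℝ splitLast := by
  constructor
  · intro x y
    unfold splitLast
    ext <;> simp
  · intro c x
    unfold splitLast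
    ext <;> simp

theorem splitLast_add_smul (x u : Fin 3 → ℝ) (τ : ℝ) :
    splitLast (x + τ • u) = splitLast x + τ • splitLast u := by
  rw [isLinearMap_splitLast.map_add, isLinearMap_splitLast.map_smul]

theorem volume_preimage_splitLast (S : Set (ℝ × (Fin 2 → ℝ))) :
    volume (splitLast ⁻¹' S) = volume S := by
  have hmp := volume_preserving_piFinSuccAbove (fun _ : Fin 3 => ℝ) (Fin.last 2)
  have h := hmp.measure_preimage_equiv S
  have heq : (⇑(MeasurableEquiv.piFinSuccAbove (fun _ : Fin 3 => ℝ) (Fin.last 2))) = splitLast := by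
    funext x
    simp only [MeasurableEquiv.piFinSuccAbove, Fin.insertNthEquiv, splitLast]
    refine Prod.ext rfl ?_
    funext j
    fin_cases j <;> rfl
  rw [heq] at h
  exact h

theorem rightCylinder_eq (L : Set (Fin 2 → ℝ)) (h : ℝ) :
    rightCylinder L h = splitLast ⁻¹' (Icc (0 : ℝ) h ×ˢ L) := by
  ext x
  simp only [rightCylinder, splitLast, mem_preimage, mem_prod, mem_Icc, mem_ofPred_eq]
  tauto

theorem convex_rightCylinder {L : Set (Fin 2 → ℝ)} (hL : Convex ℝ L) (h : ℝ) :
    Convex ℝ (rightCylinder L h) := by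
  rw [rightCylinder_eq]
  exact ((convex_Icc 0 h).prod hL).is_linear_preimage isLinearMap_splitLast

theorem isCompact_rightCylinder {L : Set (Fin 2 → ℝ)} (hL : IsCompact L) (h : ℝ) :
    IsCompact (rightCylinder L h) := by
  have : rightCylinder L h
      = (fun p : ℝ × (Fin 2 → ℝ) => (![p.2 0, p.2 1, p.1] : Fin 3 → ℝ)) '' (Icc (0 : ℝ) h ×ˢ L) := by
    ext x
    constructor
    · intro hx
      refine ⟨splitLast x, by rw [rightCylinder_eq] at hx; exact hx, ?_⟩
      funext i
      fin_cases i <;> rfl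
    · rintro ⟨⟨z, y⟩, ⟨hz, hy⟩, rfl⟩
      rw [rightCylinder_eq]
      refine ⟨hz, ?_⟩
      have : (fun j : Fin 2 => (![y 0, y 1, z] : Fin 3 → ℝ) j.castSucc) = y := by
        funext j
        fin_cases j <;> rfl
      show (fun j : Fin 2 => (![y 0, y 1, z] : Fin 3 → ℝ) j.castSucc) ∈ L
      rw [this]; exact hy
  rw [this]
  apply (isCompact_Icc.prod hL).image
  apply continuous_pi
  intro i
  fin_cases i <;> simp <;> fun_prop

theorem cyl_rightCylinder (L : Set (Fin 2 → ℝ)) (h : ℝ) (u : Fin 3 → ℝ) :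
    cyl (rightCylinder L h) u 1 = splitLast ⁻¹' cyl (Icc (0 : ℝ) h ×ˢ L) (splitLast u) 1 := by
  ext x
  constructor
  · rintro ⟨k, hk, τ, hτ, rfl⟩
    rw [rightCylinder_eq] at hk
    exact ⟨splitLast k, hk, τ, hτ, splitLast_add_smul k u τ⟩
  · rintro ⟨k', hk', τ, hτ, hx⟩
    refine ⟨x - τ • u, ?_, τ, hτ, by abel⟩
    rw [rightCylinder_eq]
    show splitLast (x - τ • u) ∈ Icc (0 : ℝ) h ×ˢ L
    have : splitLast (x - τ • u) = k' := by
      have h1 : x - τ • u = x + (-τ) • u := by rw [neg_smul]; abel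
      rw [h1, splitLast_add_smul, hx, neg_smul]; abel
    rw [this]; exact hk'

theorem volume_rightCylinder (L : Set (Fin 2 → ℝ)) (h : ℝ) :
    volume (rightCylinder L h) = ENNReal.ofReal h * volume L := by
  rw [rightCylinder_eq, volume_preimage_splitLast, Measure.volume_eq_prod, Measure.prod_prod,
    Real.volume_Icc, sub_zero]

theorem volume_cyl_rightCylinder {L : Set (Fin 2 → ℝ)} (hL : Convex ℝ L) (hLc : IsCompact L)
    {h : ℝ} (hh : 0 ≤ h) (u : Fin 3 → ℝ) :
    volume (cyl (rightCylinder L h) u 1)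
      = ENNReal.ofReal h * volume (cyl L (splitLast u).2 1) + ENNReal.ofReal |u 2| * volume L := by
  rw [cyl_rightCylinder, volume_preimage_splitLast]
  exact cylinder_volume volume hL hLc hh (u 2) (splitLast u).2

theorem projFun_rightCylinder_ge {L : Set (Fin 2 → ℝ)} (hL : Convex ℝ L) (hLc : IsCompact L)
    {h : ℝ} (hh : 0 ≤ h) (u : Fin 3 → ℝ) {p q : Fin 2 → ℝ} (hp : p ∈ L) (hq : q ∈ L) :
    h * |det2 (q - p) (splitLast u).2| + |u 2| * (volume L).toReal
      ≤ projFun (rightCylinder L h) u := by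
  by_cases hu : u ⬝ᵥ u = 0
  · have hu0 : u = 0 := dotProduct_self_eq_zero.1 hu
    subst hu0
    have : h * |det2 (q - p) (splitLast (0 : Fin 3 → ℝ)).2| + |(0 : Fin 3 → ℝ) 2| * (volume L).toReal
        = 0 := by
      simp [det2, splitLast]
    rw [this]
    exact ENNReal.toReal_nonneg
  · set K := rightCylinder L h with hKdef
    have hK : Convex ℝ K := convex_rightCylinder hL h
    have hKc : IsCompact K := isCompact_rightCylinder hLc h
    have hprism := prism_eq hK hKc hu
    rw [← add_seg_eq_cyl, volume_cyl_rightCylinder hL hLc hh u, volume_rightCylinder] at hprism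
    have hdet := cyl_ge_det hL hLc hp hq (splitLast u).2
    set X := volume (projPerp u '' K + seg u) with hX
    set D := |det2 (q - p) (splitLast u).2| with hD
    have hXfin : X ≠ ⊤ :=
      ((hKc.image (continuous_projPerp u)).add (isCompact_seg u)).measure_lt_top.ne
    have hLfin : volume L ≠ ⊤ := hLc.measure_lt_top.ne
    have h1 : ENNReal.ofReal h * volume L
        + (ENNReal.ofReal h * ENNReal.ofReal D + ENNReal.ofReal |u 2| * volume L)
        ≤ ENNReal.ofReal h * volume L + X := by
      rw [add_comm (ENNReal.ofReal h * volume L) X, hprism]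
      calc ENNReal.ofReal h * volume L
            + (ENNReal.ofReal h * ENNReal.ofReal D + ENNReal.ofReal |u 2| * volume L)
          = ENNReal.ofReal h * (volume L + ENNReal.ofReal D) + ENNReal.ofReal |u 2| * volume L := by
            ring
        _ ≤ _ := by gcongr
    have h2 : ENNReal.ofReal h * ENNReal.ofReal D + ENNReal.ofReal |u 2| * volume L ≤ X :=
      (ENNReal.add_le_add_iff_left (ENNReal.mul_ne_top ENNReal.ofReal_ne_top hLfin)).1 h1
    have h3 := ENNReal.toReal_mono hXfin h2
    rw [ENNReal.toReal_add (ENNReal.mul_ne_top ENNReal.ofReal_ne_top ENNReal.ofReal_ne_top)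
      (ENNReal.mul_ne_top ENNReal.ofReal_ne_top hLfin), ENNReal.toReal_mul, ENNReal.toReal_mul,
      ENNReal.toReal_ofReal hh, ENNReal.toReal_ofReal (abs_nonneg _),
      ENNReal.toReal_ofReal (abs_nonneg _)] at h3
    exact h3

/-- An explicit subset of the projection body of a right cylinder. -/
def innerBody (L : Set (Fin 2 → ℝ)) (h : ℝ) : Set (Fin 3 → ℝ) :=
  splitLast ⁻¹' (Icc (-(volume L).toReal) (volume L).toReal ×ˢ
    ((Matrix.toLin' !![0, -h; h, 0]) '' (L - L)))

theorem innerBody_subset {L : Set (Fin 2 → ℝ)} (hL : Convex ℝ L) (hLc : IsCompact L)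
    {h : ℝ} (hh : 0 ≤ h) : innerBody L h ⊆ projBody (rightCylinder L h) := by
  rintro x ⟨hx2, d, ⟨a, ha, b, hb, rfl⟩, hd⟩ u
  have hd0 := congrFun hd 0
  have hd1 := congrFun hd 1
  simp [dotProduct, Fin.sum_univ_two, splitLast] at hd0 hd1
  have hx2' : |x 2| ≤ (volume L).toReal := abs_le.2 hx2
  have hmain := projFun_rightCylinder_ge hL hLc hh u hb ha
  have hdot : x ⬝ᵥ u = h * det2 (a - b) (splitLast u).2 + x 2 * u 2 := by
    simp only [dotProduct, Fin.sum_univ_three, det2, splitLast]
    have e0 : x 0 = -(h * (a 1 - b 1)) := by rw [← hd0]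
    have e1 : x 1 = h * (a 0 - b 0) := by rw [← hd1]
    rw [e0, e1]
    simp
    ring
  rw [hdot]
  have h1 : h * det2 (a - b) (splitLast u).2 ≤ h * |det2 (a - b) (splitLast u).2| :=
    mul_le_mul_of_nonneg_left (le_abs_self _) hh
  have h2 : x 2 * u 2 ≤ |u 2| * (volume L).toReal := by
    calc x 2 * u 2 ≤ |x 2 * u 2| := le_abs_self _
      _ = |u 2| * |x 2| := by rw [abs_mul, mul_comm]
      _ ≤ |u 2| * (volume L).toReal := mul_le_mul_of_nonneg_left hx2' (abs_nonneg _)
  linarith

theorem volume_innerBody {L : Set (Fin 2 → ℝ)} (hLc : IsCompact L) {h : ℝ} (hh : 0 ≤ h) :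
    8 * volume (rightCylinder L h) ^ 2 ≤ volume (innerBody L h) := by
  have hLfin : volume L ≠ ⊤ := hLc.measure_lt_top.ne
  unfold innerBody
  rw [volume_preimage_splitLast, Measure.volume_eq_prod, Measure.prod_prod, Real.volume_Icc,
    Measure.addHaar_image_linearMap, LinearMap.det_toLin', Matrix.det_fin_two_of,
    volume_rightCylinder]
  have e1 : (volume L).toReal - -(volume L).toReal = 2 * (volume L).toReal := by ring
  have e2 : (0 : ℝ) * 0 - -h * h = h * h := by ring
  rw [e1, e2, abs_of_nonneg (mul_nonneg hh hh), ENNReal.ofReal_mul (by norm_num),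
    ENNReal.ofReal_toReal hLfin, ENNReal.ofReal_mul hh]
  have hbm := bm_fin2 hLc
  calc 8 * (ENNReal.ofReal h * volume L) ^ 2
      = ENNReal.ofReal 2 * volume L * (ENNReal.ofReal h * ENNReal.ofReal h * (4 * volume L)) := by
        rw [show ENNReal.ofReal 2 = 2 by simp]
        ring
    _ ≤ _ := by gcongr

theorem projBody_bounded {n : ℕ} (K : Set (Fin n → ℝ)) :
    projBody K ⊆ Icc (fun i => -projFun K (-(Pi.single i 1))) (fun i => projFun K (Pi.single i 1)) := by
  intro x hx
  constructor
  · intro i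
    have := hx (-(Pi.single i 1))
    rw [dotProduct_neg, dotProduct_single_one] at this
    show -projFun K (-(Pi.single i 1)) ≤ x i
    linarith
  · intro i
    have := hx (Pi.single i 1)
    rw [dotProduct_single_one] at this
    exact this

theorem volume_projBody_ne_top {n : ℕ} (K : Set (Fin n → ℝ)) : volume (projBody K) ≠ ⊤ :=
  ne_top_of_le_ne_top isCompact_Icc.measure_lt_top.ne (measure_mono (projBody_bounded K))

theorem petty_rightCylinder {L : Set (Fin 2 → ℝ)} (hL : Convex ℝ L) (hLc : IsCompact L)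
    {h : ℝ} (hh : 0 ≤ h) :
    8 * volume (rightCylinder L h) ^ 2 ≤ volume (projBody (rightCylinder L h)) :=
  (volume_innerBody hLc hh).trans (measure_mono (innerBody_subset hL hLc hh))

theorem projFun_mono {n : ℕ} {K M : Set (Fin n → ℝ)} (hKM : K ⊆ M) (hM : IsCompact M)
    (u : Fin n → ℝ) : projFun K u ≤ projFun M u := by
  unfold projFun
  apply ENNReal.toReal_mono
  · exact ((hM.image (continuous_projPerp u)).add (isCompact_seg u)).measure_lt_top.ne
  · exact measure_mono (add_subset_add_right (image_mono hKM))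

theorem projBody_mono {n : ℕ} {K M : Set (Fin n → ℝ)} (hKM : K ⊆ M) (hM : IsCompact M) :
    projBody K ⊆ projBody M :=
  fun _ hx u => (hx u).trans (projFun_mono hKM hM u)

theorem volume_rightCylinder_pos {L : Set (Fin 2 → ℝ)} (hLi : (interior L).Nonempty) {h : ℝ}
    (hh : 0 < h) : 0 < volume (rightCylinder L h) := by
  rw [volume_rightCylinder]
  exact ENNReal.mul_pos (ENNReal.ofReal_pos.2 hh).ne'
    (Measure.measure_pos_of_nonempty_interior volume hLi).ne'

theorem volume_rightCylinder_ne_top {L : Set (Fin 2 → ℝ)} (hLc : IsCompact L) (h : ℝ) :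
    volume (rightCylinder L h) ≠ ⊤ :=
  (isCompact_rightCylinder hLc h).measure_lt_top.ne

theorem petty_const_three_lt : ENNReal.ofReal (3 * Real.pi ^ 2 / 4) < 8 := by
  have h1 : Real.pi < 3.15 := Real.pi_lt_d2
  have h0 : 0 < Real.pi := Real.pi_pos
  have h2 : 3 * Real.pi ^ 2 / 4 < 8 := by nlinarith
  calc ENNReal.ofReal (3 * Real.pi ^ 2 / 4) < ENNReal.ofReal 8 :=
        (ENNReal.ofReal_lt_ofReal_iff (by norm_num)).2 h2
    _ = 8 := by simp

end Vale.Agent.Lib.P237
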