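import Vale.Agent.Lib.P237.ProdBody
import Vale.Agent.Lib.P237.Main
import Vale.Agent.Lib.P237.Kappa

namespace Vale.Agent.Lib.P237

open MeasureTheory Set
open scoped Pointwise

/-- In dimension one the segment from `0` to `u` has volume at least `|u 0|`. -/
theorem volume_seg_one (u : Fin 1 → ℝ) : ENNReal.ofReal |u 0| ≤ volume (seg u) := by
  by_cases hu : u 0 = 0
  · simp [hu]
  have hsub : Icc (fun _ : Fin 1 => min 0 (u 0)) (fun _ : Fin 1 => max 0 (u 0)) ⊆ seg u := by
    intro y hy
    have h1 : min 0 (u 0) ≤ y 0 := hy.1 0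
    have h2 : y 0 ≤ max 0 (u 0) := hy.2 0
    refine ⟨y 0 / u 0, ?_, ?_⟩
    · rcases lt_or_gt_of_ne hu with hneg | hpos
      · rw [min_eq_right hneg.le] at h1
        rw [max_eq_left hneg.le] at h2
        exact ⟨div_nonneg_of_nonpos h2 hneg.le, by rw [div_le_one_of_neg hneg]; exact h1⟩
      · rw [min_eq_left hpos.le] at h1
        rw [max_eq_right hpos.le] at h2
        exact ⟨div_nonneg h1 hpos.le, by rw [div_le_one hpos]; exact h2⟩
    · funext i
      have hi : i = 0 := Subsingleton.elim i 0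
      subst hi
      simp only [Pi.smul_apply, smul_eq_mul]
      field_simp
  refine le_trans (le_of_eq ?_) (measure_mono hsub)
  rw [Real.volume_Icc_pi]
  simp only [Finset.univ_unique, Finset.prod_singleton]
  congr 1
  rcases le_total 0 (u 0) with h | h
  · rw [max_eq_right h, min_eq_left h, abs_of_nonneg h, sub_zero]
  · rw [max_eq_left h, min_eq_right h, abs_of_nonpos h, zero_sub]

theorem projFun_one_ge {K : Set (Fin 1 → ℝ)} (hK : K.Nonempty) (hKc : IsCompact K)
    (u : Fin 1 → ℝ) : |u 0| ≤ projFun K u := by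
  unfold projFun
  have hfin : volume (projPerp u '' K + seg u) ≠ ⊤ :=
    ((hKc.image (continuous_projPerp u)).add (isCompact_seg u)).measure_lt_top.ne
  obtain ⟨k, hk⟩ := hK
  have hsub : (fun y => projPerp u k + y) '' seg u ⊆ projPerp u '' K + seg u := by
    rintro _ ⟨y, hy, rfl⟩
    exact ⟨projPerp u k, ⟨k, hk, rfl⟩, y, hy, rfl⟩
  have h1 : ENNReal.ofReal |u 0| ≤ volume (projPerp u '' K + seg u) := by
    refine le_trans (volume_seg_one u) ?_
    refine le_trans (le_of_eq ?_) (measure_mono hsub)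
    rw [image_add_left, measure_preimage_add]
  have h2 := ENNReal.toReal_mono hfin h1
  rwa [ENNReal.toReal_ofReal (abs_nonneg _)] at h2

/-- Dimension one: the projection body of a nonempty compact set has length at least `2`. -/
theorem line_base {K : Set (Fin 1 → ℝ)} (hK : K.Nonempty) (hKc : IsCompact K) :
    2 ≤ volume (projBody K) := by
  have hsub : Icc (fun _ : Fin 1 => (-1 : ℝ)) (fun _ : Fin 1 => (1 : ℝ)) ⊆ projBody K := by
    intro x hx u
    have h1 : -1 ≤ x 0 := hx.1 0
    have h2 : x 0 ≤ 1 := hx.2 0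
    have h3 := projFun_one_ge hK hKc u
    have h4 : x ⬝ᵥ u = x 0 * u 0 := by simp [dotProduct]
    rw [h4]
    have h5 : x 0 * u 0 ≤ |x 0 * u 0| := le_abs_self _
    have h6 : |x 0 * u 0| ≤ |u 0| := by
      rw [abs_mul]
      have : |x 0| ≤ 1 := abs_le.2 ⟨h1, h2⟩
      nlinarith [abs_nonneg (u 0)]
    linarith
  refine le_trans (le_of_eq ?_) (measure_mono hsub)
  rw [Real.volume_Icc_pi]
  simp only [Finset.univ_unique, Finset.prod_singleton]
  norm_num

/-- Dimension two: `vol(ΠL) ≥ 4 vol(L)`. -/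
theorem plane_base {L : Set (Fin 2 → ℝ)} (hL : Convex ℝ L) (hLc : IsCompact L) :
    4 * volume L ≤ volume (projBody L) := by
  have hsub : (Matrix.toLin' !![0, -1; 1, 0]) '' (L - L) ⊆ projBody L := by
    rintro _ ⟨_, ⟨a, ha, b, hb, rfl⟩, rfl⟩
    rw [mem_projBody_iff hL hLc]
    intro u
    have hdet := cyl_ge_det hL hLc hb ha u
    have hfin : volume (cyl L u 1) ≠ ⊤ := (isCompact_cyl hLc u 1).measure_lt_top.ne
    have hLfin : volume L ≠ ⊤ := hLc.measure_lt_top.ne
    have h2 := ENNReal.toReal_mono hfin hdet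
    rw [ENNReal.toReal_add hLfin ENNReal.ofReal_ne_top, ENNReal.toReal_ofReal (abs_nonneg _)] at h2
    have h3 : (Matrix.toLin' !![0, -1; 1, 0]) (a - b) ⬝ᵥ u = det2 (a - b) u := by
      simp [dotProduct, Fin.sum_univ_two, det2, Matrix.mulVec]
      ring
    rw [h3]
    unfold gfun
    have := le_abs_self (det2 (a - b) u)
    linarith
  have hvol : volume ((Matrix.toLin' !![0, -1; 1, 0]) '' (L - L)) = volume (L - L) := by
    rw [Measure.addHaar_image_linearMap, LinearMap.det_toLin', Matrix.det_fin_two_of]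
    norm_num
  calc 4 * volume L ≤ volume (L - L) := bm_fin2 hLc
    _ = volume ((Matrix.toLin' !![0, -1; 1, 0]) '' (L - L)) := hvol.symm
    _ ≤ volume (projBody L) := measure_mono hsub

theorem lowProduct_props {n : ℕ} {K : Set (Fin n → ℝ)} (h : LowProduct n K) :
    Convex ℝ K ∧ IsCompact K ∧ 1 ≤ n ∧ 0 < volume K ∧
      2 ^ n * volume K ^ (n - 1) ≤ volume (projBody K) := by
  induction h with
  | line K hK hKc hKi =>
    refine ⟨hK, hKc, le_refl 1, Measure.measure_pos_of_nonempty_interior volume hKi, ?_⟩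
    have := line_base (hKi.mono interior_subset) hKc
    simpa using this
  | plane K hK hKc hKi =>
    refine ⟨hK, hKc, by norm_num, Measure.measure_pos_of_nonempty_interior volume hKi, ?_⟩
    have := plane_base hK hKc
    norm_num
    exact this
  | @prod n m K₁ K₂ _ _ ih₁ ih₂ =>
    obtain ⟨c1, k1, n1, p1, b1⟩ := ih₁
    obtain ⟨c2, k2, m1, p2, b2⟩ := ih₂
    refine ⟨convex_prodBody c1 c2, isCompact_prodBody k1 k2, by omega, ?_, ?_⟩
    · rw [volume_prodBody]
      exact ENNReal.mul_pos p1.ne' p2.ne'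
    · refine le_trans ?_ (volume_projBody_prodBody_ge c1 k1 c2 k2)
      rw [volume_prodBody]
      obtain ⟨n', rfl⟩ : ∃ n', n = n' + 1 := ⟨n - 1, by omega⟩
      obtain ⟨m', rfl⟩ : ∃ m', m = m' + 1 := ⟨m - 1, by omega⟩
      simp only [Nat.add_sub_cancel] at b1 b2
      have e : n' + 1 + (m' + 1) - 1 = n' + m' + 1 := by omega
      rw [e]
      calc 2 ^ (n' + 1 + (m' + 1)) * (volume K₁ * volume K₂) ^ (n' + m' + 1)
          = volume K₂ ^ (n' + 1) * (2 ^ (n' + 1) * volume K₁ ^ n')
            * (volume K₁ ^ (m' + 1) * (2 ^ (m' + 1) * volume K₂ ^ m')) := by ring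
        _ ≤ _ := by gcongr

end Vale.Agent.Lib.P237
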