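import Vale.Agent.Lib.P237.PSeq
import Vale.Agent.Lib.P237.LowProd
import Vale.Agent.Lib.P237.Defs3

namespace Vale.Agent.Lib.P237

open MeasureTheory Set
open scoped Pointwise

theorem ellSeg_zero {n : ℕ} (T : Matrix (Fin n) (Fin n) ℝ) (c : Fin n → ℝ) :
    {x | ∃ b : Fin n → ℝ, ∃ s : ℝ,
        ∑ i, b i ^ 2 ≤ 1 ∧ 0 ≤ s ∧ s ≤ 1 ∧ x = c + T.mulVec b + s • (0 : Fin n → ℝ)}
      = {x | ∃ b : Fin n → ℝ, ∑ i, b i ^ 2 ≤ 1 ∧ x = c + T.mulVec b} := by
  ext x
  constructor
  · rintro ⟨b, s, hb, -, -, rfl⟩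
    exact ⟨b, hb, by simp⟩
  · rintro ⟨b, hb, rfl⟩
    exact ⟨b, 0, hb, le_rfl, zero_le_one, by simp⟩

/-- Ellipsoids attain Petty's constant (dimension at least three). -/
theorem isEllipsoid_eq {n : ℕ} (hn : 3 ≤ n) {K : Set (Fin n → ℝ)} (h : IsEllipsoid K) :
    ENNReal.ofReal (kappa (n - 1) ^ n / kappa n ^ (n - 2)) * volume K ^ (n - 1)
      = volume (projBody K) := by
  obtain ⟨T, c, hT, rfl⟩ := h
  have h := petty_ellipsoid_segment n hn T hT c 0 _ (ellSeg_zero T c).symm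
  exact h.2.2.2.2.2 rfl

theorem affine_image_eq {n : ℕ} (T : Matrix (Fin n) (Fin n) ℝ) (c : Fin n → ℝ)
    (K : Set (Fin n → ℝ)) :
    (fun x => c + T.mulVec x) '' K = (fun x => c + x) '' (T.mulVecLin '' K) := by
  rw [Set.image_image]
  rfl

theorem isEllipsoid_affine {n : ℕ} (T : Matrix (Fin n) (Fin n) ℝ) (c : Fin n → ℝ) (hT : T.det ≠ 0)
    {K : Set (Fin n → ℝ)} (h : IsEllipsoid K) : IsEllipsoid ((fun x => c + T.mulVec x) '' K) := by
  obtain ⟨T', c', hT', rfl⟩ := h
  refine ⟨T * T', c + T.mulVec c', ?_, ?_⟩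
  · rw [Matrix.det_mul]
    exact mul_ne_zero hT hT'
  · ext x
    constructor
    · rintro ⟨y, ⟨b, hb, rfl⟩, rfl⟩
      refine ⟨b, hb, ?_⟩
      show c + T.mulVec (c' + T'.mulVec b) = c + T.mulVec c' + (T * T').mulVec b
      rw [Matrix.mulVec_add, Matrix.mulVec_mulVec, add_assoc]
    · rintro ⟨b, hb, rfl⟩
      refine ⟨c' + T'.mulVec b, ⟨b, hb, rfl⟩, ?_⟩
      show c + T.mulVec (c' + T'.mulVec b) = c + T.mulVec c' + (T * T').mulVec b
      rw [Matrix.mulVec_add, Matrix.mulVec_mulVec, add_assoc]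

/-- Petty's inequality, with its equality case, on the class `PettyClass`. -/
theorem pettyClass_props {n : ℕ} {K : Set (Fin n → ℝ)} (h : PettyClass n K) :
    Convex ℝ K ∧ IsCompact K ∧ 1 ≤ n ∧ 0 < volume K ∧
      ENNReal.ofReal (pc n) * volume K ^ (n - 1) ≤ volume (projBody K) ∧
      (3 ≤ n → ENNReal.ofReal (pc n) * volume K ^ (n - 1) = volume (projBody K) →
        IsEllipsoid K) := by
  induction h with
  | line K hK hKc hKi =>
    obtain ⟨-, -, -, hpos, hb⟩ := lowProduct_props (LowProduct.line K hK hKc hKi)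
    refine ⟨hK, hKc, le_refl 1, hpos, ?_, fun h3 => absurd h3 (by norm_num)⟩
    rw [pc_one]
    simpa using hb
  | plane K hK hKc hKi =>
    obtain ⟨-, -, -, hpos, hb⟩ := lowProduct_props (LowProduct.plane K hK hKc hKi)
    refine ⟨hK, hKc, by norm_num, hpos, ?_, fun h3 => absurd h3 (by norm_num)⟩
    rw [pc_two]
    have e : ENNReal.ofReal 4 = 2 ^ 2 := by
      rw [show (4 : ℝ) = 2 ^ 2 by norm_num, ENNReal.ofReal_pow (by norm_num)]
      simp
    rw [e]
    exact hb
  | @ellSeg n T c v hn hT =>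
    obtain ⟨h1, h2, h3, h4, h5⟩ := petty_ellipsoid_segment n hn T hT c v _ rfl
    rw [pc_eq' (by omega : 2 ≤ n)]
    refine ⟨h1, h2, by omega, h3, h4, ?_⟩
    intro _ heq
    have hv : v = 0 := h5.1 heq
    subst hv
    exact ⟨T, c, hT, ellSeg_zero T c⟩
  | @prod n m K₁ K₂ _ _ ih₁ ih₂ =>
    obtain ⟨c1, k1, n1, p1, b1, -⟩ := ih₁
    obtain ⟨c2, k2, m1, p2, b2, -⟩ := ih₂
    have f1 : volume K₁ ≠ ⊤ := k1.measure_lt_top.ne
    have f2 : volume K₂ ≠ ⊤ := k2.measure_lt_top.ne
    have hvol : volume (prodBody K₁ K₂) = volume K₁ * volume K₂ := volume_prodBody K₁ K₂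
    have hpos : 0 < volume (prodBody K₁ K₂) := by
      rw [hvol]
      exact ENNReal.mul_pos p1.ne' p2.ne'
    have hfin : volume (prodBody K₁ K₂) ≠ ⊤ := by
      rw [hvol]
      exact ENNReal.mul_ne_top f1 f2
    -- the bound with the product of the two constants
    have hprod : ENNReal.ofReal (pc n * pc m) * volume (prodBody K₁ K₂) ^ (n + m - 1)
        ≤ volume (projBody (prodBody K₁ K₂)) := by
      refine le_trans ?_ (volume_projBody_prodBody_ge c1 k1 c2 k2)
      rw [hvol, ENNReal.ofReal_mul (pc_pos n).le]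
      obtain ⟨n', rfl⟩ : ∃ n', n = n' + 1 := ⟨n - 1, by omega⟩
      obtain ⟨m', rfl⟩ : ∃ m', m = m' + 1 := ⟨m - 1, by omega⟩
      simp only [Nat.add_sub_cancel] at b1 b2
      have e : n' + 1 + (m' + 1) - 1 = n' + m' + 1 := by omega
      rw [e]
      calc ENNReal.ofReal (pc (n' + 1)) * ENNReal.ofReal (pc (m' + 1))
            * (volume K₁ * volume K₂) ^ (n' + m' + 1)
          = volume K₂ ^ (n' + 1) * (ENNReal.ofReal (pc (n' + 1)) * volume K₁ ^ n')
            * (volume K₁ ^ (m' + 1) * (ENNReal.ofReal (pc (m' + 1)) * volume K₂ ^ m')) := by ring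
        _ ≤ _ := by gcongr
    refine ⟨convex_prodBody c1 c2, isCompact_prodBody k1 k2, by omega, hpos, ?_, ?_⟩
    · refine le_trans ?_ hprod
      gcongr
      exact pc_add_le n m
    · intro h3 heq
      exfalso
      have hlt : ENNReal.ofReal (pc (n + m)) * volume (prodBody K₁ K₂) ^ (n + m - 1)
          < ENNReal.ofReal (pc n * pc m) * volume (prodBody K₁ K₂) ^ (n + m - 1) := by
        apply ENNReal.mul_lt_mul_left (pow_ne_zero _ hpos.ne') (ENNReal.pow_ne_top hfin)
        exact (ENNReal.ofReal_lt_ofReal_iff (mul_pos (pc_pos n) (pc_pos m))).2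
          (pc_add_lt n1 m1 h3)
      exact absurd heq (ne_of_lt (lt_of_lt_of_le hlt hprod))
  | @affine n T c K hT _ ih =>
    obtain ⟨hK, hKc, hn, hpos, hb, heq⟩ := ih
    have hL : Convex ℝ (T.mulVecLin '' K) := hK.is_linear_image T.mulVecLin.isLinear
    have hLc : IsCompact (T.mulVecLin '' K) := hKc.image (continuous_mulVecLin T)
    have hset := affine_image_eq T c K
    have hdpos : 0 < |T.det| := abs_pos.2 hT
    have hvolK : volume ((fun x => c + T.mulVec x) '' K) = ENNReal.ofReal |T.det| * volume K := by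
      rw [hset, volume_translate, Measure.addHaar_image_linearMap, det_mulVecLin]
    have hvolP : volume (projBody ((fun x => c + T.mulVec x) '' K))
        = ENNReal.ofReal (|T.det| ^ (n - 1)) * volume (projBody K) := by
      rw [hset, projBody_translate c hL hLc, volume_projBody_image T hT hK hKc]
    have hD0 : ENNReal.ofReal (|T.det| ^ (n - 1)) ≠ 0 := by
      rw [Ne, ENNReal.ofReal_eq_zero, not_le]
      exact pow_pos hdpos _
    have hDtop : ENNReal.ofReal (|T.det| ^ (n - 1)) ≠ ⊤ := ENNReal.ofReal_ne_top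
    have hlhs : ENNReal.ofReal (pc n) * volume ((fun x => c + T.mulVec x) '' K) ^ (n - 1)
        = ENNReal.ofReal (|T.det| ^ (n - 1)) * (ENNReal.ofReal (pc n) * volume K ^ (n - 1)) := by
      rw [hvolK, mul_pow, ENNReal.ofReal_pow hdpos.le]
      ring
    have hconv : Convex ℝ ((fun x => c + T.mulVec x) '' K) := by
      rw [hset]
      have : (fun x => c + x) '' (T.mulVecLin '' K) = c +ᵥ (T.mulVecLin '' K) := by
        rw [← Set.image_vadd]; rfl
      rw [this]
      exact hL.vadd c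
    have hcomp : IsCompact ((fun x => c + T.mulVec x) '' K) := by
      rw [hset]
      exact hLc.image (by fun_prop)
    refine ⟨hconv, hcomp, hn, ?_, ?_, ?_⟩
    · rw [hvolK]
      apply ENNReal.mul_pos _ hpos.ne'
      rw [Ne, ENNReal.ofReal_eq_zero, not_le]
      exact hdpos
    · rw [hlhs, hvolP]
      gcongr
    · intro h3 he
      rw [hlhs, hvolP, ENNReal.mul_right_inj hD0 hDtop] at he
      exact isEllipsoid_affine T c hT (heq h3 he)

/-- Petty's conjectured inequality with its equality case on `PettyClass`, `n ≥ 3`. -/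
theorem petty_class {n : ℕ} (hn : 3 ≤ n) {K : Set (Fin n → ℝ)} (h : PettyClass n K) :
    Convex ℝ K ∧ IsCompact K ∧ 0 < volume K ∧ volume (projBody K) ≠ ⊤ ∧
      ENNReal.ofReal (kappa (n - 1) ^ n / kappa n ^ (n - 2)) * volume K ^ (n - 1)
        ≤ volume (projBody K) ∧
      (ENNReal.ofReal (kappa (n - 1) ^ n / kappa n ^ (n - 2)) * volume K ^ (n - 1)
        = volume (projBody K) ↔ IsEllipsoid K) := by
  obtain ⟨h1, h2, -, h3, h4, h5⟩ := pettyClass_props h
  rw [pc_eq' (by omega : 2 ≤ n)] at h4 h5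
  exact ⟨h1, h2, h3, volume_projBody_ne_top K, h4, ⟨h5 hn, isEllipsoid_eq hn⟩⟩

end Vale.Agent.Lib.P237
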