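import Vale.Agent.Lib.P237.CapAffine
import Vale.Agent.Lib.P237.Kappa

namespace Vale.Agent.Lib.P237

open MeasureTheory Set

/-! ### The integrals `∫_{-1}^{1} (1 - z²)^{l/2} dz` and their strict log-convexity -/

/-- The integral of the `l`-th power of the half-chord function of the unit disc. -/
noncomputable def Iw (l : ℕ) : ℝ := Jint 1 0 0 l

theorem Iw_pos (l : ℕ) : 0 < Iw l := Jint_pos one_pos le_rfl 0 l

theorem Iw_eq (l : ℕ) : Iw l = ∫ z in (-1 : ℝ)..1, wfun 1 z ^ l := by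
  simp [Iw, Jint]

theorem kappa_succ (m : ℕ) : kappa (m + 1) = kappa m * Iw m := by
  have h := kappa_mul_Jint m (a := 1) zero_le_one
  rw [one_pow, mul_one] at h
  exact h.symm

theorem Iw_zero : Iw 0 = 2 := by
  rw [Iw_eq]
  simp
  norm_num

theorem kappa_one : kappa 1 = 2 := by
  have h := kappa_eq 0
  rw [h]
  exact kf_one

theorem kappa_zero : kappa 0 = 1 := by
  have h := kappa_succ 0
  rw [Iw_zero] at h
  have h1 := kappa_one
  simp only [zero_add] at h
  linarith

theorem Iw_quad (l : ℕ) (t : ℝ) :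
    ∫ z in (-1 : ℝ)..1, (t - wfun 1 z) ^ 2 * wfun 1 z ^ l
      = Iw l * (t * t) + (-2 * Iw (l + 1)) * t + Iw (l + 2) := by
  simp only [Iw_eq]
  have hw := continuous_wfun 1
  have i1 : IntervalIntegrable (fun z => wfun 1 z ^ l) volume (-1) 1 :=
    Continuous.intervalIntegrable (by fun_prop) _ _
  have i2 : IntervalIntegrable (fun z => wfun 1 z ^ (l + 1)) volume (-1) 1 :=
    Continuous.intervalIntegrable (by fun_prop) _ _
  have i3 : IntervalIntegrable (fun z => wfun 1 z ^ (l + 2)) volume (-1) 1 :=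
    Continuous.intervalIntegrable (by fun_prop) _ _
  have e : ∀ z, (t - wfun 1 z) ^ 2 * wfun 1 z ^ l
      = (t * t) * wfun 1 z ^ l + (-2 * t) * wfun 1 z ^ (l + 1) + wfun 1 z ^ (l + 2) := by
    intro z; ring
  simp_rw [e]
  rw [intervalIntegral.integral_add ((i1.const_mul _).add (i2.const_mul _)) i3,
    intervalIntegral.integral_add (i1.const_mul _) (i2.const_mul _),
    intervalIntegral.integral_const_mul, intervalIntegral.integral_const_mul]
  ring

theorem Iw_cs_strict (l : ℕ) : Iw (l + 1) ^ 2 < Iw l * Iw (l + 2) := by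
  have h : ∀ t : ℝ, 0 < Iw l * (t * t) + (-2 * Iw (l + 1)) * t + Iw (l + 2) := by
    intro t
    rw [← Iw_quad]
    have hw := continuous_wfun 1
    have hcont : Continuous fun z => (t - wfun 1 z) ^ 2 * wfun 1 z ^ l := by fun_prop
    have hnn : ∀ z, 0 ≤ (t - wfun 1 z) ^ 2 * wfun 1 z ^ l := by
      intro z
      have := wfun_nonneg 1 z
      positivity
    have hz0 : (0 : ℝ) ∈ Ioo (-1 : ℝ) 1 := ⟨by norm_num, by norm_num⟩
    have hz1 : (1 / 2 : ℝ) ∈ Ioo (-1 : ℝ) 1 := ⟨by norm_num, by norm_num⟩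
    have hw0 := wfun_pos hz0
    have hw1 := wfun_pos hz1
    have hne : wfun 1 0 ≠ wfun 1 (1 / 2) := by
      unfold wfun
      intro heq
      have h1 : (0 : ℝ) ≤ 1 ^ 2 - 0 ^ 2 := by norm_num
      have h2 : (0 : ℝ) ≤ 1 ^ 2 - (1 / 2) ^ 2 := by norm_num
      have := (Real.sqrt_inj h1 h2).1 heq
      norm_num at this
    by_cases hv : t - wfun 1 0 = 0
    · have hv1 : t - wfun 1 (1 / 2) ≠ 0 := by
        intro hv1
        exact hne (by linarith)
      apply integral_pos_of_pos_at hcont hnn hz1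
      have := sq_pos_of_ne_zero hv1
      positivity
    · apply integral_pos_of_pos_at hcont hnn hz0
      have := sq_pos_of_ne_zero hv
      positivity
  have hd := discrim_lt_zero (Iw_pos l).ne' h
  unfold discrim at hd
  nlinarith

/-! ### Petty's constants and their log-concavity -/

/-- Petty's constant `κ_{n-1}^n κ_n^{2-n}` in dimension `n` (with the values `1`, `2` in
dimensions `0`, `1`). -/
noncomputable def pc : ℕ → ℝ
  | 0 => 1
  | (n + 1) => kappa n ^ 2 * Iw n / Iw n ^ n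

theorem pc_pos (n : ℕ) : 0 < pc n := by
  cases n with
  | zero => exact one_pos
  | succ n =>
    have h1 := kappa_pos n
    have h2 := Iw_pos n
    show 0 < kappa n ^ 2 * Iw n / Iw n ^ n
    positivity

theorem pc_one : pc 1 = 2 := by
  show kappa 0 ^ 2 * Iw 0 / Iw 0 ^ 0 = 2
  rw [kappa_zero, Iw_zero]
  norm_num

theorem pc_eq (k : ℕ) : pc (k + 2) = kappa (k + 1) ^ (k + 2) / kappa (k + 2) ^ k := by
  show kappa (k + 1) ^ 2 * Iw (k + 1) / Iw (k + 1) ^ (k + 1) = _
  rw [kappa_succ (k + 1)]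
  have h1 := kappa_pos (k + 1)
  have h2 := Iw_pos (k + 1)
  field_simp
  ring

theorem pc_two : pc 2 = 4 := by
  rw [pc_eq 0, kappa_one]
  norm_num

/-- The ratio of consecutive constants. -/
noncomputable def pr (n : ℕ) : ℝ := pc (n + 1) / pc n

theorem pr_pos (n : ℕ) : 0 < pr n := div_pos (pc_pos _) (pc_pos _)

theorem pc_succ (n : ℕ) : pc (n + 1) = pc n * pr n := by
  unfold pr
  have := pc_pos n
  field_simp

theorem pr_zero : pr 0 = 2 := by
  unfold pr
  rw [pc_one]
  show (2 : ℝ) / 1 = 2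
  norm_num

theorem pr_succ (n : ℕ) : pr (n + 1) = Iw n ^ (n + 1) / Iw (n + 1) ^ n := by
  unfold pr
  show kappa (n + 1) ^ 2 * Iw (n + 1) / Iw (n + 1) ^ (n + 1) / (kappa n ^ 2 * Iw n / Iw n ^ n) = _
  rw [kappa_succ n]
  have h1 := kappa_pos n
  have h2 := Iw_pos n
  have h3 := Iw_pos (n + 1)
  field_simp
  ring

theorem pr_one : pr 1 = 2 := by
  rw [pr_succ 0, Iw_zero]
  norm_num

theorem pr_step_strict (j : ℕ) : pr (j + 2) < pr (j + 1) := by
  rw [pr_succ (j + 1), pr_succ j]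
  have h0 := Iw_pos j
  have h1 := Iw_pos (j + 1)
  have h2 := Iw_pos (j + 2)
  rw [div_lt_div_iff₀ (pow_pos h2 _) (pow_pos h1 _)]
  have hcs := Iw_cs_strict j
  have hp : (Iw (j + 1) ^ 2) ^ (j + 1) < (Iw j * Iw (j + 2)) ^ (j + 1) :=
    pow_lt_pow_left₀ hcs (by positivity) (by omega)
  calc Iw (j + 1) ^ (j + 1 + 1) * Iw (j + 1) ^ j = (Iw (j + 1) ^ 2) ^ (j + 1) := by ring
    _ < (Iw j * Iw (j + 2)) ^ (j + 1) := hp
    _ = Iw j ^ (j + 1) * Iw (j + 1 + 1) ^ (j + 1) := by ring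

theorem pr_step (j : ℕ) : pr (j + 1) ≤ pr j := by
  cases j with
  | zero => rw [pr_one, pr_zero]
  | succ j => exact (pr_step_strict j).le

theorem pr_antitone : Antitone pr := antitone_nat_of_succ_le pr_step

theorem pr_lt {a b : ℕ} (hab : b < a) (ha : 2 ≤ a) : pr a < pr b := by
  obtain ⟨j, rfl⟩ : ∃ j, a = j + 2 := ⟨a - 2, by omega⟩
  exact (pr_step_strict j).trans_le (pr_antitone (by omega))

/-- Petty's constants are submultiplicative. -/
theorem pc_add_le (k m : ℕ) : pc (k + m) ≤ pc k * pc m := by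
  induction m with
  | zero => simp [pc]
  | succ m ih =>
    have e : k + (m + 1) = (k + m) + 1 := by omega
    rw [e, pc_succ (k + m), pc_succ m]
    have h1 : pr (k + m) ≤ pr m := pr_antitone (by omega)
    calc pc (k + m) * pr (k + m) ≤ (pc k * pc m) * pr (k + m) :=
          mul_le_mul_of_nonneg_right ih (pr_pos _).le
      _ ≤ (pc k * pc m) * pr m :=
          mul_le_mul_of_nonneg_left h1 (mul_pos (pc_pos _) (pc_pos _)).le
      _ = pc k * (pc m * pr m) := by ring

/-- Strict submultiplicativity outside the planar case. -/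
theorem pc_add_lt {k m : ℕ} (hk : 1 ≤ k) (hm : 1 ≤ m) (hkm : 3 ≤ k + m) :
    pc (k + m) < pc k * pc m := by
  obtain ⟨m', rfl⟩ : ∃ m', m = m' + 1 := ⟨m - 1, by omega⟩
  have e : k + (m' + 1) = (k + m') + 1 := by omega
  rw [e, pc_succ (k + m'), pc_succ m']
  have h1 : pr (k + m') < pr m' := pr_lt (by omega) (by omega)
  calc pc (k + m') * pr (k + m') ≤ (pc k * pc m') * pr (k + m') :=
        mul_le_mul_of_nonneg_right (pc_add_le k m') (pr_pos _).le
    _ < (pc k * pc m') * pr m' :=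
        mul_lt_mul_of_pos_left h1 (mul_pos (pc_pos _) (pc_pos _))
    _ = pc k * (pc m' * pr m') := by ring

theorem pc_eq' {n : ℕ} (hn : 2 ≤ n) : pc n = kappa (n - 1) ^ n / kappa n ^ (n - 2) := by
  obtain ⟨k, rfl⟩ : ∃ k, n = k + 2 := ⟨n - 2, by omega⟩
  exact pc_eq k

end Vale.Agent.Lib.P237
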