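import Vale.Agent.Lib.P237.Seg

namespace Vale.Agent.Lib.P237

open MeasureTheory Set
open scoped Pointwise

/-- The determinant of two plane vectors. -/
def det2 (d v : Fin 2 → ℝ) : ℝ := d 0 * v 1 - d 1 * v 0

theorem volume_parallelogram (d w : Fin 2 → ℝ) :
    volume ((Matrix.toLin' !![d 0, w 0; d 1, w 1]) '' (Set.Icc (0 : Fin 2 → ℝ) 1))
      = ENNReal.ofReal |det2 d w| := by
  rw [Measure.addHaar_image_linearMap, LinearMap.det_toLin', Matrix.det_fin_two_of,
    Real.volume_Icc_pi]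
  have : d 0 * w 1 - w 0 * d 1 = det2 d w := by unfold det2; ring
  rw [this]
  simp

theorem parallelogram_subset_cyl {L : Set (Fin 2 → ℝ)} (hL : Convex ℝ L) {p q : Fin 2 → ℝ}
    (hp : p ∈ L) (hq : q ∈ L) (v : Fin 2 → ℝ) (N : ℕ) :
    (fun y => p + y) '' ((Matrix.toLin' !![(q - p) 0, ((N : ℝ) • v) 0; (q - p) 1, ((N : ℝ) • v) 1]) ''
      (Set.Icc (0 : Fin 2 → ℝ) 1)) ⊆ cyl L v N := by
  rintro _ ⟨_, ⟨x, ⟨hx0, hx1⟩, rfl⟩, rfl⟩
  have h00 : 0 ≤ x 0 := hx0 0
  have h01 : x 0 ≤ 1 := hx1 0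
  have h10 : 0 ≤ x 1 := hx0 1
  have h11 : x 1 ≤ 1 := hx1 1
  refine ⟨(1 - x 0) • p + x 0 • q, hL hp hq (by linarith) h00 (by ring), x 1 * N,
    ⟨by positivity, by nlinarith [Nat.cast_nonneg (α := ℝ) N]⟩, ?_⟩
  ext i
  fin_cases i <;>
    simp [dotProduct, Fin.sum_univ_two] <;> ring

theorem cyl_ge_det {L : Set (Fin 2 → ℝ)} (hL : Convex ℝ L) (hLc : IsCompact L) {p q : Fin 2 → ℝ}
    (hp : p ∈ L) (hq : q ∈ L) (v : Fin 2 → ℝ) :
    volume L + ENNReal.ofReal |det2 (q - p) v| ≤ volume (cyl L v 1) := by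
  have hfin : ∀ c, volume (cyl L v c) ≠ ⊤ := fun c => (isCompact_cyl hLc v c).measure_lt_top.ne
  have hLfin : volume L ≠ ⊤ := hLc.measure_lt_top.ne
  have key : ∀ N : ℕ, (N : ENNReal) * ENNReal.ofReal |det2 (q - p) v| ≤ volume (cyl L v N) := by
    intro N
    have h1 := measure_mono (μ := volume) (parallelogram_subset_cyl hL hp hq v N)
    have h2 : volume ((fun y => p + y) '' ((Matrix.toLin'
        !![(q - p) 0, ((N : ℝ) • v) 0; (q - p) 1, ((N : ℝ) • v) 1]) ''
        (Set.Icc (0 : Fin 2 → ℝ) 1))) = (N : ENNReal) * ENNReal.ofReal |det2 (q - p) v| := by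
      rw [image_add_left, measure_preimage_add, volume_parallelogram]
      have : det2 (q - p) ((N : ℝ) • v) = N * det2 (q - p) v := by
        simp [det2]; ring
      rw [this, abs_mul, ENNReal.ofReal_mul (abs_nonneg _), Nat.abs_cast, ENNReal.ofReal_natCast]
    rw [h2] at h1; exact h1
  -- pass to reals
  set A := (volume (cyl L v 1)).toReal with hA
  set B := (volume L).toReal with hB
  set D := |det2 (q - p) v| with hD
  have hreal : ∀ N : ℕ, (N : ℝ) * (D + B) ≤ B + N * A := by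
    intro N
    have h := measure_cyl_nat volume hL hLc v N
    have hk := key N
    have h3 : (N : ENNReal) * ENNReal.ofReal D + N * volume L ≤ volume L + N * volume (cyl L v 1) := by
      rw [← h]; gcongr
    have h4 := ENNReal.toReal_mono (by
      exact ENNReal.add_ne_top.mpr ⟨hLfin, ENNReal.mul_ne_top (ENNReal.natCast_ne_top N) (hfin 1)⟩) h3
    rw [ENNReal.toReal_add (ENNReal.mul_ne_top (ENNReal.natCast_ne_top N) ENNReal.ofReal_ne_top)
      (ENNReal.mul_ne_top (ENNReal.natCast_ne_top N) hLfin),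
      ENNReal.toReal_add hLfin (ENNReal.mul_ne_top (ENNReal.natCast_ne_top N) (hfin 1)),
      ENNReal.toReal_mul, ENNReal.toReal_mul, ENNReal.toReal_mul, ENNReal.toReal_natCast,
      ENNReal.toReal_ofReal (abs_nonneg _)] at h4
    linarith
  have hAB : D + B ≤ A := by
    by_contra hcon
    rw [not_le] at hcon
    obtain ⟨N, hN⟩ := exists_nat_gt (B / (D + B - A))
    have hpos : 0 < D + B - A := by linarith
    have h5 := hreal N
    have h6 : B < N * (D + B - A) := by
      rw [div_lt_iff₀ hpos] at hN; exact hN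
    nlinarith
  have hD0 : 0 ≤ D := abs_nonneg _
  have hB0 : 0 ≤ B := ENNReal.toReal_nonneg
  calc volume L + ENNReal.ofReal D = ENNReal.ofReal (B + D) := by
        rw [ENNReal.ofReal_add hB0 hD0, hB, ENNReal.ofReal_toReal hLfin]
    _ ≤ ENNReal.ofReal A := ENNReal.ofReal_le_ofReal (by linarith)
    _ = volume (cyl L v 1) := by rw [hA, ENNReal.ofReal_toReal (hfin 1)]

end Vale.Agent.Lib.P237
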