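import Vale.Agent.Lib.P237.Homog

namespace Vale.Agent.Lib.P237

open MeasureTheory Set
open scoped Pointwise

section
variable {E : Type*} [NormedAddCommGroup E] [NormedSpace ℝ E] [MeasurableSpace E] [BorelSpace E]

theorem measure_cyl_ennreal (μ : Measure E) [μ.IsAddLeftInvariant] [IsFiniteMeasureOnCompacts μ]
    {K : Set E} (hK : Convex ℝ K) (hKc : IsCompact K) (u : E) {c : ℝ} (hc : 0 ≤ c) :
    μ (cyl K u c) = μ K + ENNReal.ofReal c * (μ (cyl K u 1) - μ K) := by
  have hfin : ∀ a, μ (cyl K u a) ≠ ⊤ := fun a => (isCompact_cyl hKc u a).measure_lt_top.ne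
  have hKfin : μ K ≠ ⊤ := hKc.measure_lt_top.ne
  have hle : (μ K).toReal ≤ (μ (cyl K u 1)).toReal :=
    ENNReal.toReal_mono (hfin 1) (measure_mono (subset_cyl K u zero_le_one))
  have h := congrArg ENNReal.ofReal (measure_cyl_real μ hK hKc u hc)
  rw [ENNReal.ofReal_toReal (hfin c),
    ENNReal.ofReal_add ENNReal.toReal_nonneg (mul_nonneg hc (sub_nonneg.2 hle)),
    ENNReal.ofReal_mul hc, ENNReal.ofReal_sub _ ENNReal.toReal_nonneg,
    ENNReal.ofReal_toReal hKfin, ENNReal.ofReal_toReal (hfin 1)] at h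
  exact h

end

variable {E₁ : Type*} [NormedAddCommGroup E₁] [NormedSpace ℝ E₁] [MeasurableSpace E₁]
  [BorelSpace E₁]
variable {E₂ : Type*} [NormedAddCommGroup E₂] [NormedSpace ℝ E₂] [MeasurableSpace E₂]
  [BorelSpace E₂] [SecondCountableTopology E₂]

/-- The volume of `K₁ × K₂ + [0, (u₁, u₂)]` for compact convex `K₁`, `K₂`. -/
theorem prod_cyl_volume (μ : Measure E₁) [μ.IsAddLeftInvariant] [IsFiniteMeasureOnCompacts μ]
    [SFinite μ] (ν : Measure E₂) [ν.IsAddLeftInvariant] [IsFiniteMeasureOnCompacts ν] [SFinite ν]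
    {K₁ : Set E₁} (hK₁ : Convex ℝ K₁) (hK₁c : IsCompact K₁)
    {K₂ : Set E₂} (hK₂ : Convex ℝ K₂) (hK₂c : IsCompact K₂) (u₁ : E₁) (u₂ : E₂) :
    (μ.prod ν) (cyl (K₁ ×ˢ K₂) (u₁, u₂) 1) + μ K₁ * ν K₂
      = μ (cyl K₁ u₁ 1) * ν K₂ + μ K₁ * ν (cyl K₂ u₂ 1) := by
  have hKc : IsCompact (K₁ ×ˢ K₂) := hK₁c.prod hK₂c
  have hS : MeasurableSet (cyl (K₁ ×ˢ K₂) (u₁, u₂) 1) := (isCompact_cyl hKc _ _).measurableSet
  rw [Measure.prod_apply hS]
  set T : E₁ → Set ℝ := fun x => {t : ℝ | t ∈ Icc (0 : ℝ) 1 ∧ x - t • u₁ ∈ K₁} with hTdef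
  set G := ν (cyl K₂ u₂ 1) - ν K₂ with hG
  have hslice : ∀ x, Prod.mk x ⁻¹' (cyl (K₁ ×ˢ K₂) (u₁, u₂) 1)
      = {y | ∃ t ∈ T x, y - t • u₂ ∈ K₂} := by
    intro x
    ext y
    simp only [mem_preimage, mem_ofPred_eq]
    constructor
    · rintro ⟨⟨k1, k2⟩, ⟨hk1, hk2⟩, τ, hτ, heq⟩
      rw [Prod.ext_iff] at heq
      obtain ⟨h1, h2⟩ := heq
      simp only [Prod.fst_add, Prod.smul_fst, Prod.snd_add, Prod.smul_snd] at h1 h2
      refine ⟨τ, ⟨hτ, ?_⟩, ?_⟩
      · have : x - τ • u₁ = k1 := by rw [h1]; abel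
        rw [this]; exact hk1
      · have : y - τ • u₂ = k2 := by rw [h2]; abel
        rw [this]; exact hk2
    · rintro ⟨τ, ⟨hτ, hτ1⟩, hτ2⟩
      refine ⟨(x - τ • u₁, y - τ • u₂), ⟨hτ1, hτ2⟩, τ, hτ, ?_⟩
      rw [Prod.ext_iff]
      simp only [Prod.fst_add, Prod.smul_fst, Prod.snd_add, Prod.smul_snd]
      constructor <;> abel
  have hTc : ∀ x, IsCompact (T x) := by
    intro x
    have : T x = Icc (0 : ℝ) 1 ∩ (fun t : ℝ => x - t • u₁) ⁻¹' K₁ := rfl
    rw [this]
    exact isCompact_Icc.inter_right (hK₁c.isClosed.preimage (by fun_prop))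
  have hTconv : ∀ x, Convex ℝ (T x) := by
    intro x t1 ⟨h1, h1L⟩ t2 ⟨h2, h2L⟩ a b ha hb hab
    refine ⟨convex_Icc (0 : ℝ) 1 h1 h2 ha hb hab, ?_⟩
    have : x - (a • t1 + b • t2) • u₁ = a • (x - t1 • u₁) + b • (x - t2 • u₁) := by
      rw [smul_sub, smul_sub, add_smul, smul_smul, smul_smul]
      have hx : x = a • x + b • x := by rw [← add_smul, hab, one_smul]
      nth_rewrite 1 [hx]
      abel
    rw [this]
    exact hK₁ h1L h2L ha hb hab
  have hTne : ∀ x, (T x).Nonempty ↔ x ∈ cyl K₁ u₁ 1 := by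
    intro x
    constructor
    · rintro ⟨t, ht, htL⟩
      exact ⟨x - t • u₁, htL, t, ht, by abel⟩
    · rintro ⟨k, hk, τ, hτ, rfl⟩
      refine ⟨τ, hτ, ?_⟩
      have : k + τ • u₁ - τ • u₁ = k := by abel
      rw [this]; exact hk
  have hmeas : ∀ x, ν {y | ∃ t ∈ T x, y - t • u₂ ∈ K₂}
      = (cyl K₁ u₁ 1).indicator (fun _ => ν K₂) x + volume (T x) * G := by
    intro x
    by_cases hx : x ∈ cyl K₁ u₁ 1
    · have hne := (hTne x).2 hx
      have eT := eq_Icc_of_connected_compact ((hTconv x).isConnected hne) (hTc x)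
      set a := sInf (T x) with ha
      set b := sSup (T x) with hb
      have hab : a ≤ b := by
        obtain ⟨t, ht⟩ := hne
        rw [eT] at ht
        exact ht.1.trans ht.2
      have hset : {y | ∃ t ∈ T x, y - t • u₂ ∈ K₂}
          = (fun y => a • u₂ + y) '' cyl K₂ u₂ (b - a) := by
        ext y
        simp only [mem_ofPred_eq]
        constructor
        · rintro ⟨t, ht, hy⟩
          rw [eT] at ht
          refine ⟨(y - t • u₂) + (t - a) • u₂, ⟨y - t • u₂, hy, t - a,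
            ⟨by linarith [ht.1], by linarith [ht.2]⟩, rfl⟩, ?_⟩
          show a • u₂ + ((y - t • u₂) + (t - a) • u₂) = y
          rw [sub_smul]; abel
        · rintro ⟨_, ⟨k, hk, τ, ⟨hτ0, hτ1⟩, rfl⟩, rfl⟩
          refine ⟨a + τ, ?_, ?_⟩
          · rw [eT]; exact ⟨by linarith, by linarith⟩
          · show a • u₂ + (k + τ • u₂) - (a + τ) • u₂ ∈ K₂
            have : a • u₂ + (k + τ • u₂) - (a + τ) • u₂ = k := by rw [add_smul]; abel
            rw [this]; exact hk
      rw [hset, image_add_left, measure_preimage_add,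
        measure_cyl_ennreal ν hK₂ hK₂c u₂ (sub_nonneg.2 hab), indicator_of_mem hx, eT,
        Real.volume_Icc]
    · have hemp : T x = ∅ := not_nonempty_iff_eq_empty.1 (mt (hTne x).1 hx)
      rw [hemp, indicator_of_notMem hx]
      simp
  set W : Set (E₁ × ℝ) := {p | p.2 ∈ Icc (0 : ℝ) 1 ∧ p.1 - p.2 • u₁ ∈ K₁} with hWdef
  have hWm : MeasurableSet W := by
    apply IsClosed.measurableSet
    have : W = (Prod.snd ⁻¹' Icc (0 : ℝ) 1) ∩ ((fun p : E₁ × ℝ => p.1 - p.2 • u₁) ⁻¹' K₁) := rfl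
    rw [this]
    exact (isClosed_Icc.preimage continuous_snd).inter (hK₁c.isClosed.preimage (by fun_prop))
  have hTW : ∀ x, T x = Prod.mk x ⁻¹' W := fun x => rfl
  have hTm : Measurable fun x => volume (T x) := by
    simp_rw [hTW]
    exact measurable_measure_prodMk_left hWm
  have hcm : MeasurableSet (cyl K₁ u₁ 1) := (isCompact_cyl hK₁c u₁ 1).measurableSet
  have hint : ∫⁻ x, volume (T x) ∂μ = μ K₁ := by
    simp_rw [hTW]
    rw [← Measure.prod_apply hWm, Measure.prod_apply_symm hWm]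
    have hsl : ∀ t : ℝ, μ ((fun x => (x, t)) ⁻¹' W) = (Icc (0 : ℝ) 1).indicator (fun _ => μ K₁) t := by
      intro t
      by_cases ht : t ∈ Icc (0 : ℝ) 1
      · rw [indicator_of_mem ht]
        have : (fun x => (x, t)) ⁻¹' W = (fun x => -(t • u₁) + x) ⁻¹' K₁ := by
          ext x
          simp only [mem_preimage, hWdef, mem_ofPred_eq]
          constructor
          · rintro ⟨_, h2⟩
            have : -(t • u₁) + x = x - t • u₁ := by abel
            rw [this]; exact h2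
          · intro h2
            refine ⟨ht, ?_⟩
            have : -(t • u₁) + x = x - t • u₁ := by abel
            rw [← this]; exact h2
        rw [this, measure_preimage_add]
      · rw [indicator_of_notMem ht]
        have : (fun x => (x, t)) ⁻¹' W = ∅ := by
          ext x
          simp only [mem_preimage, hWdef, mem_ofPred_eq, mem_empty_iff_false, iff_false]
          rintro ⟨h1, _⟩
          exact ht h1
        rw [this, measure_empty]
    simp_rw [hsl]
    rw [lintegral_indicator_const measurableSet_Icc, Real.volume_Icc]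
    simp
  simp_rw [hslice, hmeas]
  rw [lintegral_add_left (measurable_const.indicator hcm), lintegral_mul_const _ hTm,
    lintegral_indicator_const hcm, hint]
  have hle : ν K₂ ≤ ν (cyl K₂ u₂ 1) := measure_mono (subset_cyl K₂ u₂ zero_le_one)
  calc ν K₂ * μ (cyl K₁ u₁ 1) + μ K₁ * G + μ K₁ * ν K₂
      = μ (cyl K₁ u₁ 1) * ν K₂ + μ K₁ * (G + ν K₂) := by ring
    _ = μ (cyl K₁ u₁ 1) * ν K₂ + μ K₁ * ν (cyl K₂ u₂ 1) := by
        rw [hG, tsub_add_cancel_of_le hle]

end Vale.Agent.Lib.P237
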