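import Vale.Agent.Lib.P237.Split
import Vale.Agent.Lib.P237.ProdCyl
import Vale.Agent.Lib.P237.Ident

namespace Vale.Agent.Lib.P237

open MeasureTheory Set
open scoped Pointwise

variable {n m : ℕ}

/-- The additive form of the support function of the projection body:
`vol(K + [0,u]) - vol(K)`. -/
noncomputable def gfun (K : Set (Fin n → ℝ)) (u : Fin n → ℝ) : ℝ :=
  (volume (cyl K u 1)).toReal - (volume K).toReal

theorem cyl_zero_vec {E : Type*} [NormedAddCommGroup E] [NormedSpace ℝ E] (K : Set E) (a : ℝ)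
    (ha : 0 ≤ a) : cyl K (0 : E) a = K := by
  ext x
  constructor
  · rintro ⟨k, hk, τ, _, rfl⟩
    rw [smul_zero, add_zero]; exact hk
  · intro hx
    exact ⟨x, hx, 0, ⟨le_refl _, ha⟩, by rw [smul_zero, add_zero]⟩

theorem gfun_zero (K : Set (Fin n → ℝ)) : gfun K 0 = 0 := by
  unfold gfun
  rw [cyl_zero_vec K 1 zero_le_one, sub_self]

theorem gfun_nonneg {K : Set (Fin n → ℝ)} (hKc : IsCompact K) (u : Fin n → ℝ) : 0 ≤ gfun K u := by
  unfold gfun
  have := ENNReal.toReal_mono (isCompact_cyl hKc u 1).measure_lt_top.ne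
    (measure_mono (μ := volume) (subset_cyl K u zero_le_one))
  linarith

theorem projFun_eq_gfun {K : Set (Fin n → ℝ)} (hK : Convex ℝ K) (hKc : IsCompact K)
    {u : Fin n → ℝ} (hu : u ⬝ᵥ u ≠ 0) : projFun K u = gfun K u := by
  unfold projFun gfun
  have h := prism_eq hK hKc hu
  rw [add_seg_eq_cyl, ← h, ENNReal.toReal_add
    (isCompact_cyl (hKc.image (continuous_projPerp u)) u 1).measure_lt_top.ne
    hKc.measure_lt_top.ne]
  ring

theorem mem_projBody_iff {K : Set (Fin n → ℝ)} (hK : Convex ℝ K) (hKc : IsCompact K)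
    (x : Fin n → ℝ) : x ∈ projBody K ↔ ∀ u, x ⬝ᵥ u ≤ gfun K u := by
  constructor
  · intro hx u
    by_cases hu : u ⬝ᵥ u = 0
    · have hu0 : u = 0 := dotProduct_self_eq_zero.1 hu
      subst hu0
      rw [dotProduct_zero, gfun_zero]
    · rw [← projFun_eq_gfun hK hKc hu]
      exact hx u
  · intro hx u
    by_cases hu : u ⬝ᵥ u = 0
    · have hu0 : u = 0 := dotProduct_self_eq_zero.1 hu
      subst hu0
      show x ⬝ᵥ 0 ≤ projFun K 0
      rw [dotProduct_zero]
      exact ENNReal.toReal_nonneg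
    · show x ⬝ᵥ u ≤ projFun K u
      rw [projFun_eq_gfun hK hKc hu]
      exact hx u

theorem gfun_prodBody {K₁ : Set (Fin n → ℝ)} {K₂ : Set (Fin m → ℝ)} (h₁ : Convex ℝ K₁)
    (h₁c : IsCompact K₁) (h₂ : Convex ℝ K₂) (h₂c : IsCompact K₂) (u : Fin (n + m) → ℝ) :
    gfun (prodBody K₁ K₂) u
      = (volume K₂).toReal * gfun K₁ (splitAt n m u).1
        + (volume K₁).toReal * gfun K₂ (splitAt n m u).2 := by
  have h := prod_cyl_volume (volume : Measure (Fin n → ℝ)) (volume : Measure (Fin m → ℝ))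
    h₁ h₁c h₂ h₂c (splitAt n m u).1 (splitAt n m u).2
  have hc : volume (cyl (prodBody K₁ K₂) u 1)
      = (volume.prod volume) (cyl (K₁ ×ˢ K₂) ((splitAt n m u).1, (splitAt n m u).2) 1) := by
    rw [cyl_prodBody, volume_preimage_splitAt]
    rfl
  have f1 : volume K₁ ≠ ⊤ := h₁c.measure_lt_top.ne
  have f2 : volume K₂ ≠ ⊤ := h₂c.measure_lt_top.ne
  have f3 : volume (cyl K₁ (splitAt n m u).1 1) ≠ ⊤ := (isCompact_cyl h₁c _ 1).measure_lt_top.ne
  have f4 : volume (cyl K₂ (splitAt n m u).2 1) ≠ ⊤ := (isCompact_cyl h₂c _ 1).measure_lt_top.ne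
  have f5 : volume (cyl (prodBody K₁ K₂) u 1) ≠ ⊤ :=
    (isCompact_cyl (isCompact_prodBody h₁c h₂c) u 1).measure_lt_top.ne
  rw [← hc] at h
  have h' := congrArg ENNReal.toReal h
  rw [ENNReal.toReal_add f5 (ENNReal.mul_ne_top f1 f2),
    ENNReal.toReal_add (ENNReal.mul_ne_top f3 f2) (ENNReal.mul_ne_top f1 f4),
    ENNReal.toReal_mul, ENNReal.toReal_mul, ENNReal.toReal_mul] at h'
  unfold gfun
  rw [volume_prodBody, ENNReal.toReal_mul]
  linarith

theorem projBody_prodBody_superset {K₁ : Set (Fin n → ℝ)} {K₂ : Set (Fin m → ℝ)}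
    (h₁ : Convex ℝ K₁) (h₁c : IsCompact K₁) (h₂ : Convex ℝ K₂) (h₂c : IsCompact K₂) :
    splitAt n m ⁻¹' (((volume K₂).toReal • projBody K₁) ×ˢ ((volume K₁).toReal • projBody K₂))
      ⊆ projBody (prodBody K₁ K₂) := by
  rintro x ⟨⟨y₁, hy₁, hx₁⟩, ⟨y₂, hy₂, hx₂⟩⟩
  rw [mem_projBody_iff (convex_prodBody h₁ h₂) (isCompact_prodBody h₁c h₂c)]
  intro u
  rw [dot_splitAt, gfun_prodBody h₁ h₁c h₂ h₂c, ← hx₁, ← hx₂]
  simp only [smul_dotProduct, smul_eq_mul]
  have e1 := (mem_projBody_iff h₁ h₁c y₁).1 hy₁ (splitAt n m u).1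
  have e2 := (mem_projBody_iff h₂ h₂c y₂).1 hy₂ (splitAt n m u).2
  have v1 : 0 ≤ (volume K₁).toReal := ENNReal.toReal_nonneg
  have v2 : 0 ≤ (volume K₂).toReal := ENNReal.toReal_nonneg
  nlinarith [mul_le_mul_of_nonneg_left e1 v2, mul_le_mul_of_nonneg_left e2 v1]

theorem projBody_prodBody_subset {K₁ : Set (Fin n → ℝ)} {K₂ : Set (Fin m → ℝ)}
    (h₁ : Convex ℝ K₁) (h₁c : IsCompact K₁) (h₂ : Convex ℝ K₂) (h₂c : IsCompact K₂)
    (p₁ : 0 < volume K₁) (p₂ : 0 < volume K₂) :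
    projBody (prodBody K₁ K₂)
      ⊆ splitAt n m ⁻¹'
        (((volume K₂).toReal • projBody K₁) ×ˢ ((volume K₁).toReal • projBody K₂)) := by
  intro x hx
  rw [mem_projBody_iff (convex_prodBody h₁ h₂) (isCompact_prodBody h₁c h₂c)] at hx
  have v1 : 0 < (volume K₁).toReal := ENNReal.toReal_pos p₁.ne' h₁c.measure_lt_top.ne
  have v2 : 0 < (volume K₂).toReal := ENNReal.toReal_pos p₂.ne' h₂c.measure_lt_top.ne
  constructor
  · refine ⟨(volume K₂).toReal⁻¹ • (splitAt n m x).1, ?_, ?_⟩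
    · rw [mem_projBody_iff h₁ h₁c]
      intro u₁
      have h := hx (Fin.append u₁ 0)
      rw [dot_splitAt, gfun_prodBody h₁ h₁c h₂ h₂c, splitAt_append] at h
      simp only [dotProduct_zero, add_zero, gfun_zero, mul_zero] at h
      rw [smul_dotProduct, smul_eq_mul, inv_mul_le_iff₀ v2]
      exact h
    · show (volume K₂).toReal • ((volume K₂).toReal⁻¹ • (splitAt n m x).1) = (splitAt n m x).1
      rw [smul_smul, mul_inv_cancel₀ v2.ne', one_smul]
  · refine ⟨(volume K₁).toReal⁻¹ • (splitAt n m x).2, ?_, ?_⟩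
    · rw [mem_projBody_iff h₂ h₂c]
      intro u₂
      have h := hx (Fin.append 0 u₂)
      rw [dot_splitAt, gfun_prodBody h₁ h₁c h₂ h₂c, splitAt_append] at h
      simp only [dotProduct_zero, zero_add, gfun_zero, mul_zero] at h
      rw [smul_dotProduct, smul_eq_mul, inv_mul_le_iff₀ v1]
      exact h
    · show (volume K₁).toReal • ((volume K₁).toReal⁻¹ • (splitAt n m x).2) = (splitAt n m x).2
      rw [smul_smul, mul_inv_cancel₀ v1.ne', one_smul]

theorem volume_smul_projBody (K : Set (Fin n → ℝ)) (V : ENNReal) (hV : V ≠ ⊤) :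
    volume (V.toReal • projBody K) = V ^ n * volume (projBody K) := by
  rw [Measure.addHaar_smul]
  congr 1
  rw [Module.finrank_fin_fun, abs_of_nonneg (pow_nonneg ENNReal.toReal_nonneg n),
    ENNReal.ofReal_pow ENNReal.toReal_nonneg, ENNReal.ofReal_toReal hV]

theorem volume_prod_set (K₁ : Set (Fin n → ℝ)) (K₂ : Set (Fin m → ℝ)) (h₁c : IsCompact K₁)
    (h₂c : IsCompact K₂) :
    volume (splitAt n m ⁻¹'
        (((volume K₂).toReal • projBody K₁) ×ˢ ((volume K₁).toReal • projBody K₂)))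
      = volume K₂ ^ n * volume (projBody K₁) * (volume K₁ ^ m * volume (projBody K₂)) := by
  rw [volume_preimage_splitAt, Measure.volume_eq_prod, Measure.prod_prod,
    volume_smul_projBody K₁ _ h₂c.measure_lt_top.ne, volume_smul_projBody K₂ _ h₁c.measure_lt_top.ne]

/-- Lower bound for the volume of the projection body of a product. -/
theorem volume_projBody_prodBody_ge {K₁ : Set (Fin n → ℝ)} {K₂ : Set (Fin m → ℝ)}
    (h₁ : Convex ℝ K₁) (h₁c : IsCompact K₁) (h₂ : Convex ℝ K₂) (h₂c : IsCompact K₂) :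
    volume K₂ ^ n * volume (projBody K₁) * (volume K₁ ^ m * volume (projBody K₂))
      ≤ volume (projBody (prodBody K₁ K₂)) := by
  rw [← volume_prod_set K₁ K₂ h₁c h₂c]
  exact measure_mono (projBody_prodBody_superset h₁ h₁c h₂ h₂c)

/-- The volume of the projection body of a product of two convex bodies. -/
theorem volume_projBody_prodBody {K₁ : Set (Fin n → ℝ)} {K₂ : Set (Fin m → ℝ)}
    (h₁ : Convex ℝ K₁) (h₁c : IsCompact K₁) (h₂ : Convex ℝ K₂) (h₂c : IsCompact K₂)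
    (p₁ : 0 < volume K₁) (p₂ : 0 < volume K₂) :
    volume (projBody (prodBody K₁ K₂))
      = volume K₂ ^ n * volume (projBody K₁) * (volume K₁ ^ m * volume (projBody K₂)) := by
  rw [← volume_prod_set K₁ K₂ h₁c h₂c]
  exact le_antisymm (measure_mono (projBody_prodBody_subset h₁ h₁c h₂ h₂c p₁ p₂))
    (measure_mono (projBody_prodBody_superset h₁ h₁c h₂ h₂c))

end Vale.Agent.Lib.P237
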