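import Vale.Agent.Lib.P237.ProdBody
import Vale.Agent.Lib.P237.Ball

namespace Vale.Agent.Lib.P237

open MeasureTheory Set
open scoped Pointwise

variable {n : ℕ}

/-- The Householder reflection in the hyperplane orthogonal to `v` (the identity if `v = 0`). -/
noncomputable def hh (v : Fin n → ℝ) : (Fin n → ℝ) →ₗ[ℝ] (Fin n → ℝ) where
  toFun x := x - (2 * (x ⬝ᵥ v) / (v ⬝ᵥ v)) • v
  map_add' x y := by
    rw [add_dotProduct, mul_add, add_div, add_smul]; abel
  map_smul' c x := by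
    simp only [RingHom.id_apply]
    rw [smul_dotProduct, smul_eq_mul, smul_sub, smul_smul]
    congr 2; ring

theorem hh_apply (v x : Fin n → ℝ) : hh v x = x - (2 * (x ⬝ᵥ v) / (v ⬝ᵥ v)) • v := rfl

theorem hh_dot (v x y : Fin n → ℝ) : hh v x ⬝ᵥ hh v y = x ⬝ᵥ y := by
  by_cases hv : v ⬝ᵥ v = 0
  · simp [hh_apply, hv]
  · simp only [hh_apply, sub_dotProduct, dotProduct_sub, smul_dotProduct, dotProduct_smul,
      smul_eq_mul]
    rw [dotProduct_comm v y]
    field_simp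
    ring

theorem hh_hh (v x : Fin n → ℝ) : hh v (hh v x) = x := by
  by_cases hv : v ⬝ᵥ v = 0
  · simp [hh_apply, hv]
  · have h1 : hh v x ⬝ᵥ v = - (x ⬝ᵥ v) := by
      simp only [hh_apply, sub_dotProduct, smul_dotProduct, smul_eq_mul]
      field_simp; ring
    rw [hh_apply, h1, hh_apply, sub_sub, ← add_smul]
    have : 2 * (x ⬝ᵥ v) / (v ⬝ᵥ v) + 2 * -(x ⬝ᵥ v) / (v ⬝ᵥ v) = 0 := by ring
    rw [this, zero_smul, sub_zero]

theorem hh_sub_apply {a b : Fin n → ℝ} (h : a ⬝ᵥ a = b ⬝ᵥ b) : hh (a - b) a = b := by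
  by_cases hab : a - b = 0
  · rw [hab, hh_apply]
    simp only [dotProduct_zero, mul_zero, zero_div, zero_smul, sub_zero]
    exact sub_eq_zero.1 hab
  · have hne : (a - b) ⬝ᵥ (a - b) ≠ 0 := fun h0 => hab (dotProduct_self_eq_zero.1 h0)
    have e : (a - b) ⬝ᵥ (a - b) = 2 * (a ⬝ᵥ (a - b)) := by
      simp only [sub_dotProduct, dotProduct_sub]
      rw [dotProduct_comm b a]
      linarith
    rw [hh_apply, e]
    have hne' : 2 * (a ⬝ᵥ (a - b)) ≠ 0 := by rw [← e]; exact hne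
    rw [div_self hne', one_smul]
    abel

theorem hh_comp_self (v : Fin n → ℝ) : hh v ∘ₗ hh v = LinearMap.id := by
  exact LinearMap.ext fun x => hh_hh v x

theorem abs_det_hh (v : Fin n → ℝ) : |LinearMap.det (hh v)| = 1 := by
  have h := congrArg LinearMap.det (hh_comp_self v)
  rw [LinearMap.det_comp, LinearMap.det_id] at h
  have h2 : |LinearMap.det (hh v)| * |LinearMap.det (hh v)| = 1 := by
    rw [← abs_mul, h, abs_one]
  nlinarith [abs_nonneg (LinearMap.det (hh v))]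

theorem hh_image_eball (v : Fin n → ℝ) (r : ℝ) : hh v '' eball n r = eball n r := by
  ext x
  constructor
  · rintro ⟨y, hy, rfl⟩
    show ∑ i, (hh v y) i ^ 2 ≤ r ^ 2
    rw [sum_sq_eq_dot, hh_dot, ← sum_sq_eq_dot]
    exact hy
  · intro hx
    refine ⟨hh v x, ?_, hh_hh v x⟩
    show ∑ i, (hh v x) i ^ 2 ≤ r ^ 2
    rw [sum_sq_eq_dot, hh_dot, ← sum_sq_eq_dot]
    exact hx

/-! ### Covariance of `cyl`, `gfun` and `projBody` -/

theorem image_cyl {E F : Type*} [NormedAddCommGroup E] [NormedSpace ℝ E] [NormedAddCommGroup F]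
    [NormedSpace ℝ F] {f : E → F} (hf : IsLinearMap ℝ f) (K : Set E) (u : E) (a : ℝ) :
    f '' cyl K u a = cyl (f '' K) (f u) a := by
  ext y
  constructor
  · rintro ⟨_, ⟨k, hk, τ, hτ, rfl⟩, rfl⟩
    exact ⟨f k, ⟨k, hk, rfl⟩, τ, hτ, by rw [hf.map_add, hf.map_smul]⟩
  · rintro ⟨_, ⟨k, hk, rfl⟩, τ, hτ, rfl⟩
    exact ⟨k + τ • u, ⟨k, hk, τ, hτ, rfl⟩, by rw [hf.map_add, hf.map_smul]⟩

theorem convex_cyl {E : Type*} [NormedAddCommGroup E] [NormedSpace ℝ E] {K : Set E}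
    (hK : Convex ℝ K) (u : E) (a : ℝ) : Convex ℝ (cyl K u a) := by
  rintro _ ⟨k1, hk1, t1, ht1, rfl⟩ _ ⟨k2, hk2, t2, ht2, rfl⟩ p q hp hq hpq
  refine ⟨p • k1 + q • k2, hK hk1 hk2 hp hq hpq, p * t1 + q * t2,
    convex_Icc (0 : ℝ) a ht1 ht2 hp hq hpq, ?_⟩
  module

theorem cyl_comm {E : Type*} [NormedAddCommGroup E] [NormedSpace ℝ E] (K : Set E) (u v : E)
    (a b : ℝ) : cyl (cyl K u a) v b = cyl (cyl K v b) u a := by
  ext x
  constructor
  · rintro ⟨_, ⟨k, hk, s, hs, rfl⟩, t, ht, rfl⟩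
    exact ⟨k + t • v, ⟨k, hk, t, ht, rfl⟩, s, hs, by abel⟩
  · rintro ⟨_, ⟨k, hk, t, ht, rfl⟩, s, hs, rfl⟩
    exact ⟨k + s • u, ⟨k, hk, s, hs, rfl⟩, t, ht, by abel⟩

theorem cyl_translate {E : Type*} [NormedAddCommGroup E] [NormedSpace ℝ E] (c : E) (K : Set E)
    (u : E) (a : ℝ) : cyl ((fun x => c + x) '' K) u a = (fun x => c + x) '' cyl K u a := by
  ext x
  constructor
  · rintro ⟨_, ⟨k, hk, rfl⟩, t, ht, rfl⟩
    exact ⟨k + t • u, ⟨k, hk, t, ht, rfl⟩, (add_assoc c k _).symm⟩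
  · rintro ⟨_, ⟨k, hk, t, ht, rfl⟩, rfl⟩
    exact ⟨c + k, ⟨k, hk, rfl⟩, t, ht, (add_assoc c k _).symm⟩

theorem volume_translate (c : Fin n → ℝ) (S : Set (Fin n → ℝ)) :
    volume ((fun x => c + x) '' S) = volume S := by
  rw [image_add_left, measure_preimage_add]

theorem gfun_translate (c : Fin n → ℝ) (K : Set (Fin n → ℝ)) (u : Fin n → ℝ) :
    gfun ((fun x => c + x) '' K) u = gfun K u := by
  unfold gfun
  rw [cyl_translate, volume_translate, volume_translate]

theorem gfun_image (f : (Fin n → ℝ) →ₗ[ℝ] (Fin n → ℝ)) (K : Set (Fin n → ℝ)) (u : Fin n → ℝ) :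
    gfun (f '' K) (f u) = |LinearMap.det f| * gfun K u := by
  unfold gfun
  rw [← image_cyl f.isLinear, Measure.addHaar_image_linearMap, Measure.addHaar_image_linearMap,
    ENNReal.toReal_mul, ENNReal.toReal_mul, ENNReal.toReal_ofReal (abs_nonneg _)]
  ring

theorem det_mulVecLin (M : Matrix (Fin n) (Fin n) ℝ) : LinearMap.det M.mulVecLin = M.det := by
  rw [← Matrix.toLin'_apply', LinearMap.det_toLin']

theorem continuous_mulVecLin (M : Matrix (Fin n) (Fin n) ℝ) : Continuous M.mulVecLin :=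
  LinearMap.continuous_of_finiteDimensional _

theorem projBody_translate (c : Fin n → ℝ) {K : Set (Fin n → ℝ)} (hK : Convex ℝ K)
    (hKc : IsCompact K) : projBody ((fun x => c + x) '' K) = projBody K := by
  have hK' : Convex ℝ ((fun x => c + x) '' K) := by
    have : (fun x => c + x) '' K = c +ᵥ K := by
      rw [← Set.image_vadd]; rfl
    rw [this]; exact hK.vadd c
  have hKc' : IsCompact ((fun x => c + x) '' K) := hKc.image (by fun_prop)
  ext x
  rw [mem_projBody_iff hK' hKc', mem_projBody_iff hK hKc]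
  simp only [gfun_translate]

theorem projBody_image (M : Matrix (Fin n) (Fin n) ℝ) (hM : M.det ≠ 0) {K : Set (Fin n → ℝ)}
    (hK : Convex ℝ K) (hKc : IsCompact K) :
    projBody (M.mulVecLin '' K)
      = (|M.det|⁻¹ • M.transpose.mulVecLin) ⁻¹' projBody K := by
  have hK' : Convex ℝ (M.mulVecLin '' K) := hK.is_linear_image M.mulVecLin.isLinear
  have hKc' : IsCompact (M.mulVecLin '' K) := hKc.image (continuous_mulVecLin M)
  have hpos : 0 < |M.det| := abs_pos.2 hM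
  ext x
  rw [mem_projBody_iff hK' hKc', mem_preimage, mem_projBody_iff hK hKc]
  have key : ∀ u, (|M.det|⁻¹ • M.transpose.mulVecLin) x ⬝ᵥ u ≤ gfun K u
      ↔ x ⬝ᵥ M.mulVecLin u ≤ gfun (M.mulVecLin '' K) (M.mulVecLin u) := by
    intro u
    rw [gfun_image, det_mulVecLin]
    simp only [LinearMap.smul_apply, Matrix.mulVecLin_apply, smul_dotProduct, smul_eq_mul]
    rw [Matrix.mulVec_transpose, ← Matrix.dotProduct_mulVec, inv_mul_le_iff₀ hpos]
  constructor
  · intro h u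
    exact (key u).2 (h _)
  · intro h u'
    have hu : M.mulVecLin (M⁻¹.mulVec u') = u' := by
      rw [Matrix.mulVecLin_apply, Matrix.mulVec_mulVec,
        Matrix.mul_nonsing_inv _ (isUnit_iff_ne_zero.2 hM), Matrix.one_mulVec]
    rw [← hu]
    exact (key _).1 (h _)

theorem volume_projBody_image (M : Matrix (Fin n) (Fin n) ℝ) (hM : M.det ≠ 0)
    {K : Set (Fin n → ℝ)} (hK : Convex ℝ K) (hKc : IsCompact K) :
    volume (projBody (M.mulVecLin '' K))
      = ENNReal.ofReal (|M.det| ^ (n - 1)) * volume (projBody K) := by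
  have hpos : 0 < |M.det| := abs_pos.2 hM
  have hdet : LinearMap.det (|M.det|⁻¹ • M.transpose.mulVecLin) = (|M.det|⁻¹) ^ n * M.det := by
    rw [LinearMap.det_smul, det_mulVecLin, Matrix.det_transpose, Module.finrank_fin_fun]
  have hne : LinearMap.det (|M.det|⁻¹ • M.transpose.mulVecLin) ≠ 0 := by
    rw [hdet]
    exact mul_ne_zero (pow_ne_zero _ (inv_ne_zero hpos.ne')) hM
  rw [projBody_image M hM hK hKc, Measure.addHaar_preimage_linearMap _ hne, hdet]
  congr 2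
  rw [mul_inv, abs_mul, abs_inv, abs_inv, abs_pow, abs_inv, abs_abs, inv_pow, inv_inv]
  rcases n with _ | m
  · have : M.det = 1 := Matrix.det_fin_zero
    simp [this]
  · simp only [Nat.add_sub_cancel]
    rw [pow_succ]
    field_simp

end Vale.Agent.Lib.P237
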