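import Vale.Agent.Lib.P237.Defs2
import Vale.Agent.Lib.P237.Seg

namespace Vale.Agent.Lib.P237

open MeasureTheory Set
open scoped Pointwise

variable {n m : ℕ}

/-- Splitting a point of `ℝⁿ⁺ᵐ` into its first `n` and last `m` coordinates. -/
def splitAt (n m : ℕ) (x : Fin (n + m) → ℝ) : (Fin n → ℝ) × (Fin m → ℝ) :=
  (fun i => x (Fin.castAdd m i), fun j => x (Fin.natAdd n j))

theorem isLinearMap_splitAt : IsLinearMap ℝ (splitAt n m) := by
  constructor
  · intro x y
    unfold splitAt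
    ext <;> simp
  · intro c x
    unfold splitAt
    ext <;> simp

theorem splitAt_add_smul (x u : Fin (n + m) → ℝ) (τ : ℝ) :
    splitAt n m (x + τ • u) = splitAt n m x + τ • splitAt n m u := by
  rw [isLinearMap_splitAt.map_add, isLinearMap_splitAt.map_smul]

theorem volume_preimage_splitAt (S : Set ((Fin n → ℝ) × (Fin m → ℝ))) :
    volume (splitAt n m ⁻¹' S) = volume S := by
  set e := (MeasurableEquiv.piCongrLeft (fun _ : Fin (n + m) => ℝ) finSumFinEquiv).symm.trans
    (MeasurableEquiv.sumPiEquivProdPi (fun _ : Fin n ⊕ Fin m => ℝ)) with he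
  have hmp : MeasurePreserving e volume volume :=
    ((volume_measurePreserving_piCongrLeft (fun _ : Fin (n + m) => ℝ) finSumFinEquiv).symm).trans
      (volume_measurePreserving_sumPiEquivProdPi (fun _ : Fin n ⊕ Fin m => ℝ))
  have h := hmp.measure_preimage_equiv S
  have heq : (⇑e) = splitAt n m := by
    funext x
    refine Prod.ext ?_ ?_
    · funext i
      simp [he, splitAt, MeasurableEquiv.sumPiEquivProdPi, Equiv.sumPiEquivProdPi,
        MeasurableEquiv.piCongrLeft, Equiv.piCongrLeft, Equiv.piCongrLeft']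
    · funext j
      simp [he, splitAt, MeasurableEquiv.sumPiEquivProdPi, Equiv.sumPiEquivProdPi,
        MeasurableEquiv.piCongrLeft, Equiv.piCongrLeft, Equiv.piCongrLeft']
  rw [heq] at h
  exact h

theorem dot_splitAt (x u : Fin (n + m) → ℝ) :
    x ⬝ᵥ u = (splitAt n m x).1 ⬝ᵥ (splitAt n m u).1 + (splitAt n m x).2 ⬝ᵥ (splitAt n m u).2 := by
  simp only [dotProduct, splitAt]
  exact Fin.sum_univ_add _

theorem splitAt_append (y₁ : Fin n → ℝ) (y₂ : Fin m → ℝ) :
    splitAt n m (Fin.append y₁ y₂) = (y₁, y₂) := by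
  unfold splitAt
  refine Prod.ext ?_ ?_
  · funext i; simp
  · funext j; simp

theorem append_splitAt (x : Fin (n + m) → ℝ) :
    Fin.append (splitAt n m x).1 (splitAt n m x).2 = x := by
  funext k
  refine Fin.addCases (fun i => ?_) (fun j => ?_) k
  · simp [splitAt]
  · simp [splitAt]

theorem prodBody_eq (K₁ : Set (Fin n → ℝ)) (K₂ : Set (Fin m → ℝ)) :
    prodBody K₁ K₂ = splitAt n m ⁻¹' (K₁ ×ˢ K₂) := rfl

theorem convex_prodBody {K₁ : Set (Fin n → ℝ)} {K₂ : Set (Fin m → ℝ)} (h₁ : Convex ℝ K₁)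
    (h₂ : Convex ℝ K₂) : Convex ℝ (prodBody K₁ K₂) := by
  rw [prodBody_eq]
  exact (h₁.prod h₂).is_linear_preimage isLinearMap_splitAt

theorem isCompact_prodBody {K₁ : Set (Fin n → ℝ)} {K₂ : Set (Fin m → ℝ)} (h₁ : IsCompact K₁)
    (h₂ : IsCompact K₂) : IsCompact (prodBody K₁ K₂) := by
  have : prodBody K₁ K₂
      = (fun p : (Fin n → ℝ) × (Fin m → ℝ) => Fin.append p.1 p.2) '' (K₁ ×ˢ K₂) := by
    ext x
    constructor
    · intro hx
      exact ⟨splitAt n m x, hx, append_splitAt x⟩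
    · rintro ⟨⟨y₁, y₂⟩, hy, rfl⟩
      rw [prodBody_eq]
      show splitAt n m (Fin.append y₁ y₂) ∈ K₁ ×ˢ K₂
      rw [splitAt_append]; exact hy
  rw [this]
  apply (h₁.prod h₂).image
  apply continuous_pi
  intro k
  refine Fin.addCases (fun i => ?_) (fun j => ?_) k
  · simp only [Fin.append_left]; fun_prop
  · simp only [Fin.append_right]; fun_prop

theorem cyl_prodBody (K₁ : Set (Fin n → ℝ)) (K₂ : Set (Fin m → ℝ)) (u : Fin (n + m) → ℝ) :
    cyl (prodBody K₁ K₂) u 1 = splitAt n m ⁻¹' cyl (K₁ ×ˢ K₂) (splitAt n m u) 1 := by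
  ext x
  constructor
  · rintro ⟨k, hk, τ, hτ, rfl⟩
    exact ⟨splitAt n m k, hk, τ, hτ, splitAt_add_smul k u τ⟩
  · rintro ⟨k', hk', τ, hτ, hx⟩
    refine ⟨x - τ • u, ?_, τ, hτ, by abel⟩
    show splitAt n m (x - τ • u) ∈ K₁ ×ˢ K₂
    have : splitAt n m (x - τ • u) = k' := by
      have h1 : x - τ • u = x + (-τ) • u := by rw [neg_smul]; abel
      rw [h1, splitAt_add_smul, hx, neg_smul]; abel
    rw [this]; exact hk'

theorem volume_prodBody (K₁ : Set (Fin n → ℝ)) (K₂ : Set (Fin m → ℝ)) :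
    volume (prodBody K₁ K₂) = volume K₁ * volume K₂ := by
  rw [prodBody_eq, volume_preimage_splitAt, Measure.volume_eq_prod, Measure.prod_prod]

end Vale.Agent.Lib.P237
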